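import Crest.Agent.R246.Defs

/-!
# Row 246, block A (Allen–Cahn min-max; architect helper55): definitions

`n = finrank E ≥ 3`.  Functions on the unit sphere are elements of the Banach space
`X E = C(sphere, ℝ)`; `ext u` is the `0`-homogeneous extension to `E`.  All averages are taken with
respect to the finite measure `mu E = gk (n-1) 0 1 y / ‖y‖ dy`.  Energies are defined for
*Lipschitz* functions (Rademacher), so no smoothing is needed anywhere.
-/

set_option autoImplicit false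
set_option linter.unusedSectionVars false

open MeasureTheory Metric Filter Topology Set Module
open scoped RealInnerProductSpace ENNReal NNReal ContDiff Real

noncomputable section

namespace Crest.Agent.R246.A

/-- clamp to `[-1,1]` -/
def cl1 (u : ℝ) : ℝ := max (-1) (min u 1)

/-- `g u = 3c - c³`, `c = clamp u` -/
def gg (u : ℝ) : ℝ := 3 * cl1 u - cl1 u ^ 3

/-- truncated double well: `W` on `[-1,1]`, `(|u|-1)²` outside; `Wt' u = 2u - gg u` -/
def Wt (u : ℝ) : ℝ := W (cl1 u) + (u - cl1 u) ^ 2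

/-- the heteroclinic profile -/
def HH (ε s : ℝ) : ℝ := Real.tanh (s / (ε * √2))

/-- its energy density, `∫ GG ε = 1` -/
def GG (ε s : ℝ) : ℝ := 2 * W (HH ε s) / (ε * sig)

variable (E : Type) [NormedAddCommGroup E] [InnerProductSpace ℝ E] [FiniteDimensional ℝ E]

/-- continuous functions on the unit sphere -/
abbrev X : Type := C(sphere (0 : E) 1, ℝ)

/-- `κ = (n-2)/2` -/
def kap : ℝ := ((finrank ℝ E : ℝ) - 2) / 2

variable {E}

/-- radial projection to the sphere -/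
def nrm (y : E) (h : y ≠ 0) : sphere (0 : E) 1 :=
  ⟨‖y‖⁻¹ • y, by
    rw [mem_sphere_zero_iff_norm, norm_smul, norm_inv, norm_norm,
      inv_mul_cancel₀ (norm_ne_zero_iff.2 h)]⟩

open Classical in
/-- `0`-homogeneous extension -/
def ext (u : X E) (y : E) : ℝ := if h : y = 0 then 0 else u (nrm y h)

/-- Lipschitz functions on the sphere -/
def Lip (u : X E) : Prop := ∃ L : ℝ≥0, LipschitzWith L u

/-- `gg ∘ u` -/
def gX (u : X E) : X E := ⟨fun x => gg (u x), by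
  unfold gg cl1
  fun_prop⟩

/-- an isometry acts on the sphere -/
def rotS (R : E ≃ₗᵢ[ℝ] E) (x : sphere (0 : E) 1) : sphere (0 : E) 1 :=
  ⟨R x, by rw [mem_sphere_zero_iff_norm, R.norm_map]; exact norm_eq_of_mem_sphere x⟩

theorem continuous_rotS (R : E ≃ₗᵢ[ℝ] E) : Continuous (rotS R) :=
  (R.continuous.comp continuous_subtype_val).subtype_mk _

/-- `u ∘ R` for an isometry `R` -/
def rot (R : E ≃ₗᵢ[ℝ] E) (u : X E) : X E := u.comp ⟨rotS R, continuous_rotS R⟩

/-- test functions: Lipschitz with compact support in `E ∖ 0` -/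
structure Tst (Φ : E → ℝ) : Prop where
  lip : ∃ L : ℝ≥0, LipschitzWith L Φ
  cpt : HasCompactSupport Φ
  supp : tsupport Φ ⊆ {0}ᶜ

/-- regularised Newton kernel `(|x|² + δ²)^{-κ}` -/
def nk (δ : ℝ) (x : E) : ℝ := (‖x‖ ^ 2 + δ ^ 2) ^ (-kap E)

/-- its gradient -/
def ng (δ : ℝ) (x : E) : E := (-2 * kap E * (‖x‖ ^ 2 + δ ^ 2) ^ (-kap E - 1)) • x

/-- minus its Laplacian -/
def nl (δ : ℝ) (x : E) : ℝ :=
  2 * kap E * (finrank ℝ E : ℝ) * δ ^ 2 * (‖x‖ ^ 2 + δ ^ 2) ^ (-kap E - 2)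

/-- the pairing of `ℝ × E` with itself -/
def pr (a b : ℝ × E) : ℝ := a.1 * b.1 + ⟪a.2, b.2⟫

variable [MeasurableSpace E] [BorelSpace E]

variable (E) in
/-- the weight of all averages -/
def om (y : E) : ℝ := gk (finrank ℝ E - 1) 0 1 y / ‖y‖

variable (E) in
/-- the reference measure (finite if `n ≥ 2`) -/
def mu : Measure E := (volume : Measure E).withDensity fun y => ENNReal.ofReal (om E y)

/-- the bilinear form of `-ε²Δ_S + 2` -/
def Hb (ε : ℝ) (u v : X E) : ℝ :=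
  ∫ y, (ε ^ 2 * ‖y‖ ^ 2 * ⟪gradient (ext u) y, gradient (ext v) y⟫ + 2 * (ext u y * ext v y)) ∂mu E

/-- truncated normalised energy -/
def Et (ε : ℝ) (u : X E) : ℝ :=
  (∫ y, (ε * ‖y‖ ^ 2 * ‖gradient (ext u) y‖ ^ 2 / 2 + Wt (ext u y) / ε) ∂mu E) / sig

/-- moments of order `0` and `1` -/
def Ph (u : X E) : ℝ × E := (∫ y, ext u y ∂mu E, ∫ y, ext u y • (‖y‖⁻¹ • y) ∂mu E)

/-- `K = (-ε²Δ_S + 2)⁻¹ : C⁰ → C¹` -/
structure Res (ε : ℝ) (K : X E →L[ℝ] X E) : Prop where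
  c1 : ∀ f, ContDiffOn ℝ 1 (ext (K f)) {0}ᶜ
  grad : ∃ c : ℝ, ∀ f y, ‖y‖ * ‖gradient (ext (K f)) y‖ ≤ c * ‖f‖
  weak : ∀ f φ, Lip φ → Hb ε (K f) φ = ∫ y, ext f y * ext φ y ∂mu E
  comm : ∀ (R : E ≃ₗᵢ[ℝ] E) f, K (rot R f) = rot R (K f)

/-- the descent map `u ↦ K g(u)` -/
def SS (K : X E →L[ℝ] X E) (u : X E) : X E := K (gX u)

/-- admissible densities for the Newton potential -/
structure Den (F : E → ℝ) (M : ℝ) : Prop where
  meas : Measurable F
  bd : ∀ z, |F z| ≤ M * ‖z‖ ^ (-(kap E + 2))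

/-- Newton potential -/
def NP (δ : ℝ) (F : E → ℝ) (y : E) : ℝ := ∫ z, nk δ (y - z) * F z

/-- its gradient -/
def NG (δ : ℝ) (F : E → ℝ) (y : E) : E := ∫ z, F z • ng δ (y - z)

variable (E) in
/-- mass of `-Δ nk` -/
def cN : ℝ := ∫ x : E, nl 1 x

/-- integral over the unit sphere -/
def sa (h : E → ℝ) : ℝ := ∫ x : sphere (0 : E) 1, h x ∂(volume : Measure E).toSphere

variable (E) in
/-- radial integral -/
def ra (a : ℝ → ℝ) : ℝ := ∫ r : Ioi (0 : ℝ), a r ∂Measure.volumeIoiPow (finrank ℝ E - 1)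

end Crest.Agent.R246.A
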