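import Crest.Agent.R246.A.Polar

/-! Row 246, block A: the descent inequality. -/

set_option autoImplicit false
set_option linter.unusedSectionVars false

open MeasureTheory Metric Filter Topology Set Module
open scoped RealInnerProductSpace ENNReal NNReal ContDiff Real

noncomputable section

namespace Crest.Agent.R246.A

variable {E : Type} [NormedAddCommGroup E] [InnerProductSpace ℝ E] [FiniteDimensional ℝ E]
  [MeasurableSpace E] [BorelSpace E] [hn : Fact (3 ≤ finrank ℝ E)]

theorem Lip.integrable_inner {u v : X E} (hu : Lip u) (hv : Lip v) : Integrable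
    (fun y => ‖y‖ ^ 2 * ⟪gradient (ext u) y, gradient (ext v) y⟫) (mu E) := by
  obtain ⟨L, hL⟩ := hu.exists_grad
  obtain ⟨M, hM⟩ := hv.exists_grad
  have h1 := measurable_gradient (ext u)
  have h2 := measurable_gradient (ext v)
  refine Integrable.of_bound (Measurable.aestronglyMeasurable (by fun_prop)) (L * M)
    (Eventually.of_forall fun y => ?_)
  rw [norm_mul, Real.norm_of_nonneg (sq_nonneg _)]
  refine le_trans ?_ (mul_le_mul (hL y) (hM y) (by positivity) (le_trans (by positivity) (hL y)))
  exact (mul_le_mul_of_nonneg_left (norm_inner_le_norm _ _) (sq_nonneg _)).trans_eq (by ring)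

theorem Lip.integrable_sq {u : X E} (hu : Lip u) :
    Integrable (fun y => ‖y‖ ^ 2 * ‖gradient (ext u) y‖ ^ 2) (mu E) := by
  simpa only [real_inner_self_eq_norm_sq] using hu.integrable_inner hu

theorem integrable_Wt (u : X E) : Integrable (fun y => Wt (ext u y)) (mu E) := by
  obtain ⟨C, hC⟩ := (isCompact_Icc (a := -‖u‖) (b := ‖u‖)).exists_bound_of_continuousOn
    continuous_Wt.continuousOn
  exact Integrable.of_bound (continuous_Wt.measurable.comp (measurable_ext u)).aestronglyMeasurable
    C (Eventually.of_forall fun y => hC _ (abs_le.1 (abs_ext_le u y)))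

theorem integrable_ext_mul (u v : X E) : Integrable (fun y => ext u y * ext v y) (mu E) := by
  exact (integrable_ext v).bdd_mul (measurable_ext u).aestronglyMeasurable
    (Eventually.of_forall fun y => abs_ext_le u y)

theorem Lip.ae_gradient_add_smul {u w : X E} (hu : Lip u) (hw : Lip w) (h : ℝ) : ∀ᵐ y ∂mu E,
    gradient (ext (u + h • w)) y = gradient (ext u) y + h • gradient (ext w) y := by
  filter_upwards [mu_ac.ae_le hu.ae_diff, mu_ac.ae_le hw.ae_diff] with y h1 h2
  have h1' : DifferentiableAt ℝ (ext u) y := h1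
  have h2' : DifferentiableAt ℝ (ext w) y := h2
  simp only [ext_add, ext_smul, gradient]
  rw [fderiv_fun_add h1' (h2'.const_mul h), fderiv_const_mul h2', map_add, map_smul]

theorem Res.lip {ε : ℝ} {K : X E →L[ℝ] X E} (hK : Res ε K) : ∃ L : ℝ, 0 ≤ L ∧ ∀ f x x',
    |K f x - K f x'| ≤ L * ‖f‖ * dist x x' := by
  obtain ⟨c, hc⟩ := hK.grad
  refine ⟨2 * |c| + 2 * ‖K‖, by positivity, fun f x x' => ?_⟩
  refine (abs_sub_le_of_grad ((hK.c1 f).differentiableOn one_ne_zero) (hc f) x x').trans
    (mul_le_mul_of_nonneg_right ?_ dist_nonneg)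
  nlinarith [K.le_opNorm f, mul_le_mul_of_nonneg_right (le_abs_self c) (norm_nonneg f)]

theorem Res.lip_SS {ε : ℝ} {K : X E →L[ℝ] X E} (hK : Res ε K) (u : X E) : Lip (SS K u) := by
  obtain ⟨L, -, hL⟩ := hK.lip
  exact ⟨_, LipschitzWith.of_dist_le' (hL (gX u))⟩

theorem continuous_SS (K : X E →L[ℝ] X E) : Continuous (SS K) := K.continuous.comp continuous_gX

theorem Et_nonneg {ε : ℝ} (hε : 0 < ε) (u : X E) : 0 ≤ Et ε u := by
  refine div_nonneg (integral_nonneg fun y => ?_) sig_pos.le
  have := Wt_nonneg (ext u y)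
  positivity

theorem two_mul_integral_sq_le (ε : ℝ) {w : X E} (hw : Lip w) :
    2 * ∫ y, ext w y * ext w y ∂mu E ≤ Hb ε w w := by
  rw [← integral_const_mul]
  refine integral_mono ((integrable_ext_mul w w).const_mul 2) ?_ fun y => ?_
  · simp only [mul_assoc (ε ^ 2)]
    exact ((hw.integrable_inner hw).const_mul _).add ((integrable_ext_mul w w).const_mul 2)
  · simp only [real_inner_self_eq_norm_sq]
    exact le_add_of_nonneg_left (by positivity)

/-- With `v = SS K u`, `w = v - u`: a.e. `∇(u + h w) = ∇u + h∇w` and `∇v = ∇u + ∇w`;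
`Wt_add_le`; `hK.weak (gX u) w`: `Hb v w = ∫ gg(u) w`, and `Hb v w = Hb u w + Hb w w`.  So
`εσ (Et (u + h w) - Et u) ≤ h (Hb u w - ∫ gg(u) w) + h² Hb w w / 2 = -(h - h²/2) Hb w w`. -/
theorem descent {ε : ℝ} (hε : 0 < ε) {K : X E →L[ℝ] X E} (hK : Res ε K) {u : X E} (hu : Lip u)
    {h : ℝ} (h0 : 0 ≤ h) :
    Et ε (u + h • (SS K u - u)) ≤
      Et ε u - (h - h ^ 2 / 2) * Hb ε (SS K u - u) (SS K u - u) / (ε * sig) := by
  have hw : Lip (SS K u - u) := (hK.lip_SS u).sub hu
  have a1 := hK.weak (gX u) _ hw
  set w := SS K u - u with hwd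
  have e1 : K (gX u) = u + (1 : ℝ) • w := by rw [one_smul, hwd, add_sub_cancel]; rfl
  have iH : ∀ {a b : X E}, Lip a → Lip b → Integrable (fun y => ε ^ 2 * ‖y‖ ^ 2 *
      ⟪gradient (ext a) y, gradient (ext b) y⟫ + 2 * (ext a y * ext b y)) (mu E) := fun ha hb => by
    simp only [mul_assoc (ε ^ 2)]
    exact ((ha.integrable_inner hb).const_mul _).add ((integrable_ext_mul _ _).const_mul 2)
  have iE : ∀ {a : X E}, Lip a → Integrable (fun y =>
      ε * ‖y‖ ^ 2 * ‖gradient (ext a) y‖ ^ 2 / 2 + Wt (ext a y) / ε) (mu E) := fun ha => by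
    simp only [mul_assoc ε]
    exact ((ha.integrable_sq.const_mul _).div_const _).add ((integrable_Wt _).div_const _)
  have i1 := (iH (hu.add (hw.smul 1)) hw).sub (integrable_ext_mul (gX u) w)
  have i2 := ((iE hu).add (i1.const_mul (h / ε))).sub ((iH hw hw).const_mul ((h - h ^ 2 / 2) / ε))
  have m := integral_mono_ae (iE (hu.add (hw.smul h))) i2 (by
    filter_upwards [hu.ae_gradient_add_smul hw h, hu.ae_gradient_add_smul hw 1] with y g1 g2
    have := div_le_div_of_nonneg_right (Wt_add_le (ext u y) (h * ext w y)) hε.le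
    simp only [Pi.add_apply, Pi.sub_apply, g1, g2]
    simp only [ext_add, ext_smul, ext_gX, norm_add_sq_real, inner_add_left, real_inner_smul_right,
      real_inner_smul_left, real_inner_self_eq_norm_sq, norm_smul, mul_pow, Real.norm_eq_abs, sq_abs]
    refine (add_le_add le_rfl this).trans_eq ?_
    field_simp
    ring)
  rw [integral_sub' ((iE hu).add (i1.const_mul _)) ((iH hw hw).const_mul _),
    integral_add' (iE hu) (i1.const_mul _), integral_const_mul, integral_const_mul,
    integral_sub' (iH (hu.add (hw.smul 1)) hw) (integrable_ext_mul _ _), ← a1, e1, Hb, sub_self,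
    mul_zero, add_zero] at m
  have := div_le_div_of_nonneg_right m sig_pos.le
  refine this.trans_eq ?_
  rw [sub_div, Et, Hb]
  congr 1
  ring

/-- dominated convergence: `ext (K f_j) y → ext (K f) y` and
`‖y‖ ‖∇ext (K f_j) y - ∇ext (K f) y‖ ≤ c ‖f_j - f‖` (`hK.grad` for `f_j - f`, `hK.c1`); or show a
direct Lipschitz estimate on bounded sets. -/
theorem continuous_Et_K {ε : ℝ} {K : X E →L[ℝ] X E} (hK : Res ε K) :
    Continuous fun f => Et ε (K f) := by
  obtain ⟨c, hc⟩ := hK.grad
  refine Continuous.div_const (continuous_iff_continuousAt.2 fun f₀ => ?_) _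
  obtain ⟨C, hC⟩ := (isCompact_closedBall (0 : ℝ) (‖K‖ * (‖f₀‖ + 1))).exists_bound_of_continuousOn
    continuous_Wt.continuousOn
  refine continuousAt_of_dominated (bound := fun _ => |ε| * (|c| * (‖f₀‖ + 1)) ^ 2 / 2 + C / |ε|)
    (Eventually.of_forall fun f => Measurable.aestronglyMeasurable ?_) ?_ (integrable_const _) ?_
  · have h1 := measurable_gradient (ext (K f))
    have h2 := continuous_Wt.measurable.comp (measurable_ext (K f))
    exact Measurable.add (by fun_prop) (h2.div_const _)
  · filter_upwards [continuous_norm.continuousAt.eventually (gt_mem_nhds (lt_add_one ‖f₀‖))]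
      with f hf
    refine Eventually.of_forall fun y => (norm_add_le _ _).trans (add_le_add ?_ ?_)
    · have := (hc f y).trans (mul_le_mul (le_abs_self c) hf.le (norm_nonneg _) (abs_nonneg _))
      rw [mul_assoc, ← mul_pow, norm_div, norm_mul, Real.norm_of_nonneg (sq_nonneg _),
        Real.norm_two, Real.norm_eq_abs]
      gcongr
    · rw [norm_div]
      refine div_le_div_of_nonneg_right (hC _ (mem_closedBall_zero_iff.2 ?_)) (norm_nonneg _)
      exact (abs_ext_le _ y).trans ((K.le_opNorm f).trans (by gcongr))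
  · filter_upwards [ae_ne_zero_mu] with y hy
    have hd : ∀ f, DifferentiableAt ℝ (ext (K f)) y := fun f =>
      ((hK.c1 f).contDiffAt (isOpen_compl_singleton.mem_nhds hy)).differentiableAt one_ne_zero
    have h1 : Continuous fun f => gradient (ext (K f)) y := by
      refine (LipschitzWith.of_dist_le' (K := c / ‖y‖) fun f g => ?_).continuous
      have := hc (f - g) y
      rw [map_sub, ext_sub, gradient, fderiv_fun_sub (hd f) (hd g), map_sub] at this
      rw [dist_eq_norm, dist_eq_norm, div_mul_eq_mul_div, le_div_iff₀ (norm_pos_iff.2 hy), mul_comm]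
      exact this
    have h2 : Continuous fun f => ext (K f) y := by
      simp only [ext_of_ne _ hy]
      exact ((ContinuousMap.evalCLM ℝ (nrm y hy)).comp K).continuous
    have := continuous_Wt.comp h2
    exact (Continuous.add (by fun_prop) (this.div_const _)).continuousAt

end Crest.Agent.R246.A
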