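import Crest.Agent.R246.A.Pot

/-! Row 246, block A: `0`-homogeneous extensions, Lipschitz functions. -/

set_option autoImplicit false
set_option linter.unusedSectionVars false

open MeasureTheory Metric Filter Topology Set Module
open scoped RealInnerProductSpace ENNReal NNReal ContDiff Real

noncomputable section

namespace Crest.Agent.R246.A

variable {E : Type} [NormedAddCommGroup E] [InnerProductSpace ℝ E] [FiniteDimensional ℝ E]
  [MeasurableSpace E] [BorelSpace E] [hn : Fact (3 ≤ finrank ℝ E)]

theorem ext_of_ne (u : X E) {y : E} (h : y ≠ 0) : ext u y = u (nrm y h) := dif_neg h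

theorem ext_zero (u : X E) : ext u (0 : E) = 0 := dif_pos rfl

theorem coe_ne_zero (x : sphere (0 : E) 1) : (x : E) ≠ 0 := ne_zero_of_mem_unit_sphere x

theorem ext_coe (u : X E) (x : sphere (0 : E) 1) : ext u x = u x := by
  rw [ext_of_ne u (coe_ne_zero x)]
  congr 1
  ext1
  simp [nrm]

theorem ext_add (u v : X E) : ext (u + v) = fun y => ext u y + ext v y := by
  funext y; unfold ext; split_ifs <;> simp

theorem ext_sub (u v : X E) : ext (u - v) = fun y => ext u y - ext v y := by
  funext y; unfold ext; split_ifs <;> simp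

theorem ext_smul (c : ℝ) (u : X E) : ext (c • u) = fun y => c * ext u y := by
  funext y; unfold ext; split_ifs <;> simp

theorem ext_gX (u : X E) : ext (gX u) = fun y => gg (ext u y) := by
  funext y; unfold ext; split_ifs
  · exact gg_zero.symm
  · rfl

theorem abs_ext_le (u : X E) (y : E) : |ext u y| ≤ ‖u‖ := by
  unfold ext; split_ifs
  · simp
  · exact u.norm_coe_le_norm _

theorem ext_hom0 (u : X E) : Hom0 (ext u) := by
  intro t ht y
  by_cases hy : y = 0
  · rw [hy, smul_zero]
  rw [ext_of_ne u hy, ext_of_ne u (smul_ne_zero ht.ne' hy)]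
  congr 1
  ext1
  simp only [nrm, norm_smul, Real.norm_of_nonneg ht.le, mul_inv, smul_smul]
  rw [mul_right_comm, inv_mul_cancel₀ ht.ne', one_mul]

theorem ext_rot (R : E ≃ₗᵢ[ℝ] E) (u : X E) : ext (rot R u) = fun y => ext u (R y) := by
  funext y
  by_cases hy : y = 0
  · rw [hy, map_zero, ext_zero, ext_zero]
  rw [ext_of_ne _ hy, ext_of_ne u ((map_ne_zero_iff R R.injective).2 hy)]
  change u _ = u _
  congr 1
  ext1
  simp [nrm, rotS]

/-- `continuousOn_iff_continuous_restrict`; `nrm` is continuous on the subtype. -/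
theorem continuousOn_ext (u : X E) : ContinuousOn (ext u) {0}ᶜ := by
  rw [continuousOn_iff_continuous_domRestrict]
  have : ({0}ᶜ : Set E).domRestrict (ext u) = fun y : ({0}ᶜ : Set E) => u (nrm y.1 y.2) :=
    funext fun y => ext_of_ne u y.2
  rw [this]
  exact u.continuous.comp (((continuous_subtype_val.norm.inv₀ fun y => norm_ne_zero_iff.2 y.2).smul
    continuous_subtype_val).subtype_mk _)

/-- `measurable_of_continuousOn_compl_singleton`. -/
theorem measurable_ext (u : X E) : Measurable (ext u) := by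
  exact measurable_of_continuousOn_compl_singleton 0 (continuousOn_ext u)

/-- restriction to the sphere -/
def mkX (h : E → ℝ) (hc : ContinuousOn h {0}ᶜ) : X E :=
  ⟨fun x => h x, hc.comp_continuous continuous_subtype_val fun x => coe_ne_zero x⟩

theorem ext_mkX {h : E → ℝ} (hc : ContinuousOn h {0}ᶜ) (h0 : Hom0 h) {y : E} (hy : y ≠ 0) :
    ext (mkX h hc) y = h y := by
  rw [ext_of_ne _ hy]
  exact h0 _ (inv_pos.2 (norm_pos_iff.2 hy)) y

theorem norm_gX_le (u : X E) : ‖gX u‖ ≤ 2 :=
  (ContinuousMap.norm_le _ (by norm_num)).2 fun x => abs_gg_le (u x)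

theorem norm_gX_sub_le (u v : X E) : ‖gX u - gX v‖ ≤ 3 * ‖u - v‖ := by
  refine (ContinuousMap.norm_le _ (by positivity)).2 fun x => (abs_gg_sub_le (u x) (v x)).trans ?_
  gcongr
  exact (u - v).norm_coe_le_norm x

theorem continuous_gX : Continuous (gX : X E → X E) := by
  refine (LipschitzWith.of_dist_le_mul (K := 3) fun u v => ?_).continuous
  rw [dist_eq_norm, dist_eq_norm]
  exact norm_gX_sub_le u v

/-- no differentiability needed (`fderiv_comp_smul`: `fderiv (f ∘ (c • ·)) x = c • fderiv f (c • x)`). -/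
theorem _root_.Crest.Agent.R246.Hom0.fderiv_smul {h : E → ℝ} (h0 : Hom0 h) {t : ℝ} (ht : 0 < t)
    (y : E) : fderiv ℝ h (t • y) = t⁻¹ • fderiv ℝ h y := by
  have := fderiv_comp_smul (𝕜 := ℝ) (f := h) (x := y) t
  rw [show (fun x => h (t • x)) = h from funext (h0 t ht)] at this
  rw [this, inv_smul_smul₀ ht.ne']

theorem _root_.Crest.Agent.R246.Hom0.gradient_smul {h : E → ℝ} (h0 : Hom0 h) {t : ℝ} (ht : 0 < t)
    (y : E) : gradient h (t • y) = t⁻¹ • gradient h y := by
  simp [gradient, h0.fderiv_smul ht]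

/-- Euler: differentiate `t ↦ h (t • y)` (locally constant near `t = 1`); `fderiv = 0` if `h` is
not differentiable at `y`. -/
theorem _root_.Crest.Agent.R246.Hom0.fderiv_self {h : E → ℝ} (h0 : Hom0 h) (y : E) :
    fderiv ℝ h y y = 0 := by
  by_cases hd : DifferentiableAt ℝ h y
  · have h1 : HasDerivAt (fun t : ℝ => t • y) y 1 := by simpa using (hasDerivAt_id (1 : ℝ)).smul_const y
    have h2 := HasFDerivAt.comp_hasDerivAt_of_eq (1 : ℝ) hd.hasFDerivAt h1 (one_smul _ _).symm
    refine h2.unique ((hasDerivAt_const (1 : ℝ) (h y)).congr_of_eventuallyEq ?_)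
    filter_upwards [lt_mem_nhds zero_lt_one] with t ht using h0 t ht y
  · rw [fderiv_zero_of_not_differentiableAt hd]
    rfl

theorem _root_.Crest.Agent.R246.Hom0.inner_gradient_self {h : E → ℝ} (h0 : Hom0 h) (y : E) :
    ⟪gradient h y, y⟫ = 0 := by
  simpa [gradient] using h0.fderiv_self y

/-- `hess h (t y) = t⁻² hess h y` (from `gradient_smul` and `fderiv_comp_smul`,
`fderiv_const_smul_field`-type lemma without differentiability for `t ≠ 0`). -/
theorem _root_.Crest.Agent.R246.Hom0.sq_mul_lap {h : E → ℝ} (h0 : Hom0 h) :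
    Hom0 fun y => ‖y‖ ^ 2 * lap h y := by
  intro t ht y
  have h1 := fderiv_comp_smul (𝕜 := ℝ) (f := gradient h) (x := y) t
  rw [show (fun x => gradient h (t • x)) = t⁻¹ • gradient h from funext (h0.gradient_smul ht),
    fderiv_const_smul_field] at h1
  have h2 : hess h y = (t * t) • hess h (t • y) := by
    rw [hess, hess, mul_smul, ← h1, Pi.smul_apply, smul_inv_smul₀ ht.ne']
  simp only [lap, trc, h2, norm_smul, Real.norm_of_nonneg ht.le, ContinuousLinearMap.toLinearMap_smul,
    map_smul, smul_eq_mul]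
  ring

theorem norm_gradient_eq (h : E → ℝ) (y : E) : ‖gradient h y‖ = ‖fderiv ℝ h y‖ := by
  simp [gradient]

theorem inner_gradient_eq (h : E → ℝ) (y v : E) : ⟪gradient h y, v⟫ = fderiv ℝ h y v := by
  simp [gradient]

theorem measurable_gradient (h : E → ℝ) : Measurable (gradient h) :=
  (InnerProductSpace.toDual ℝ E).symm.continuous.measurable.comp (measurable_fderiv ℝ h)

end Crest.Agent.R246.A
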