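import Crest.Agent.R246.A.Fam2

/-! Row 246, block A: the family attached to a sweepout. -/

set_option autoImplicit false
set_option linter.unusedSectionVars false

open MeasureTheory Metric Filter Topology Set Module
open scoped RealInnerProductSpace ENNReal NNReal ContDiff Real

noncomputable section

namespace Crest.Agent.R246.A

variable {E : Type} [NormedAddCommGroup E] [InnerProductSpace ℝ E] [FiniteDimensional ℝ E]
  [MeasurableSpace E] [BorelSpace E] [hn : Fact (3 ≤ finrank ℝ E)]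

/-- `lintegral_mu`, `ofReal_integral_eq_lintegral_ofReal`. -/
theorem integral_GG_le {D : E → ℝ} (hD : AL D) {Λ ε : ℝ} (hε : 0 < ε) (t : ℝ) {c : ℝ} (hc : 0 ≤ c)
    (hS : ∀ G : ℝ → ℝ≥0∞, Measurable G →
      ∫⁻ y, ENNReal.ofReal (gk (finrank ℝ E - 1) 0 1 y / ‖y‖) * G (D y) ≤
        ENNReal.ofReal Λ * ∫⁻ s in Ioo (-(π / 2)) (π / 2), G s)
    (hG : ∫⁻ s in Ioo (-(π / 2)) (π / 2), ENNReal.ofReal (GG ε (s - t)) ≤ ENNReal.ofReal c) :
    ∫ y, GG ε (D y - t) ∂mu E ≤ max Λ 0 * c := by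
  have hm : Measurable D := measurable_of_continuousOn_compl_singleton 0 hD.continuousOn
  have hG' : Measurable fun s => ENNReal.ofReal (GG ε (s - t)) :=
    ((continuous_GG hε).measurable.comp (measurable_id.sub_const _)).ennreal_ofReal
  rw [integral_eq_lintegral_of_nonneg_ae (Eventually.of_forall fun y => GG_nonneg hε _)
    (hD.integrable_GG hε t).aestronglyMeasurable]
  have h0 : 0 ≤ max Λ 0 := le_max_right _ _
  refine ENNReal.toReal_le_of_le_ofReal (mul_nonneg h0 hc) ?_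
  have h1 := lintegral_mu (E := E) (h := fun y => ENNReal.ofReal (GG ε (D y - t))) (hG'.comp hm)
  rw [h1, ENNReal.ofReal_mul h0]
  exact (hS _ hG').trans (mul_le_mul' (ENNReal.ofReal_le_ofReal (le_max_left _ _)) hG)

/-- `γ (τ, b') x = HH ε (D (β • (max 1 ‖b'‖)⁻¹ • b') x - π τ)`, continuous by
`ContinuousMap.curry`. -/
theorem exists_family {Λ : ℝ} (hS : Sweep E (finrank ℝ E - 1) Λ) {a : ℝ} (ha : 1 < a) :
    ∃ ε₀ : ℝ, 0 < ε₀ ∧ ∀ ε ∈ Ioo 0 ε₀, ∃ γ : ℝ × E → X E, Continuous γ ∧ (∀ z, Lip (γ z)) ∧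
      (∀ z, Et ε (γ z) ≤ max Λ 0) ∧ ∀ z, ‖z‖ = 1 → Et ε (γ z) < a ∧ pr (Ph (γ z)) z < 0 := by
  obtain ⟨K, D, hom, hcont, hlip, hlt, hbd, hsw⟩ := hS
  have h0 : 0 ≤ max Λ 0 := le_max_right _ _
  obtain ⟨ε₀, hε₀, hface⟩ := HH_face (η := min (1 / 2) (1 / (max Λ 0 + 1))) (by positivity)
  refine ⟨ε₀, hε₀, fun ε hε' => ?_⟩
  have hε := hε'.1
  have hf := hface ε hε'
  have hf1 : 1 / 2 < HH ε (π / 2) := by
    have := min_le_left (1 / 2 : ℝ) (1 / (max Λ 0 + 1)); linarith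
  have hf2 : max Λ 0 * (1 - HH ε (π / 2)) < a := by
    have h1 := min_le_right (1 / 2 : ℝ) (1 / (max Λ 0 + 1))
    have h2 : max Λ 0 * (1 - HH ε (π / 2)) ≤ max Λ 0 * (1 / (max Λ 0 + 1)) :=
      mul_le_mul_of_nonneg_left (by linarith) h0
    have h3 : max Λ 0 * (1 / (max Λ 0 + 1)) ≤ 1 := by
      rw [mul_one_div, div_le_one (by positivity)]; linarith
    linarith
  obtain ⟨η₁, hη₁, hs1⟩ := side_energy (E := E) hε ha
  obtain ⟨η₂, hη₂, hs2⟩ := side_sign (E := E) hε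
  obtain ⟨β, hβ, hcl⟩ := side_close K (η := min η₁ η₂) (by positivity)
  set bb : E → E := fun b => β • (max 1 ‖b‖)⁻¹ • b with hbb
  have hbc : Continuous bb := by
    refine continuous_const.smul (Continuous.smul ?_ continuous_id)
    exact (continuous_const.max continuous_norm).inv₀ fun b =>
      (lt_of_lt_of_le one_pos (le_max_left _ _)).ne'
  have hb1 : ∀ b, bb b ∈ ball (0 : E) 1 := fun b => by
    have hp : 0 < max 1 ‖b‖ := lt_of_lt_of_le one_pos (le_max_left _ _)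
    rw [mem_ball_zero_iff, hbb]
    simp only [norm_smul, norm_inv, Real.norm_of_nonneg hβ.1.le, Real.norm_of_nonneg hp.le]
    have : (max 1 ‖b‖)⁻¹ * ‖b‖ ≤ 1 := inv_mul_le_one_of_le₀ (le_max_right _ _) hp.le
    nlinarith [hβ.1, hβ.2]
  have hAL : ∀ b, AL (D (bb b)) := fun b => ⟨hom _, hlip _ (hb1 b)⟩
  have hF : Continuous fun p : (ℝ × E) × sphere (0 : E) 1 => HH ε (D (bb p.1.2) p.2 - π * p.1.1) := by
    refine (continuous_HH hε).comp (Continuous.sub ?_ (by fun_prop))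
    exact hcont.comp_continuous (f := fun p : (ℝ × E) × sphere (0 : E) 1 => (bb p.1.2, (p.2 : E)))
      (by fun_prop) fun p => ⟨hb1 _, coe_ne_zero _⟩
  set γ : C(ℝ × E, X E) := ContinuousMap.curry ⟨_, hF⟩ with hγ
  have hu : ∀ z x, γ z x = HH ε (D (bb z.2) x - π * z.1) := fun z x => rfl
  refine ⟨γ, γ.continuous, fun z => (hAL _).lip_comp hε (hu z),
    fun z => ?_, fun z hz => ?_⟩
  · refine ((hAL _).Et_le hε (hu z)).trans ?_
    have := integral_GG_le (hAL z.2) hε (π * z.1) zero_le_one (hsw _ (hb1 _))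
      (by rw [ENNReal.ofReal_one]; exact lintegral_GG_le hε _)
    rwa [mul_one] at this
  obtain ⟨τ, b⟩ := z
  rw [Prod.norm_mk, Real.norm_eq_abs] at hz
  have z1 : |τ| ≤ 1 := hz ▸ le_max_left _ _
  have z2 : ‖b‖ ≤ 1 := hz ▸ le_max_right _ _
  rcases max_choice |τ| ‖b‖ with h | h
  · have hτ : |τ| = 1 := h ▸ hz
    refine ⟨((hAL _).Et_le hε (hu _)).trans_lt (lt_of_le_of_lt ?_ hf2),
      face_sign hε hf1 (hAL b) (hlt _ (hb1 b)) hτ z2 (hu _)⟩
    refine integral_GG_le (hAL b) hε (π * τ) ?_ (hsw _ (hb1 _)) (lintegral_GG_face hε ?_)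
    · linarith [(abs_lt.1 (abs_HH_lt ε (π / 2))).2]
    · rw [abs_mul, hτ, abs_of_pos Real.pi_pos, mul_one]
  · have hb : ‖b‖ = 1 := h ▸ hz
    have e1 : bb b = β • b := by simp [hbb, hb]
    have hc : ∀ y, y ≠ 0 → |D (bb b) y + Real.arcsin (⟪b, y⟫ / ‖y‖)| ≤ min η₁ η₂ := fun y hy => by
      refine hcl _ _ (hlt _ (hb1 b) y hy) (abs_xe_le z2 y) ?_
      have h1 := hbd _ (hb1 b) (nrm y hy : sphere (0 : E) 1).1 (norm_eq_of_mem_sphere _)
      have h2 : D (bb b) (nrm y hy : sphere (0 : E) 1).1 = D (bb b) y :=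
        hom _ _ (inv_pos.2 (norm_pos_iff.2 hy)) y
      have h3 : ⟪bb b, (nrm y hy : sphere (0 : E) 1).1⟫ = β * (⟪b, y⟫ / ‖y‖) := by
        rw [e1]; simp only [nrm, real_inner_smul_left, real_inner_smul_right]; ring
      have h4 : ‖bb b‖ = β := by rw [e1, norm_smul, hb, mul_one, Real.norm_of_nonneg hβ.1.le]
      rwa [h2, h3, h4] at h1
    exact ⟨((hAL _).Et_le hε (hu _)).trans_lt
      (hs1 _ b _ (hAL b) hb fun y hy => (hc y hy).trans (min_le_left _ _)),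
      hs2 _ b τ _ (hAL b) hb z1 (fun y hy => (hc y hy).trans (min_le_right _ _)) (hu _)⟩

end Crest.Agent.R246.A
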