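import Crest.Agent.R246.A.Pot

/-! Row 246, block A: the heteroclinic profile `tanh (s/(ε√2))`. -/

set_option autoImplicit false
set_option linter.unusedSectionVars false

open MeasureTheory Metric Filter Topology Set Module
open scoped RealInnerProductSpace ENNReal NNReal ContDiff Real

noncomputable section

namespace Crest.Agent.R246.A

theorem prof_tanh (x : ℝ) : HasDerivAt Real.tanh (1 - Real.tanh x ^ 2) x := by
  have h := (Real.hasDerivAt_sinh x).div (Real.hasDerivAt_cosh x) (Real.cosh_pos x).ne'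
  rw [show Real.tanh = Real.sinh / Real.cosh from funext Real.tanh_eq_sinh_div_cosh]
  refine h.congr_deriv ?_
  have := (Real.cosh_pos x).ne'
  simp only [Pi.div_apply]
  field_simp

/-- `Real.tanh_eq_sinh_div_cosh`, quotient rule, `cosh² - sinh² = 1`. -/
theorem hasDerivAt_HH {ε : ℝ} (hε : 0 < ε) (s : ℝ) :
    HasDerivAt (HH ε) ((1 - HH ε s ^ 2) / (ε * √2)) s := by
  have h := (prof_tanh (s / (ε * √2))).comp s ((hasDerivAt_id s).div_const (ε * √2))
  exact h.congr_deriv (by rw [HH]; ring)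

theorem abs_HH_lt (ε s : ℝ) : |HH ε s| < 1 := by
  exact Real.abs_tanh_lt_one _

theorem HH_neg (ε s : ℝ) : HH ε (-s) = -HH ε s := by
  simp [HH, neg_div, Real.tanh_neg]

theorem continuous_HH {ε : ℝ} (hε : 0 < ε) : Continuous (HH ε) :=
  continuous_iff_continuousAt.2 fun s => (hasDerivAt_HH hε s).continuousAt

theorem prof_sq (ε s : ℝ) : 0 < 1 - HH ε s ^ 2 := by
  have := abs_lt.1 (abs_HH_lt ε s)
  nlinarith

theorem monotone_HH {ε : ℝ} (hε : 0 < ε) : Monotone (HH ε) := by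
  exact monotone_of_hasDerivAt_nonneg (hasDerivAt_HH hε) fun s =>
    div_nonneg (prof_sq ε s).le (by positivity)

/-- mean value inequality, `0 ≤ HH' ≤ 1/(ε√2)`. -/
theorem abs_HH_sub_le {ε : ℝ} (hε : 0 < ε) (s t : ℝ) :
    |HH ε s - HH ε t| ≤ |s - t| / (ε * √2) := by
  have h := convex_univ.norm_image_sub_le_of_norm_hasDerivWithin_le (C := 1 / (ε * √2))
    (fun x _ => (hasDerivAt_HH hε x).hasDerivWithinAt) (fun x _ => by
      rw [Real.norm_of_nonneg (div_nonneg (prof_sq ε x).le (by positivity))]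
      gcongr
      nlinarith [sq_nonneg (HH ε x)]) (mem_univ t) (mem_univ s)
  rwa [one_div_mul_eq_div] at h

/-- `HH' ≥ (1 - HH(2π)²)/(ε√2) > 0` on `[-2π, 2π]`, mean value theorem. -/
theorem HH_sub_ge {ε : ℝ} (hε : 0 < ε) : ∃ k : ℝ, 0 < k ∧ ∀ s t : ℝ, |s| ≤ 2 * π → |t| ≤ 2 * π →
    t ≤ s → k * (s - t) ≤ HH ε s - HH ε t := by
  refine ⟨(1 - HH ε (2 * π) ^ 2) / (ε * √2), div_pos (prof_sq _ _) (by positivity),
    fun s t hs ht hts => ?_⟩
  refine (convex_Icc (-(2 * π)) (2 * π)).mul_sub_le_image_sub_of_le_deriv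
    (continuous_HH hε).continuousOn
    (fun x _ => (hasDerivAt_HH hε x).differentiableAt.differentiableWithinAt) (fun x hx => ?_)
    t (abs_le.1 ht) s (abs_le.1 hs) hts
  have hx' := interior_subset hx
  have h1 := monotone_HH hε hx'.1
  have h2 := monotone_HH hε hx'.2
  rw [HH_neg] at h1
  rw [(hasDerivAt_HH hε x).deriv]
  gcongr ?_ / _
  nlinarith

/-- equipartition -/
theorem energy_HH {ε : ℝ} (hε : 0 < ε) (s : ℝ) :
    ε * ((1 - HH ε s ^ 2) / (ε * √2)) ^ 2 / 2 + W (HH ε s) / ε = sig * GG ε s := by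
  have := sig_pos
  unfold GG W
  rw [div_pow, mul_pow, Real.sq_sqrt zero_le_two]
  field_simp
  ring

theorem GG_nonneg {ε : ℝ} (hε : 0 < ε) (s : ℝ) : 0 ≤ GG ε s := by
  have := sig_pos
  unfold GG W; positivity

theorem GG_neg (ε s : ℝ) : GG ε (-s) = GG ε s := by
  simp [GG, HH_neg, W]

theorem continuous_GG {ε : ℝ} (hε : 0 < ε) : Continuous (GG ε) := by
  have := continuous_HH hε
  unfold GG W; fun_prop

theorem GG_le {ε : ℝ} (hε : 0 < ε) (s : ℝ) : GG ε s ≤ 1 / (ε * sig) := by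
  have := sig_pos
  have h := prof_sq ε s
  unfold GG W
  gcongr
  nlinarith [sq_nonneg (HH ε s)]

/-- `|W a - W b| ≤ |a - b|` on `[-1,1]`, and `abs_HH_sub_le`. -/
theorem abs_GG_sub_le {ε : ℝ} (hε : 0 < ε) :
    ∃ L : ℝ, 0 ≤ L ∧ ∀ s t, |GG ε s - GG ε t| ≤ L * |s - t| := by
  have := sig_pos
  refine ⟨2 / (ε * sig) / (ε * √2), by positivity, fun s t => ?_⟩
  have h1 := abs_lt.1 (abs_HH_lt ε s)
  have h2 := abs_lt.1 (abs_HH_lt ε t)
  have e : GG ε s - GG ε t = 2 / (ε * sig) * ((-(HH ε s + HH ε t) / 2 *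
      ((2 - HH ε s ^ 2 - HH ε t ^ 2) / 2)) * (HH ε s - HH ε t)) := by
    unfold GG W
    ring
  rw [e, abs_mul, abs_of_pos (by positivity), abs_mul, div_mul_eq_mul_div _ (ε * √2), mul_div_assoc]
  gcongr
  refine (mul_le_of_le_one_left (abs_nonneg _) ?_).trans (abs_HH_sub_le hε s t)
  rw [abs_mul]
  refine mul_le_one₀ (abs_le.2 ⟨by linarith, by linarith⟩) (abs_nonneg _) (abs_le.2 ⟨?_, ?_⟩) <;>
    nlinarith

/-- `(gg (HH s)/4)' = 3(1-H²)H'/4 = GG ε s` (`σ = 2√2/3`; `gg_eq`, `abs_HH_lt`), FTC. -/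
theorem integral_GG {ε : ℝ} (hε : 0 < ε) (a b : ℝ) :
    ∫ s in a..b, GG ε s = (gg (HH ε b) - gg (HH ε a)) / 4 := by
  rw [sub_div]
  refine intervalIntegral.integral_eq_sub_of_hasDerivAt (f := fun s => gg (HH ε s) / 4)
    (fun s _ => (((hasDerivAt_gg _).comp s (hasDerivAt_HH hε s)).div_const 4).congr_deriv ?_)
    ((continuous_GG hε).intervalIntegrable _ _)
  have h2 : √2 ^ 2 = 2 := Real.sq_sqrt zero_le_two
  rw [cl1_of_abs_le (abs_HH_lt ε s).le]
  unfold GG W sig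
  field_simp

theorem prof_lint {ε : ℝ} (hε : 0 < ε) (t : ℝ) :
    ∫⁻ s in Ioo (-(π / 2)) (π / 2), ENNReal.ofReal (GG ε (s - t)) =
      ENNReal.ofReal ((gg (HH ε (π / 2 - t)) - gg (HH ε (-(π / 2) - t))) / 4) := by
  have hp := Real.pi_pos
  rw [← ofReal_integral_eq_lintegral_ofReal (f := fun s => GG ε (s - t))
    (((continuous_GG hε).comp (continuous_sub_right t)).integrableOn_Icc.mono_set Ioo_subset_Icc_self)
    (Eventually.of_forall fun s => GG_nonneg hε _), ← integral_Ioc_eq_integral_Ioo,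
    ← intervalIntegral.integral_of_le (by linarith), ← integral_GG hε]
  exact congrArg _ (intervalIntegral.integral_comp_sub_right (GG ε) t)

/-- `ofReal_integral_eq_lintegral_ofReal`, `intervalIntegral.integral_comp_sub_right`,
`integral_GG`, `abs_gg_le`. -/
theorem lintegral_GG_le {ε : ℝ} (hε : 0 < ε) (t : ℝ) :
    ∫⁻ s in Ioo (-(π / 2)) (π / 2), ENNReal.ofReal (GG ε (s - t)) ≤ 1 := by
  rw [prof_lint hε, ENNReal.ofReal_le_one]
  linarith [abs_le.1 (abs_gg_le (HH ε (π / 2 - t))), abs_le.1 (abs_gg_le (HH ε (-(π / 2) - t)))]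

/-- `tanh x → 1` at `+∞` (e.g. `1 - tanh x ≤ 2 e^{-2x} ≤ 1/x`). -/
theorem HH_face {η : ℝ} (hη : 0 < η) :
    ∃ ε₀ : ℝ, 0 < ε₀ ∧ ∀ ε ∈ Ioo 0 ε₀, 1 - η < HH ε (π / 2) := by
  refine ⟨η, hη, fun ε hε => ?_⟩
  have h0 := hε.1
  set x := π / 2 / (ε * √2) with hx
  have h2 : √2 ≤ 3 / 2 := Real.sqrt_le_iff.2 ⟨by norm_num, by norm_num⟩
  have h1 : 1 ≤ x * ε := by
    rw [hx, div_mul_eq_mul_div, le_div_iff₀ (by positivity)]
    nlinarith [Real.pi_gt_three]
  have hx0 : 0 < x := by have := Real.pi_pos; positivity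
  have h3 : 2 * x + 1 ≤ Real.exp x * Real.exp x := by
    rw [← Real.exp_add, ← two_mul]
    exact Real.add_one_le_exp _
  have h4 := Real.exp_pos x
  rw [HH, ← hx, Real.tanh_eq_sinh_div_cosh, lt_div_iff₀ (Real.cosh_pos x), Real.cosh_eq, Real.sinh_eq,
    Real.exp_neg]
  field_simp
  nlinarith [hε.2]

/-- for `t = π` the integral is `(gg H(-π/2) - gg H(-3π/2))/4 ≤ 3(1 - H(π/2))/4`
(`abs_gg_sub_le`, `HH_neg`, `abs_HH_lt`, `monotone_HH`); same for `t = -π`. -/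
theorem lintegral_GG_face {ε : ℝ} (hε : 0 < ε) {t : ℝ} (ht : |t| = π) :
    ∫⁻ s in Ioo (-(π / 2)) (π / 2), ENNReal.ofReal (GG ε (s - t)) ≤
      ENNReal.ofReal (1 - HH ε (π / 2)) := by
  rw [prof_lint hε]
  refine ENNReal.ofReal_le_ofReal ?_
  have hp := Real.pi_pos
  have h1 := (le_abs_self _).trans (abs_gg_sub_le (HH ε (π / 2 - t)) (HH ε (-(π / 2) - t)))
  rw [abs_of_nonneg (sub_nonneg.2 (monotone_HH hε (by linarith)))] at h1
  have h2 := abs_lt.1 (abs_HH_lt ε (π / 2))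
  rcases (abs_eq hp.le).1 ht with rfl | rfl
  · rw [show π / 2 - π = -(π / 2) by ring, HH_neg] at h1 ⊢
    linarith [abs_lt.1 (abs_HH_lt ε (-(π / 2) - π))]
  · rw [show -(π / 2) - -π = π / 2 by ring] at h1 ⊢
    linarith [abs_lt.1 (abs_HH_lt ε (π / 2 - -π))]

end Crest.Agent.R246.A
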