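import Crest.Agent.R246.A.Desc
import Crest.Agent.R246.A.Prof

/-! Row 246, block A: energy of `H ∘ D` for an angle-Lipschitz function `D`. -/

set_option autoImplicit false
set_option linter.unusedSectionVars false

open MeasureTheory Metric Filter Topology Set Module
open scoped RealInnerProductSpace ENNReal NNReal ContDiff Real

noncomputable section

namespace Crest.Agent.R246.A

variable {E : Type} [NormedAddCommGroup E] [InnerProductSpace ℝ E] [FiniteDimensional ℝ E]
  [MeasurableSpace E] [BorelSpace E] [hn : Fact (3 ≤ finrank ℝ E)]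

/-- `‖x - x'‖ = 2 sin (θ/2)` and Jordan's inequality `Real.mul_le_sin`. -/
theorem angle_le_of_unit {x x' : E} (hx : ‖x‖ = 1) (hx' : ‖x'‖ = 1) :
    InnerProductGeometry.angle x x' ≤ π / 2 * ‖x - x'‖ := by
  have h1 := InnerProductGeometry.cos_angle x x'
  rw [hx, hx', mul_one, div_one] at h1
  have h0 := InnerProductGeometry.angle_nonneg x x'
  have h2 := Real.cos_le_one_sub_mul_cos_sq (x := InnerProductGeometry.angle x x')
    (by rw [abs_of_nonneg h0]; exact InnerProductGeometry.angle_le_pi x x')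
  have h3 : ‖x - x'‖ ^ 2 = 2 - 2 * ⟪x, x'⟫ := by
    rw [norm_sub_sq_real, hx, hx']; ring
  have hp := Real.pi_pos
  refine abs_le_of_sq_le_sq' ?_ (by positivity) |>.2
  rw [mul_pow, h3, ← h1]
  have h4 : (π / 2) ^ 2 * (2 * (2 / π ^ 2 * InnerProductGeometry.angle x x' ^ 2)) =
      InnerProductGeometry.angle x x' ^ 2 := by field_simp
  rw [← h4]
  exact mul_le_mul_of_nonneg_left (by linarith) (by positivity)

/-- `sin θ · ‖y‖ ≤ ‖y' - y‖` (`sin_angle_mul_norm_mul_norm`, Cauchy–Schwarz identity), `θ → 0` as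
`y' → y` (`continuousAt_angle`), and `θ ≤ c sin θ` for small `θ ≥ 0`. -/
theorem angle_local {y : E} (hy : y ≠ 0) {c : ℝ} (hc : 1 < c) :
    ∀ᶠ y' in 𝓝 y, InnerProductGeometry.angle y y' ≤ c * ‖y' - y‖ / ‖y‖ := by
  have hp := norm_pos_iff.2 hy
  have hc1 : ContinuousAt (fun y' => InnerProductGeometry.angle y y') y :=
    (InnerProductGeometry.continuousAt_angle (x := (y, y)) hy hy).comp
      (f := fun y' : E => (y, y')) (by fun_prop)
  have hc2 : ContinuousAt (fun y' => c * InnerProductGeometry.angle y y' ^ 2 / 6) y :=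
    (continuousAt_const.mul (hc1.pow 2)).div_const 6
  have hev := hc2.eventually (gt_mem_nhds (a := c - 1)
    (by simp only [InnerProductGeometry.angle_self hy]; norm_num; exact hc))
  filter_upwards [hev] with y' h1
  set θ := InnerProductGeometry.angle y y' with hθ
  have h0 : 0 ≤ θ := InnerProductGeometry.angle_nonneg y y'
  have h2 := Real.sin_ge_sub_cube h0
  have h3 : θ ≤ c * Real.sin θ := by nlinarith
  have h4 : Real.sin θ * ‖y‖ ≤ ‖y' - y‖ := by
    refine abs_le_of_sq_le_sq' ?_ (norm_nonneg _) |>.2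
    have h5 := InnerProductGeometry.cos_angle_mul_norm_mul_norm y y'
    rw [norm_sub_sq_real, real_inner_comm, ← h5, ← hθ]
    nlinarith [sq_nonneg (‖y'‖ - ‖y‖ * Real.cos θ), Real.sin_sq_add_cos_sq θ]
  rw [le_div_iff₀ hp]
  calc θ * ‖y‖ ≤ c * Real.sin θ * ‖y‖ := mul_le_mul_of_nonneg_right h3 hp.le
    _ = c * (Real.sin θ * ‖y‖) := by ring
    _ ≤ _ := mul_le_mul_of_nonneg_left h4 (by linarith)

/-- `0`-homogeneous and `1`-Lipschitz for the angle -/
structure AL (D : E → ℝ) : Prop where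
  hom : Hom0 D
  lip : ∀ y y' : E, y ≠ 0 → y' ≠ 0 → |D y - D y'| ≤ InnerProductGeometry.angle y y'

theorem AL.continuousOn {D : E → ℝ} (hD : AL D) : ContinuousOn D {0}ᶜ := by
  intro y hy
  have hy' : y ≠ 0 := hy
  refine ContinuousAt.continuousWithinAt ?_
  rw [ContinuousAt, tendsto_iff_norm_sub_tendsto_zero]
  have hc1 : ContinuousAt (fun y' => InnerProductGeometry.angle y y') y :=
    (InnerProductGeometry.continuousAt_angle (x := (y, y)) hy' hy').comp
      (f := fun y' : E => (y, y')) (by fun_prop)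
  have h2 : Tendsto (fun y' => InnerProductGeometry.angle y y') (𝓝 y) (𝓝 0) := by
    have := hc1.tendsto
    rwa [InnerProductGeometry.angle_self hy'] at this
  refine squeeze_zero' (Eventually.of_forall fun _ => norm_nonneg _) ?_ h2
  filter_upwards [eventually_ne_nhds hy'] with y' h
  rw [Real.norm_eq_abs, abs_sub_comm]
  exact hD.lip y y' hy' h

theorem AL.ext_eq {D : E → ℝ} (hD : AL D) {ε t : ℝ} {u : X E} (hu : ∀ x, u x = HH ε (D x - t))
    {y : E} (hy : y ≠ 0) : ext u y = HH ε (D y - t) := by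
  rw [ext_of_ne _ hy, hu]
  exact congrArg (fun s => HH ε (s - t)) (hD.hom _ (inv_pos.2 (norm_pos_iff.2 hy)) y)

theorem AL.lip_comp {D : E → ℝ} (hD : AL D) {ε t : ℝ} (hε : 0 < ε) {u : X E}
    (hu : ∀ x, u x = HH ε (D x - t)) : Lip u := by
  have hp := Real.pi_pos
  refine ⟨⟨π / 2 / (ε * √2), by positivity⟩, LipschitzWith.of_dist_le_mul fun x x' => ?_⟩
  rw [Real.dist_eq, hu, hu]
  refine (abs_HH_sub_le hε _ _).trans ?_
  rw [sub_sub_sub_cancel_right]
  have h1 := (hD.lip x x' (coe_ne_zero x) (coe_ne_zero x')).trans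
    (angle_le_of_unit (norm_eq_of_mem_sphere x) (norm_eq_of_mem_sphere x'))
  change _ ≤ π / 2 / (ε * √2) * dist (x : E) x'
  rw [dist_eq_norm, div_mul_eq_mul_div]
  exact div_le_div_of_nonneg_right h1 (by positivity)

/-- for every `c > 1`: near `y`, `|H(D y' - t) - H(D y - t)| ≤ (H' + (c-1)) |D y' - D y|`
(`HasDerivAt.isLittleO` + continuity of `D`) and `angle_local`; `norm_fderiv_le_of_lip'`; let
`c → 1`. -/
theorem AL.grad_le {D : E → ℝ} (hD : AL D) {ε t : ℝ} (hε : 0 < ε) {u : X E}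
    (hu : ∀ x, u x = HH ε (D x - t)) {y : E} (hy : y ≠ 0) :
    ‖y‖ * ‖gradient (ext u) y‖ ≤ (1 - HH ε (D y - t) ^ 2) / (ε * √2) := by
  have hp := norm_pos_iff.2 hy
  set m := (1 - HH ε (D y - t) ^ 2) / (ε * √2) with hm
  have hm0 : 0 ≤ m := by
    have := abs_HH_lt ε (D y - t)
    have h2 : HH ε (D y - t) ^ 2 ≤ 1 := by
      rw [← sq_abs]; nlinarith [abs_nonneg (HH ε (D y - t))]
    exact div_nonneg (by linarith) (by positivity)
  have key : ∀ c : ℝ, 1 < c → ‖y‖ * ‖gradient (ext u) y‖ ≤ (m + (c - 1)) * c := by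
    intro c hc
    have h1 := (hasDerivAt_HH hε (D y - t)).isLittleO.bound (show 0 < c - 1 by linarith)
    have h2 : Tendsto (fun y' => D y' - t) (𝓝 y) (𝓝 (D y - t)) :=
      ((hD.continuousOn.continuousAt (isOpen_compl_singleton.mem_nhds hy)).tendsto).sub_const t
    have h3 : ‖fderiv ℝ (ext u) y‖ ≤ (m + (c - 1)) * c / ‖y‖ := by
      have hc0 : 0 ≤ m + (c - 1) := by linarith
      refine norm_fderiv_le_of_lip' ℝ (by positivity) ?_
      filter_upwards [h2.eventually h1, angle_local hy hc, eventually_ne_nhds hy] with y' a1 a2 a3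
      rw [hD.ext_eq hu a3, hD.ext_eq hu hy]
      simp only [Real.norm_eq_abs, smul_eq_mul, sub_sub_sub_cancel_right] at a1 ⊢
      rw [← hm] at a1
      have a4 : |D y' - D y| ≤ c * ‖y' - y‖ / ‖y‖ := by
        rw [abs_sub_comm]; exact (hD.lip y y' hy a3).trans a2
      have a5 : |HH ε (D y' - t) - HH ε (D y - t)| ≤ (m + (c - 1)) * |D y' - D y| := by
        have := abs_add_le (HH ε (D y' - t) - HH ε (D y - t) - (D y' - D y) * m) ((D y' - D y) * m)
        rw [sub_add_cancel, abs_mul, abs_of_nonneg hm0] at this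
        linarith
      calc _ ≤ (m + (c - 1)) * (c * ‖y' - y‖ / ‖y‖) :=
            a5.trans (mul_le_mul_of_nonneg_left a4 hc0)
        _ = _ := by ring
    rw [norm_gradient_eq, mul_comm, ← le_div_iff₀ hp]
    exact h3
  have ht : Tendsto (fun c : ℝ => (m + (c - 1)) * c) (𝓝[>] 1) (𝓝 ((m + (1 - 1)) * 1)) :=
    (Continuous.tendsto (by fun_prop) 1).mono_left nhdsWithin_le_nhds
  have := ge_of_tendsto ht (eventually_mem_nhdsWithin.mono fun c hc => key c hc)
  simpa using this

theorem AL.integrable_GG {D : E → ℝ} (hD : AL D) {ε : ℝ} (hε : 0 < ε) (t : ℝ) :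
    Integrable (fun y => GG ε (D y - t)) (mu E) := by
  have hm : Measurable D := measurable_of_continuousOn_compl_singleton 0 hD.continuousOn
  refine Integrable.of_bound ((continuous_GG hε).measurable.comp
    (hm.sub_const t)).aestronglyMeasurable (1 / (ε * sig)) (Eventually.of_forall fun y => ?_)
  rw [Real.norm_of_nonneg (GG_nonneg hε _)]
  exact GG_le hε _

/-- `AL.grad_le`, `energy_HH`, `Wt_eq`, `integral_mono_ae`. -/
theorem AL.Et_le {D : E → ℝ} (hD : AL D) {ε t : ℝ} (hε : 0 < ε) {u : X E}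
    (hu : ∀ x, u x = HH ε (D x - t)) : Et ε u ≤ ∫ y, GG ε (D y - t) ∂mu E := by
  have hs := sig_pos
  rw [Et, div_le_iff₀ hs, ← integral_mul_const]
  refine integral_mono_of_nonneg (Eventually.of_forall fun y => ?_)
    ((hD.integrable_GG hε t).mul_const _) ?_
  · have := Wt_nonneg (ext u y)
    positivity
  filter_upwards [ae_ne_zero_mu] with y hy
  have h1 := hD.grad_le hε hu hy
  have h2 := energy_HH hε (D y - t)
  rw [hD.ext_eq hu hy, Wt_eq (abs_HH_lt _ _).le]
  have h3 : (‖y‖ * ‖gradient (ext u) y‖) ^ 2 ≤ ((1 - HH ε (D y - t) ^ 2) / (ε * √2)) ^ 2 :=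
    pow_le_pow_left₀ (by positivity) h1 2
  have h4 := mul_le_mul_of_nonneg_left h3 hε.le
  nlinarith

end Crest.Agent.R246.A
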