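import Crest.Agent.R246.A.Polar
import Crest.Agent.R246.Fub

/-! Row 246, block A: the family of round spheres has constant `1`. -/

set_option autoImplicit false
set_option linter.unusedSectionVars false

open MeasureTheory Metric Filter Topology Set Module
open scoped RealInnerProductSpace ENNReal NNReal ContDiff Real

noncomputable section

namespace Crest.Agent.R246.A

variable {E : Type} [NormedAddCommGroup E] [InnerProductSpace ℝ E] [FiniteDimensional ℝ E]
  [MeasurableSpace E] [BorelSpace E] [hn : Fact (3 ≤ finrank ℝ E)]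

/-- one fibre: for `ρ > 0` substitute `x = ρ tan s`
(`lintegral_image_eq_lintegral_abs_deriv_mul` on `Ioo (-π/2) (π/2)`), `√(ρ² + x²) = ρ / cos s`,
`arcsin (x/√(ρ²+x²)) = s`. -/
theorem plane_fibre {ρ : ℝ} (hρ : 0 < ρ) (c : ℝ) (hc : 0 ≤ c) (G : ℝ → ℝ≥0∞) :
    ∫⁻ x : ℝ, ENNReal.ofReal (c * Real.exp (-(ρ ^ 2 + x ^ 2) / 2) / √(ρ ^ 2 + x ^ 2)) *
        G (Real.arcsin (x / √(ρ ^ 2 + x ^ 2))) =
      ∫⁻ s in Ioo (-(π / 2)) (π / 2),
        ENNReal.ofReal (c * Real.exp (-(ρ / Real.cos s) ^ 2 / 2) / Real.cos s) * G s := by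
  have him : (fun s => ρ * Real.tan s) '' Ioo (-(π / 2)) (π / 2) = univ := by
    refine eq_univ_of_forall fun x => ?_
    obtain ⟨s, hs, h⟩ := Real.surjOn_tan (mem_univ (x / ρ))
    exact ⟨s, hs, by simp only [h]; field_simp⟩
  have h := lintegral_image_eq_lintegral_abs_deriv_mul (f := fun s => ρ * Real.tan s)
    (f' := fun s => ρ * (1 / Real.cos s ^ 2)) (s := Ioo (-(π / 2)) (π / 2)) measurableSet_Ioo
    (fun s hs => ((Real.hasDerivAt_tan (Real.cos_pos_of_mem_Ioo hs).ne').const_mul ρ).hasDerivWithinAt)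
    (fun s hs t ht h => Real.injOn_tan hs ht (mul_left_cancel₀ hρ.ne' h))
    (fun x => ENNReal.ofReal (c * Real.exp (-(ρ ^ 2 + x ^ 2) / 2) / √(ρ ^ 2 + x ^ 2)) *
        G (Real.arcsin (x / √(ρ ^ 2 + x ^ 2))))
  rw [him, Measure.restrict_univ] at h
  rw [h]
  refine setLIntegral_congr_fun measurableSet_Ioo fun s hs => ?_
  have hc0 := Real.cos_pos_of_mem_Ioo hs
  have e1 : ρ ^ 2 + (ρ * Real.tan s) ^ 2 = (ρ / Real.cos s) ^ 2 := by
    rw [Real.tan_eq_sin_div_cos]
    field_simp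
    linear_combination Real.sin_sq_add_cos_sq s
  have e2 : √((ρ / Real.cos s) ^ 2) = ρ / Real.cos s := Real.sqrt_sq (by positivity)
  have e3 : ρ * Real.tan s / (ρ / Real.cos s) = Real.sin s := by
    rw [Real.tan_eq_sin_div_cos]; field_simp
  simp only [e1, e2, e3]
  rw [Real.arcsin_sin hs.1.le hs.2.le, ← mul_assoc, ← ENNReal.ofReal_mul (abs_nonneg _),
    abs_of_pos (by positivity)]
  congr 2
  field_simp

/-- Gaussian integral (`GaussianFourier.integral_rexp_neg_mul_sq_norm`): the value is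
`k^d / k ≤ 1`. -/
theorem plane_gauss {H : Type} [NormedAddCommGroup H] [InnerProductSpace ℝ H]
    [FiniteDimensional ℝ H] [MeasurableSpace H] [BorelSpace H] (hd : 1 ≤ finrank ℝ H) {k : ℝ}
    (hk : 0 < k) (hk1 : k ≤ 1) :
    ∫⁻ y : H, ENNReal.ofReal ((√(2 * π))⁻¹ ^ finrank ℝ H * Real.exp (-(‖y‖ / k) ^ 2 / 2) / k) ≤ 1 := by
  have e : ∀ y : H, (√(2 * π))⁻¹ ^ finrank ℝ H * Real.exp (-(‖y‖ / k) ^ 2 / 2) / k =
      k ^ finrank ℝ H / k * gk (finrank ℝ H) 0 k y := fun y => by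
    have : -(‖y‖ / k) ^ 2 / 2 = -‖y‖ ^ 2 / (2 * k ^ 2) := by field_simp
    rw [gk, sub_zero, this, mul_inv, mul_pow, inv_pow k]
    field_simp
  simp only [e]
  rw [← ofReal_integral_eq_lintegral_ofReal ((integrable_gk _ 0 hk).const_mul _)
    (Eventually.of_forall fun y => mul_nonneg (by positivity) (gk_pos _ _ hk y).le),
    integral_const_mul, integral_gk 0 hk, mul_one, ENNReal.ofReal_le_one, div_le_one hk]
  exact pow_le_of_le_one hk.le hk1 (by omega)

/-- the map `(y', x) ↦ y' + x e` from `(ℝ ∙ e)ᗮ × ℝ` to `E` is volume preserving (it is a linear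
isometry equivalence on `WithLp 2`, `WithLp.volume_preserving_ofLp`/`toLp`,
`LinearIsometryEquiv.measurePreserving`; search `Crest/Agent` for an existing version). -/
theorem measurePreserving_split {e : E} (he : ‖e‖ = 1) :
    MeasurePreserving (fun p : (ℝ ∙ e)ᗮ × ℝ => (p.1 : E) + p.2 • e) volume volume := by
  simpa using mp_line he 0

/-- `measurePreserving_split`, Tonelli, `plane_fibre` for `y' ≠ 0`, Tonelli, `plane_gauss`. -/
theorem plane {e : E} (he : ‖e‖ = 1) {G : ℝ → ℝ≥0∞} (hG : Measurable G) :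
    ∫⁻ y, G (Real.arcsin (⟪e, y⟫ / ‖y‖)) ∂mu E ≤ ∫⁻ s in Ioo (-(π / 2)) (π / 2), G s := by
  have hn3 := hn.out
  have hfr : finrank ℝ (ℝ ∙ e)ᗮ = finrank ℝ E - 1 := finrank_orth' (by omega) he
  have : Nontrivial (ℝ ∙ e)ᗮ := Module.nontrivial_of_finrank_pos (R := ℝ) (by omega)
  have hm : Measurable fun y : E => G (Real.arcsin (⟪e, y⟫ / ‖y‖)) :=
    hG.comp (Real.measurable_arcsin.comp (by fun_prop))
  set c : ℝ := (√(2 * π))⁻¹ ^ (finrank ℝ E - 1) with hc
  have hm2 : Measurable fun y : E => ENNReal.ofReal (om E y) * G (Real.arcsin (⟪e, y⟫ / ‖y‖)) :=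
    measurable_om.ennreal_ofReal.mul hm
  rw [lintegral_mu hm, lintegral_line he 0 hm2]
  have h1 : ∀ᵐ x : (ℝ ∙ e)ᗮ, ∫⁻ t : ℝ, ENNReal.ofReal (om E (0 + (x : E) + t • e)) *
      G (Real.arcsin (⟪e, 0 + (x : E) + t • e⟫ / ‖0 + (x : E) + t • e‖)) =
      ∫⁻ s in Ioo (-(π / 2)) (π / 2),
        ENNReal.ofReal (c * Real.exp (-(‖x‖ / Real.cos s) ^ 2 / 2) / Real.cos s) * G s := by
    filter_upwards [compl_mem_ae_iff.2 (measure_singleton (0 : (ℝ ∙ e)ᗮ))] with x hx
    rw [← plane_fibre (norm_pos_iff.2 hx) c (by positivity) G]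
    refine lintegral_congr fun t => ?_
    have e1 := norm_sq_line he x t
    have e2 : ‖(x : E) + t • e‖ = √(‖x‖ ^ 2 + t ^ 2) := by
      rw [← e1, Real.sqrt_sq (norm_nonneg _)]
    have e3 : ⟪e, (x : E) + t • e⟫ = t := by
      rw [inner_add_right, inner_orth, real_inner_smul_right, real_inner_self_eq_norm_sq, he]; ring
    rw [zero_add, om_eq, e3]
    simp only [e1]
    rw [e2]
  rw [lintegral_congr_ae h1, lintegral_lintegral_swap]
  · refine setLIntegral_mono' measurableSet_Ioo fun s hs => ?_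
    rw [lintegral_mul_const _ (by fun_prop)]
    have := plane_gauss (H := (ℝ ∙ e)ᗮ) (by omega) (Real.cos_pos_of_mem_Ioo hs) (Real.cos_le_one s)
    rw [hfr] at this
    exact mul_le_of_le_one_left' this
  · refine Measurable.aemeasurable ?_
    exact Measurable.mul (by fun_prop) (hG.comp measurable_snd)

end Crest.Agent.R246.A
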