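import Crest.Agent.R246.A.Fam1
import Crest.Agent.R246.A.Plane

/-! Row 246, block A: the boundary of the family. -/

set_option autoImplicit false
set_option linter.unusedSectionVars false

open MeasureTheory Metric Filter Topology Set Module
open scoped RealInnerProductSpace ENNReal NNReal ContDiff Real

noncomputable section

namespace Crest.Agent.R246.A

variable {E : Type} [NormedAddCommGroup E] [InnerProductSpace ℝ E] [FiniteDimensional ℝ E]
  [MeasurableSpace E] [BorelSpace E] [hn : Fact (3 ≤ finrank ℝ E)]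

theorem measurable_xe (e : E) : Measurable fun y : E => ⟪e, y⟫ / ‖y‖ := by fun_prop

theorem abs_xe_le {e : E} (he : ‖e‖ ≤ 1) (y : E) : |⟪e, y⟫ / ‖y‖| ≤ 1 := by
  rw [abs_div, abs_norm]
  refine div_le_one_of_le₀ ((abs_real_inner_le_norm e y).trans ?_) (norm_nonneg _)
  exact mul_le_of_le_one_left (norm_nonneg _) he

theorem integrable_ext_xe (u : X E) (τ : ℝ) (b : E) :
    Integrable (fun y => ext u y * (τ + ⟪b, y⟫ / ‖y‖)) (mu E) := by
  refine Integrable.of_bound ((measurable_ext u).mul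
    ((measurable_xe b).const_add τ)).aestronglyMeasurable (‖u‖ * (|τ| + ‖b‖))
    (Eventually.of_forall fun y => ?_)
  rw [Real.norm_eq_abs, abs_mul]
  refine mul_le_mul (abs_ext_le u y) ((abs_add_le _ _).trans (add_le_add le_rfl ?_))
    (abs_nonneg _) (norm_nonneg _)
  rw [abs_div, abs_norm]
  exact div_le_of_le_mul₀ (norm_nonneg _) (norm_nonneg _) (abs_real_inner_le_norm b y)

theorem integrable_ext_hat (u : X E) : Integrable (fun y => ext u y • (‖y‖⁻¹ • y)) (mu E) := by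
  have hm : Measurable fun y : E => ‖y‖⁻¹ • y := by fun_prop
  refine Integrable.of_bound ((measurable_ext u).smul hm).aestronglyMeasurable (‖u‖ * 1)
    (Eventually.of_forall fun y => ?_)
  rw [norm_smul]
  refine mul_le_mul (abs_ext_le u y) ?_ (norm_nonneg _) (norm_nonneg _)
  rw [norm_smul, norm_inv, norm_norm]
  exact inv_mul_le_one_of_le₀ le_rfl (norm_nonneg _)

theorem pr_Ph_eq (u : X E) (τ : ℝ) (b : E) :
    pr (Ph u) (τ, b) = ∫ y, ext u y * (τ + ⟪b, y⟫ / ‖y‖) ∂mu E := by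
  have h1 := (integrable_ext u).mul_const τ
  have h2 := (integrable_ext_hat u).const_inner (𝕜 := ℝ) b
  simp only [pr, Ph]
  rw [real_inner_comm, ← integral_inner (integrable_ext_hat u), ← integral_mul_const,
    ← integral_add h1 h2]
  congr 1; funext y
  simp only [real_inner_smul_right]; ring

theorem model_le {ε k τ x : ℝ} (hε : 0 < ε) (hk : 0 < k) (hH : ∀ s t : ℝ, |s| ≤ 2 * π →
    |t| ≤ 2 * π → t ≤ s → k * (s - t) ≤ HH ε s - HH ε t) (hτ : |τ| ≤ 1) (hx : |x| ≤ 1) :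
    HH ε (-Real.arcsin x - π * τ) * (τ + x) + HH ε (-Real.arcsin (-x) - π * τ) * (τ + -x) ≤
      -(2 * k) * x ^ 2 := by
  rw [Real.arcsin_neg, neg_neg]
  set s := Real.arcsin x with hs
  have hp := Real.pi_pos
  have s1 : -(π / 2) ≤ s := Real.neg_pi_div_two_le_arcsin x
  have s2 : s ≤ π / 2 := Real.arcsin_le_pi_div_two x
  have hsin : Real.sin s = x := Real.sin_arcsin (abs_le.1 hx).1 (abs_le.1 hx).2
  obtain ⟨t1, t2⟩ := abs_le.1 hτ
  have b1 : |-s - π * τ| ≤ 2 * π := abs_le.2 ⟨by nlinarith, by nlinarith⟩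
  have b2 : |s - π * τ| ≤ 2 * π := abs_le.2 ⟨by nlinarith, by nlinarith⟩
  have e1 : HH ε (-s - π * τ) = -HH ε (s + π * τ) := by rw [← HH_neg]; congr 1; ring
  have h1 : τ * (HH ε (-s - π * τ) + HH ε (s - π * τ)) ≤ 0 := by
    rw [e1]
    rcases le_total 0 τ with h | h
    · have := monotone_HH hε (show s - π * τ ≤ s + π * τ by nlinarith)
      nlinarith
    · have := monotone_HH hε (show s + π * τ ≤ s - π * τ by nlinarith)
      nlinarith
  have h2 : x * (HH ε (-s - π * τ) - HH ε (s - π * τ)) ≤ -(2 * k) * x ^ 2 := by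
    rcases le_total 0 x with h | h
    · have s0 : 0 ≤ s := Real.arcsin_nonneg.2 h
      have h3 : x ≤ s := hsin ▸ Real.sin_le s0
      have h4 := hH _ _ b2 b1 (by linarith)
      have h5 : HH ε (-s - π * τ) - HH ε (s - π * τ) ≤ -(2 * k) * x := by nlinarith
      nlinarith
    · have s0 : s ≤ 0 := Real.arcsin_nonpos.2 h
      have h3 : s ≤ x := hsin ▸ Real.le_sin s0
      have h4 := hH _ _ b1 b2 (by linarith)
      have h5 : -(2 * k) * x ≤ HH ε (-s - π * τ) - HH ε (s - π * τ) := by nlinarith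
      nlinarith
  linarith

/-- `D = arcsin (sin D)`, `|sin D + ⟪e,ŷ⟫| ≤ K√(1-β²) + (1-β)`, `arcsin` is uniformly continuous
(continuous and constant outside `[-1,1]`; or use compactness of `[-1,1]`), `Real.arcsin_neg`. -/
theorem side_close (K : ℝ) {η : ℝ} (hη : 0 < η) : ∃ β ∈ Ioo (0 : ℝ) 1, ∀ s x : ℝ, |s| < π / 2 →
    |x| ≤ 1 → |Real.sin s + β * x| ≤ K * √(1 - β ^ 2) → |s + Real.arcsin x| ≤ η := by
  have hu := (isCompact_Icc (a := (-1 : ℝ)) (b := 1)).uniformContinuousOn_of_continuous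
    Real.continuous_arcsin.continuousOn
  obtain ⟨δ, hδ, h⟩ := Metric.uniformContinuousOn_iff.1 hu η hη
  have hc : ContinuousAt (fun β : ℝ => K * √(1 - β ^ 2) + (1 - β)) 1 := by fun_prop
  have hev := (hc.eventually (gt_mem_nhds (a := δ) (by simpa using hδ))).filter_mono
    (nhdsWithin_le_nhds (s := Iio 1))
  obtain ⟨β, h1, h2⟩ := (hev.and (Ioo_mem_nhdsLT (show (0 : ℝ) < 1 by norm_num))).exists
  refine ⟨β, h2, fun s x hs hx hb => ?_⟩
  have h3 : dist (Real.sin s) (-x) < δ := by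
    rw [Real.dist_eq, sub_neg_eq_add]
    have h4 := abs_add_le (Real.sin s + β * x) ((1 - β) * x)
    rw [abs_mul, abs_of_pos (sub_pos.2 h2.2), show Real.sin s + β * x + (1 - β) * x =
      Real.sin s + x by ring] at h4
    have h5 := mul_le_mul_of_nonneg_left hx (sub_pos.2 h2.2).le
    linarith
  have h6 := h _ ⟨Real.neg_one_le_sin s, Real.sin_le_one s⟩ _
    ⟨by linarith [(abs_le.1 hx).2], by linarith [(abs_le.1 hx).1]⟩ h3
  rw [Real.arcsin_sin (by linarith [(abs_lt.1 hs).1]) (abs_lt.1 hs).2.le, Real.arcsin_neg,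
    Real.dist_eq, sub_neg_eq_add] at h6
  exact h6.le

/-- `abs_GG_sub_le`; `∫ GG (-arcsin - t) dmu ≤ 1` by `plane` with `G s = ofReal (GG ε (s + t))`,
`GG_neg`, `lintegral_GG_le`. -/
theorem side_energy {ε : ℝ} (hε : 0 < ε) {a : ℝ} (ha : 1 < a) : ∃ η : ℝ, 0 < η ∧
    ∀ (D : E → ℝ) (e : E) (t : ℝ), AL D → ‖e‖ = 1 →
      (∀ y, y ≠ 0 → |D y + Real.arcsin (⟪e, y⟫ / ‖y‖)| ≤ η) → ∫ y, GG ε (D y - t) ∂mu E < a := by
  obtain ⟨L, hL0, hL⟩ := abs_GG_sub_le hε
  have hm := m0_pos (E := E)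
  refine ⟨(a - 1) / ((L + 1) * (mu E).real univ), by
    have : 0 < a - 1 := by linarith
    positivity, fun D e t hD he h => ?_⟩
  set η := (a - 1) / ((L + 1) * (mu E).real univ) with hη
  have hη0 : 0 < η := by
    have : 0 < a - 1 := by linarith
    positivity
  have hmeas : Measurable fun y : E => GG ε (Real.arcsin (⟪e, y⟫ / ‖y‖) - -t) :=
    (continuous_GG hε).measurable.comp
      ((Real.measurable_arcsin.comp (measurable_xe e)).sub_const _)
  have hi : Integrable (fun y : E => GG ε (Real.arcsin (⟪e, y⟫ / ‖y‖) - -t)) (mu E) := by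
    refine Integrable.of_bound hmeas.aestronglyMeasurable (1 / (ε * sig))
      (Eventually.of_forall fun y => ?_)
    rw [Real.norm_of_nonneg (GG_nonneg hε _)]
    exact GG_le hε _
  have h1 : ∫ y, GG ε (Real.arcsin (⟪e, y⟫ / ‖y‖) - -t) ∂mu E ≤ 1 := by
    rw [integral_eq_lintegral_of_nonneg_ae (Eventually.of_forall fun y => GG_nonneg hε _)
      hmeas.aestronglyMeasurable]
    refine ENNReal.toReal_le_of_le_ofReal zero_le_one ?_
    rw [ENNReal.ofReal_one]
    exact (plane he (G := fun s => ENNReal.ofReal (GG ε (s - -t)))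
      ((continuous_GG hε).measurable.comp (measurable_id.sub_const _)).ennreal_ofReal).trans
      (lintegral_GG_le hε (-t))
  have h2 : ∫ y, GG ε (D y - t) ∂mu E ≤
      ∫ y, (GG ε (Real.arcsin (⟪e, y⟫ / ‖y‖) - -t) + L * η) ∂mu E := by
    refine integral_mono_ae (hD.integrable_GG hε t) (hi.add (integrable_const _)) ?_
    filter_upwards [ae_ne_zero_mu] with y hy
    have h3 := hL (D y - t) (-(Real.arcsin (⟪e, y⟫ / ‖y‖) - -t))
    rw [GG_neg, show D y - t - -(Real.arcsin (⟪e, y⟫ / ‖y‖) - -t) =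
      D y + Real.arcsin (⟪e, y⟫ / ‖y‖) by ring] at h3
    have h4 := mul_le_mul_of_nonneg_left (h y hy) hL0
    linarith [(abs_le.1 h3).2]
  rw [integral_add hi (integrable_const _), integral_const, smul_eq_mul] at h2
  have h5 : (mu E).real univ * ((L + 1) * η) = a - 1 := by rw [hη]; field_simp
  nlinarith

/-- Model case `u₀ y = H(-s y - t)`, `s y = arcsin x`, `x = ⟪e,y⟫/‖y‖`, `t = πτ`: symmetrise with
`integral_mu_neg`: `2 pr = ∫ τ (H(-s-t) + H(s-t)) + x (H(-s-t) - H(s-t))`; the first term is `≤ 0`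
(`H(-s-t) = -H(s+t)`, `monotone_HH`), the second is `≤ -2k x s ≤ -2k x²` (`HH_sub_ge`,
`|x| = |sin s| ≤ |s|`), `exists_inner_sq_ge`.  Perturbation: `|ext u - u₀| ≤ η/(ε√2)`. -/
theorem side_sign {ε : ℝ} (hε : 0 < ε) : ∃ η : ℝ, 0 < η ∧
    ∀ (D : E → ℝ) (e : E) (τ : ℝ) (u : X E), AL D → ‖e‖ = 1 → |τ| ≤ 1 →
      (∀ y, y ≠ 0 → |D y + Real.arcsin (⟪e, y⟫ / ‖y‖)| ≤ η) →
      (∀ x, u x = HH ε (D x - π * τ)) → pr (Ph u) (τ, e) < 0 := by
  obtain ⟨k, hk, hH⟩ := HH_sub_ge hε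
  obtain ⟨c, hc, hce⟩ := exists_inner_sq_ge (E := E)
  have hm := m0_pos (E := E)
  refine ⟨k * c * (ε * √2) / (4 * (mu E).real univ), by positivity,
    fun D e τ u hD he hτ h hu => ?_⟩
  set η := k * c * (ε * √2) / (4 * (mu E).real univ) with hη
  set g : E → ℝ := fun y => HH ε (-Real.arcsin (⟪e, y⟫ / ‖y‖) - π * τ) * (τ + ⟪e, y⟫ / ‖y‖) with hg
  have hgm : Measurable g := ((continuous_HH hε).measurable.comp
    ((Real.measurable_arcsin.comp (measurable_xe e)).neg.sub_const _)).mul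
      ((measurable_xe e).const_add τ)
  have hb : ∀ y : E, |τ + ⟪e, y⟫ / ‖y‖| ≤ 2 := fun y => by
    have := abs_add_le τ (⟪e, y⟫ / ‖y‖)
    linarith [abs_xe_le he.le y]
  have hgb : ∀ y, ‖g y‖ ≤ 1 * 2 := fun y => by
    rw [hg, Real.norm_eq_abs, abs_mul]
    exact mul_le_mul (abs_HH_lt _ _).le (hb y) (abs_nonneg _) zero_le_one
  have hgi : Integrable g (mu E) :=
    Integrable.of_bound hgm.aestronglyMeasurable _ (Eventually.of_forall hgb)
  have hgi' : Integrable (fun y => g (-y)) (mu E) :=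
    Integrable.of_bound (hgm.comp measurable_neg).aestronglyMeasurable _
      (Eventually.of_forall fun y => hgb _)
  have hx2 : Integrable (fun y : E => (⟪e, y⟫ / ‖y‖) ^ 2) (mu E) :=
    Integrable.of_bound ((measurable_xe e).pow_const 2).aestronglyMeasurable 1
      (Eventually.of_forall fun y => by
        rw [Real.norm_eq_abs, abs_pow]; exact pow_le_one₀ (abs_nonneg _) (abs_xe_le he.le y))
  have h1 : ∫ y, (g y + g (-y)) ∂mu E ≤ ∫ y, -(2 * k) * (⟪e, y⟫ / ‖y‖) ^ 2 ∂mu E := by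
    refine integral_mono (hgi.add hgi') (hx2.const_mul _) fun y => ?_
    simp only [hg, inner_neg_right, norm_neg, neg_div]
    exact model_le hε hk hH hτ (abs_xe_le he.le y)
  rw [integral_add hgi hgi', integral_mu_neg g, integral_const_mul] at h1
  have h2 : pr (Ph u) (τ, e) ≤ ∫ y, (g y + η / (ε * √2) * 2) ∂mu E := by
    rw [pr_Ph_eq]
    refine integral_mono_ae (integrable_ext_xe u τ e) (hgi.add (integrable_const _)) ?_
    filter_upwards [ae_ne_zero_mu] with y hy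
    have h3 := abs_HH_sub_le hε (D y - π * τ) (-Real.arcsin (⟪e, y⟫ / ‖y‖) - π * τ)
    rw [show D y - π * τ - (-Real.arcsin (⟪e, y⟫ / ‖y‖) - π * τ) =
      D y + Real.arcsin (⟪e, y⟫ / ‖y‖) by ring] at h3
    have h4 := h3.trans (div_le_div_of_nonneg_right (h y hy) (by positivity))
    have h5 := mul_le_mul h4 (hb y) (abs_nonneg _) (by positivity)
    rw [← abs_mul] at h5
    rw [hD.ext_eq hu hy]
    have h6 := (abs_le.1 h5).2
    simp only [hg]
    linarith
  rw [integral_add hgi (integrable_const _), integral_const, smul_eq_mul] at h2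
  have h7 : (mu E).real univ * (η / (ε * √2) * 2) = k * c / 2 := by rw [hη]; field_simp; ring
  have h8 := mul_le_mul_of_nonneg_left (hce e he) hk.le
  have h9 : 0 < k * c := by positivity
  linarith

/-- `τ u ≤ -h` pointwise with `h = HH ε (π/2) > 1/2`; `∫ ŷ dmu = 0` (`integral_mu_neg`), so
`⟪∫ u ŷ, b⟫ = ∫ (u + τ)⟪ŷ, b⟫ ≤ (1-h) m0`. -/
theorem face_sign {ε : ℝ} (hε : 0 < ε) (hh : 1 / 2 < HH ε (π / 2)) {D : E → ℝ} (hD : AL D)
    (hD2 : ∀ y, y ≠ 0 → |D y| < π / 2) {τ : ℝ} (hτ : |τ| = 1) {b : E} (hb : ‖b‖ ≤ 1) {u : X E}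
    (hu : ∀ x, u x = HH ε (D x - π * τ)) : pr (Ph u) (τ, b) < 0 := by
  have hm := m0_pos (E := E)
  have hxi : Integrable (fun y : E => ⟪b, y⟫ / ‖y‖) (mu E) :=
    Integrable.of_bound (measurable_xe b).aestronglyMeasurable 1
      (Eventually.of_forall fun y => abs_xe_le hb y)
  have h0 : ∫ y, ⟪b, y⟫ / ‖y‖ ∂mu E = 0 := by
    have := integral_mu_neg (fun y : E => ⟪b, y⟫ / ‖y‖)
    simp only [inner_neg_right, norm_neg, neg_div, integral_neg] at this
    linarith
  have h2 : pr (Ph u) (τ, b) ≤ ∫ y, ((1 - 2 * HH ε (π / 2)) - τ * (⟪b, y⟫ / ‖y‖)) ∂mu E := by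
    rw [pr_Ph_eq]
    refine integral_mono_ae (integrable_ext_xe u τ b)
      ((integrable_const _).sub (hxi.const_mul _)) ?_
    filter_upwards [ae_ne_zero_mu] with y hy
    rw [hD.ext_eq hu hy]
    obtain ⟨d1, d2⟩ := abs_lt.1 (hD2 y hy)
    obtain ⟨x1, x2⟩ := abs_le.1 (abs_xe_le hb y)
    obtain ⟨u1, u2⟩ := abs_lt.1 (abs_HH_lt ε (D y - π * τ))
    rcases (abs_eq zero_le_one).1 hτ with rfl | rfl
    · have h3 := monotone_HH hε (show D y - π * 1 ≤ -(π / 2) by linarith)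
      rw [HH_neg] at h3
      nlinarith
    · have h3 := monotone_HH hε (show π / 2 ≤ D y - π * -1 by linarith)
      nlinarith
  rw [integral_sub (integrable_const _) (hxi.const_mul _), integral_const_mul, h0, integral_const,
    smul_eq_mul] at h2
  nlinarith

end Crest.Agent.R246.A
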