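import Crest.Agent.R246.A.Pis
import Crest.Agent.R246.A.Desc
import Crest.Agent.R246.A.Fam2

/-! Row 246, block A: the energy gap. -/

set_option autoImplicit false
set_option linter.unusedSectionVars false

open MeasureTheory Metric Filter Topology Set Module
open scoped RealInnerProductSpace ENNReal NNReal ContDiff Real

noncomputable section

namespace Crest.Agent.R246.A
open ProbabilityTheory (stdGaussian gaussianReal)

variable {E : Type} [NormedAddCommGroup E] [InnerProductSpace ℝ E] [FiniteDimensional ℝ E]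
  [MeasurableSpace E] [BorelSpace E] [hn : Fact (3 ≤ finrank ℝ E)]

/-- integrable on the product with integral `c` -/
def IV (f : E × E → ℝ) (c : ℝ) : Prop := Integrable f ((stdGaussian E).prod (stdGaussian E)) ∧
  ∫ z, f z ∂(stdGaussian E).prod (stdGaussian E) = c

theorem IV.add {f g : E × E → ℝ} {c d : ℝ} (hf : IV f c) (hg : IV g d) :
    IV (fun z => f z + g z) (c + d) :=
  ⟨hf.1.add hg.1, by rw [integral_add hf.1 hg.1, hf.2, hg.2]⟩

theorem IV.smul {f : E × E → ℝ} {c : ℝ} (hf : IV f c) (k : ℝ) : IV (fun z => k * f z) (k * c) :=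
  ⟨hf.1.const_mul k, by rw [integral_const_mul, hf.2]⟩

theorem IV.mul_prod {f g : E → ℝ} (hf : Integrable f (stdGaussian E))
    (hg : Integrable g (stdGaussian E)) : IV (fun z => f z.1 * g z.2)
      ((∫ y, f y ∂stdGaussian E) * ∫ y, g y ∂stdGaussian E) :=
  ⟨hf.mul_prod hg, integral_prod_mul f g⟩

theorem IV.inner {f g : E → E} (hf : Integrable f (stdGaussian E))
    (hg : Integrable g (stdGaussian E)) : IV (fun z => ⟪f z.1, g z.2⟫)
      ⟪∫ y, f y ∂stdGaussian E, ∫ y, g y ∂stdGaussian E⟫ := by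
  have : CompleteSpace E := FiniteDimensional.complete ℝ E
  exact ⟨hf.op_fst_snd (op := fun a b => ⟪a, b⟫) continuous_inner
    ⟨1, fun a b => by rw [one_mul]; exact norm_inner_le_norm a b⟩ hg,
    integral_prod_bilin (innerSL ℝ) hf hg⟩

theorem integrable_pow_mul_std {h : E → ℝ} (hm : Measurable h) {B : ℝ} (hB : ∀ y, |h y| ≤ B)
    (k : ℕ) : Integrable (fun y => ‖y‖ ^ k * h y) (stdGaussian E) :=
  (integrable_norm_pow_std k).mul_bdd hm.aestronglyMeasurable (Eventually.of_forall hB)

theorem integrable_smul_id_std {h : E → ℝ} (hm : Measurable h) {B : ℝ} (hB : ∀ y, |h y| ≤ B) :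
    Integrable (fun y => h y • y) (stdGaussian E) := by
  refine (integrable_pow_mul_std hm hB 1).mono (hm.smul measurable_id).aestronglyMeasurable
    (Eventually.of_forall fun y => ?_)
  simp [norm_smul, mul_comm]

theorem integrable_Et {u : X E} (hu : Lip u) (ε : ℝ) : Integrable
    (fun y => ε * ‖y‖ ^ 2 * ‖gradient (ext u) y‖ ^ 2 / 2 + Wt (ext u y) / ε) (mu E) := by
  refine Integrable.add ?_ ((integrable_Wt u).div_const ε)
  simpa only [mul_assoc] using (hu.integrable_sq.const_mul ε).div_const 2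

theorem exists_Wt_le (u : X E) : ∃ B, ∀ y, Wt (ext u y) ≤ B := by
  obtain ⟨B, hB⟩ := (isCompact_Icc (a := -‖u‖) (b := ‖u‖)).exists_bound_of_continuousOn
    continuous_Wt.continuousOn
  exact ⟨B, fun y => (le_abs_self _).trans (hB _ (abs_le.1 (abs_ext_le u y)))⟩

theorem integrable_Wt_std (u : X E) : Integrable (fun y => Wt (ext u y)) (stdGaussian E) := by
  obtain ⟨B, hB⟩ := exists_Wt_le u
  exact Integrable.of_bound (continuous_Wt.measurable.comp (measurable_ext u)).aestronglyMeasurable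
    B (Eventually.of_forall fun y => by rw [Real.norm_of_nonneg (Wt_nonneg _)]; exact hB y)

/-- expand `(‖a‖² + ‖b‖² + 2⟪a,b⟫)(p a² + p b² - 2 p a p b)`; `integral_prod_mul`, `std_indep`,
`integral_norm_sq_std`, `integral_id_stdGaussian`; for the inner products use
`integral_prod` + `integral_inner`. -/
theorem pair_identity (p : X E) :
    ∫ z, ‖z.1 + z.2‖ ^ 2 * (ext p z.1 - ext p z.2) ^ 2 ∂(stdGaussian E).prod (stdGaussian E) =
      4 * finrank ℝ E * (∫ y, ext p y ^ 2 ∂stdGaussian E) -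
        4 * finrank ℝ E * (∫ y, ext p y ∂stdGaussian E) ^ 2 -
        4 * ‖∫ y, ext p y • y ∂stdGaussian E‖ ^ 2 := by
  have hb : ∀ y, |ext p y| ≤ ‖p‖ := abs_ext_le p
  have hb2 : ∀ y, |ext p y ^ 2| ≤ ‖p‖ ^ 2 := fun y => by
    rw [abs_pow]; exact pow_le_pow_left₀ (abs_nonneg _) (hb y) 2
  have m1 := measurable_ext p
  have m2 : Measurable fun y => ext p y ^ 2 := m1.pow_const 2
  have h1 := ext_hom0 p
  have h2 : Hom0 fun y => ext p y ^ 2 := fun t ht y => by simp only [h1 t ht y]
  have i0 := integrable_norm_pow_std (E := E) 0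
  have iN := integrable_norm_pow_std (E := E) 2
  have i1 := integrable_pow_mul_std m1 hb 0
  have i2 := integrable_pow_mul_std m2 hb2 0
  have iN1 := integrable_pow_mul_std m1 hb 2
  have iN2 := integrable_pow_mul_std m2 hb2 2
  have j0 := integrable_smul_id_std (E := E) (h := fun _ => 1) measurable_const
    (B := 1) (fun _ => by simp)
  have j1 := integrable_smul_id_std m1 hb
  have j2 := integrable_smul_id_std m2 hb2
  have key := ((((((((IV.mul_prod iN2 i0).add (IV.mul_prod iN i2)).add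
    ((IV.mul_prod iN1 i1).smul (-2))).add (IV.mul_prod i2 iN)).add (IV.mul_prod i0 iN2)).add
    ((IV.mul_prod i1 iN1).smul (-2))).add ((IV.inner j2 j0).smul 2)).add
    ((IV.inner j0 j2).smul 2)).add ((IV.inner j1 j1).smul (-4))
  have e := key.2
  rw [std_indep h1 (fun r => r ^ 2), std_indep h2 (fun r => r ^ 2), integral_norm_sq_std] at e
  simp only [pow_zero, one_mul, one_smul, ProbabilityTheory.integral_id_stdGaussian, integral_const,
    probReal_univ, smul_eq_mul, mul_one, inner_zero_left, inner_zero_right,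
    real_inner_self_eq_norm_sq] at e
  refine Eq.trans ?_ (e.trans (by ring))
  congr 1; funext z
  simp only [norm_add_sq_real, real_inner_smul_left, real_inner_smul_right]
  ring

/-- where `ext u` is differentiable, `∇(σ/4 gg u) = σ/4 · 3(1-c²) ∇u` (`hasDerivAt_gg`);
`modica_le` with `a = ‖y‖ ‖∇u‖`; `integral_mu_std`. -/
theorem grad_gX_le {ε : ℝ} (hε : 0 < ε) {u : X E} (hu : Lip u) :
    √(2 * π) * ∫ y, ‖gradient (ext ((sig / 4) • gX u)) y‖ ∂stdGaussian E ≤ sig * Et ε u := by
  have hs := sig_pos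
  have h1 := integral_mu_std (E := E) fun y => ‖y‖ * ‖gradient (ext ((sig / 4) • gX u)) y‖
  have h2 : ∫ y, ‖y‖ * ‖gradient (ext ((sig / 4) • gX u)) y‖ / ‖y‖ ∂stdGaussian E =
      ∫ y, ‖gradient (ext ((sig / 4) • gX u)) y‖ ∂stdGaussian E := by
    refine integral_congr_ae ?_
    filter_upwards [ae_ne_zero_std] with y hy
    rw [mul_div_cancel_left₀ _ (norm_ne_zero_iff.2 hy)]
  rw [← h2, ← h1, Et, mul_div_cancel₀ _ hs.ne']
  refine integral_mono_of_nonneg (Eventually.of_forall fun y => by positivity)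
    (integrable_Et hu ε) ?_
  filter_upwards [mu_ac hu.ae_diff] with y hy
  have h3 : HasFDerivAt (fun y => sig / 4 * gg (ext u y))
      ((sig / 4) • (3 * (1 - cl1 (ext u y) ^ 2)) • fderiv ℝ (ext u) y) y :=
    ((hasDerivAt_gg (ext u y)).comp_hasFDerivAt y hy.hasFDerivAt).const_mul (sig / 4)
  have h4 : 0 ≤ 3 * (1 - cl1 (ext u y) ^ 2) := by
    nlinarith [neg_one_le_cl1 (ext u y), cl1_le_one (ext u y)]
  have h5 := modica_le hε (ext u y) (‖y‖ * ‖gradient (ext u) y‖)
  rw [norm_gradient_eq, ext_smul, ext_gX, h3.fderiv, norm_smul, norm_smul,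
    Real.norm_of_nonneg h4, Real.norm_of_nonneg (by positivity), ← norm_gradient_eq]
  nlinarith

/-- Gaussian averages of `0`-homogeneous functions are `mu`-averages (`integral_mu_std`,
`std_indep` with `a r = r⁻¹`; `h = 1` identifies the constant). -/
theorem integral_std_hom0 {h : E → ℝ} (h0 : Hom0 h) :
    (mu E).real univ * ∫ y, h y ∂stdGaussian E = ∫ y, h y ∂mu E := by
  have h1 := integral_mu_std (E := E) fun _ => 1
  rw [integral_const, smul_eq_mul, mul_one] at h1
  have h2 := std_indep h0 fun r => r⁻¹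
  rw [integral_mu_std, h1]
  simp only [div_eq_inv_mul, mul_one]
  rw [h2]; ring

/-- `√x ≤ τ + x/(4τ)` and `∫ Wt u dmu ≤ ε σ Et`. -/
theorem integral_sqrt_Wt_le {ε : ℝ} (hε : 0 < ε) {u : X E} (hu : Lip u) {τ : ℝ} (hτ : 0 < τ) :
    ∫ y, √(Wt (ext u y)) ∂stdGaussian E ≤ τ + ε * sig * Et ε u / (4 * τ * (mu E).real univ) := by
  have hs := sig_pos
  have hm := m0_pos (E := E)
  have h0 : Hom0 fun y => Wt (ext u y) := fun t ht y => by simp only [ext_hom0 u t ht y]
  have h1 := integral_std_hom0 h0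
  have h2 : ∫ y, Wt (ext u y) / ε ∂mu E ≤ sig * Et ε u := by
    rw [Et, mul_div_cancel₀ _ hs.ne']
    refine integral_mono ((integrable_Wt u).div_const ε) (integrable_Et hu ε) fun y => ?_
    exact le_add_of_nonneg_left (by positivity)
  rw [integral_div, div_le_iff₀ hε, ← h1] at h2
  have h3 : ∫ y, √(Wt (ext u y)) ∂stdGaussian E ≤
      ∫ y, (τ + Wt (ext u y) / (4 * τ)) ∂stdGaussian E := by
    refine integral_mono_of_nonneg (Eventually.of_forall fun y => Real.sqrt_nonneg _)
      ((integrable_const _).add ((integrable_Wt_std u).div_const _))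
      (Eventually.of_forall fun y => ?_)
    have h4 := Real.sq_sqrt (Wt_nonneg (ext u y))
    have h5 : √(Wt (ext u y)) - τ ≤ Wt (ext u y) / (4 * τ) := by
      rw [le_div_iff₀ (by positivity)]
      nlinarith [sq_nonneg (√(Wt (ext u y)) - 2 * τ)]
    simp only
    linarith
  rw [integral_add (integrable_const _) ((integrable_Wt_std u).div_const _), integral_const,
    probReal_univ, one_smul, integral_div] at h3
  refine h3.trans (add_le_add le_rfl ?_)
  rw [div_le_div_iff₀ (by positivity) (by positivity)]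
  nlinarith

/-- `Ph u = 0` in Gaussian form: test with `⟪e, ·⟫`; `u y ⟪e,y⟫ = ‖y‖ · (u y ⟪e,ŷ⟫)`, `std_indep`,
`integral_std_hom0`. -/
theorem moments_std {u : X E} (h : Ph u = 0) :
    ∫ y, ext u y ∂stdGaussian E = 0 ∧ ∫ y, ext u y • y ∂stdGaussian E = 0 := by
  have hm := m0_pos (E := E)
  constructor
  · have h1 := integral_std_hom0 (ext_hom0 u)
    have h2 : ∫ y, ext u y ∂mu E = 0 := congrArg Prod.fst h
    rw [h2] at h1
    exact (mul_eq_zero.1 h1).resolve_left hm.ne'
  · refine ext_inner_left ℝ fun e => ?_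
    have h0 : Hom0 fun y => ext u y * (0 + ⟪e, y⟫ / ‖y‖) := fun t ht y => by
      simp only [ext_hom0 u t ht y, real_inner_smul_right, norm_smul, Real.norm_of_nonneg ht.le,
        mul_div_mul_left _ _ ht.ne']
    have h1 := integral_std_hom0 h0
    rw [← pr_Ph_eq, h] at h1
    have h2 : ∫ y, ext u y * (0 + ⟪e, y⟫ / ‖y‖) ∂stdGaussian E = 0 := by
      simpa [pr, hm.ne'] using h1
    have h3 := std_indep h0 fun r => r
    rw [h2, mul_zero] at h3
    rw [inner_zero_right, ← integral_inner (integrable_smul_id_std (measurable_ext u)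
      (abs_ext_le u)), ← h3]
    congr 1; funext y
    by_cases hy : y = 0
    · simp [hy]
    · have := norm_ne_zero_iff.2 hy
      rw [real_inner_smul_right]; field_simp; ring

/-- Let `p = (1/2) • gX u` (`|p| ≤ 1`), `v = (σ/4) • gX u = (σ/2) p`, `s = ∫ √(Wt u) dγ`.
`|v - v'| ≥ (σ/4)(p - p')²`, so `pisier` + `pair_identity` + `grad_gX_le` give
`σ (n E p² - n (E p)² - ‖E p g‖²) ≤ (πn-2) √(2/π) σ Et/√(2π) = (πn-2)/π · σ Et`;
`E p² ≥ 1 - 2s`, `|E p| ≤ s`, `‖E p g‖ ≤ E‖g‖ · s` (`abs_half_gg_sub_le`, `one_sub_half_gg_sq_le`,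
`moments_std`, `std_indep`). -/
theorem gap_ineq {ε : ℝ} (hε : 0 < ε) {u : X E} (hu : Lip u) (h : Ph u = 0) :
    (finrank ℝ E : ℝ) * (1 - 2 * ∫ y, √(Wt (ext u y)) ∂stdGaussian E) -
        (finrank ℝ E + (∫ y : E, ‖y‖ ∂stdGaussian E) ^ 2) *
          (∫ y, √(Wt (ext u y)) ∂stdGaussian E) ^ 2 ≤
      (finrank ℝ E - 2 / π) * Et ε u := by
  have hs := sig_pos
  have hp := Real.pi_pos
  have hn3 : (3 : ℝ) ≤ finrank ℝ E := by exact_mod_cast hn.out
  set p : X E := (1 / 2 : ℝ) • gX u with hpd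
  set v : X E := (sig / 4) • gX u with hvd
  set s := ∫ y, √(Wt (ext u y)) ∂stdGaussian E with hsd
  have ep : ∀ y, ext p y = gg (ext u y) / 2 := fun y => by rw [hpd, ext_smul, ext_gX]; ring
  have ev : ∀ y, ext v y = sig / 2 * ext p y := fun y => by rw [ep, hvd, ext_smul, ext_gX]; ring
  have bp : ∀ y, |ext p y| ≤ 1 := fun y => by
    rw [ep, abs_div, abs_two]; linarith [abs_gg_le (ext u y)]
  have h1 := pisier (hu.gX.smul (sig / 4))
  have h2 := grad_gX_le hε hu
  rw [← hvd] at h1 h2
  have h3 : sig / 4 * ∫ z, ‖z.1 + z.2‖ ^ 2 * (ext p z.1 - ext p z.2) ^ 2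
      ∂(stdGaussian E).prod (stdGaussian E) ≤
      ∫ z, ‖z.1 + z.2‖ ^ 2 * |ext v z.1 - ext v z.2| ∂(stdGaussian E).prod (stdGaussian E) := by
    rw [← integral_const_mul]
    have ip := integrable_norm_pow_std (E := E)
    refine integral_mono_of_nonneg (Eventually.of_forall fun z => by positivity) ?_
      (Eventually.of_forall fun z => ?_)
    · refine (((((ip 2).mul_prod (ip 0)).add ((ip 0).mul_prod (ip 2))).const_mul 2).mul_const
        (2 * ‖v‖)).mono' (((measurable_fst.add measurable_snd).norm.pow_const 2).mul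
          (continuous_abs.measurable.comp (((measurable_ext v).comp measurable_fst).sub
            ((measurable_ext v).comp measurable_snd)))).aestronglyMeasurable
        (Eventually.of_forall fun z => ?_)
      rw [Real.norm_of_nonneg (by positivity)]
      refine mul_le_mul ?_ ((abs_sub _ _).trans ?_) (abs_nonneg _)
        (by simp only [Pi.add_apply]; positivity)
      · have := pow_le_pow_left₀ (norm_nonneg _) (norm_add_le z.1 z.2) 2
        simp only [Pi.add_apply, pow_zero]
        nlinarith [sq_nonneg (‖z.1‖ - ‖z.2‖)]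
      · linarith [abs_ext_le v z.1, abs_ext_le v z.2]
    · simp only
      rw [mul_left_comm, ev, ev, ← mul_sub, abs_mul, abs_of_pos (half_pos hs),
        ← sq_abs (ext p z.1 - ext p z.2)]
      refine mul_le_mul_of_nonneg_left ?_ (sq_nonneg _)
      have a1 : |ext p z.1 - ext p z.2| ≤ 2 := (abs_sub _ _).trans (by linarith [bp z.1, bp z.2])
      have a2 := mul_le_mul_of_nonneg_left a1 (abs_nonneg (ext p z.1 - ext p z.2))
      nlinarith
  rw [pair_identity] at h3
  have h4 : √(2 / π) = √(2 * π) / π := by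
    rw [show 2 / π = 2 * π / π ^ 2 by field_simp, Real.sqrt_div' _ (sq_nonneg _),
      Real.sqrt_sq hp.le]
  have h5 : (π * finrank ℝ E - 2) * (√(2 / π) * ∫ y, ‖gradient (ext v) y‖ ∂stdGaussian E) ≤
      sig * ((finrank ℝ E - 2 / π) * Et ε u) := by
    have a1 : 0 ≤ (finrank ℝ E : ℝ) - 2 / π := by
      have : 2 / π ≤ 2 := div_le_self (by norm_num) (by linarith [Real.pi_gt_three])
      linarith
    calc _ = (finrank ℝ E - 2 / π) * (√(2 * π) * ∫ y, ‖gradient (ext v) y‖ ∂stdGaussian E) := by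
          rw [h4]; field_simp
      _ ≤ (finrank ℝ E - 2 / π) * (sig * Et ε u) := mul_le_mul_of_nonneg_left h2 a1
      _ = _ := by ring
  obtain ⟨M0, M1⟩ := moments_std h
  have mW : Measurable fun y => √(Wt (ext u y)) :=
    (continuous_Wt.measurable.comp (measurable_ext u)).sqrt
  obtain ⟨B, hB⟩ := exists_Wt_le u
  have bW : ∀ y, |√(Wt (ext u y))| ≤ √B := fun y => by
    rw [abs_of_nonneg (Real.sqrt_nonneg _)]; exact Real.sqrt_le_sqrt (hB y)
  have iW := integrable_pow_mul_std mW bW
  have iW0 : Integrable (fun y => √(Wt (ext u y))) (stdGaussian E) := by simpa using iW 0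
  have iu : ∀ w : X E, Integrable (ext w) (stdGaussian E) := fun w => by
    simpa using integrable_pow_mul_std (measurable_ext w) (abs_ext_le w) 0
  have ip2 : Integrable (fun y => ext p y ^ 2) (stdGaussian E) :=
    Integrable.of_bound ((measurable_ext p).pow_const 2).aestronglyMeasurable 1
      (Eventually.of_forall fun y => by
        rw [Real.norm_eq_abs, abs_pow]; exact pow_le_one₀ (abs_nonneg _) (bp y))
  have dp : ∀ y, ‖ext p y - ext u y‖ ≤ √(Wt (ext u y)) := fun y => by
    rw [ep]; exact abs_half_gg_sub_le _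
  have b1 : 1 - 2 * s ≤ ∫ y, ext p y ^ 2 ∂stdGaussian E := by
    have : ∫ y, (1 - 2 * √(Wt (ext u y))) ∂stdGaussian E ≤ ∫ y, ext p y ^ 2 ∂stdGaussian E := by
      refine integral_mono ((integrable_const _).sub (iW0.const_mul 2)) ip2 fun y => ?_
      have := one_sub_half_gg_sq_le (ext u y)
      simp only [ep]
      linarith
    rwa [integral_sub (integrable_const _) (iW0.const_mul 2), integral_const, probReal_univ,
      one_smul, integral_const_mul] at this
  have b2 : |∫ y, ext p y ∂stdGaussian E| ≤ s := by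
    have := norm_integral_le_of_norm_le iW0 (Eventually.of_forall dp)
    rwa [integral_sub (iu p) (iu u), M0, sub_zero] at this
  have b3 : ‖∫ y, ext p y • y ∂stdGaussian E‖ ≤ (∫ y : E, ‖y‖ ∂stdGaussian E) * s := by
    have h0 : Hom0 fun y => √(Wt (ext u y)) := fun t ht y => by simp only [ext_hom0 u t ht y]
    have := norm_integral_le_of_norm_le (f := fun y => ext p y • y - ext u y • y) (iW 1)
      (Eventually.of_forall fun y => by
        rw [← sub_smul, norm_smul, pow_one, mul_comm]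
        exact mul_le_mul_of_nonneg_left (dp y) (norm_nonneg _))
    rw [integral_sub (integrable_smul_id_std (measurable_ext p) (abs_ext_le p))
      (integrable_smul_id_std (measurable_ext u) (abs_ext_le u)), M1, sub_zero,
      std_indep h0 fun r => r ^ 1] at this
    simpa using this
  have c2 := pow_le_pow_left₀ (abs_nonneg _) b2 2
  have c3 := pow_le_pow_left₀ (norm_nonneg _) b3 2
  rw [sq_abs] at c2
  have d1 := mul_le_mul_of_nonneg_left b1 (show (0 : ℝ) ≤ finrank ℝ E by positivity)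
  have d2 := mul_le_mul_of_nonneg_left c2 (show (0 : ℝ) ≤ finrank ℝ E by positivity)
  refine le_of_mul_le_mul_left (le_trans ?_ ((h3.trans h1).trans h5)) hs
  rw [div_mul_eq_mul_div, mul_div_assoc]
  refine mul_le_mul_of_nonneg_left ?_ hs.le
  nlinarith

/-- `a = min 2 (n - 1/π)/(n - 2/π)`; if `Et ≤ 2` then `s ≤ τ + ε c/τ` is small. -/
theorem gap : ∃ a : ℝ, 1 < a ∧ ∃ ε₀ : ℝ, 0 < ε₀ ∧ ∀ ε ∈ Ioo 0 ε₀, ∀ u : X E, Lip u → Ph u = 0 →
    a ≤ Et ε u := by
  have hs := sig_pos
  have hp := Real.pi_pos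
  have hm := m0_pos (E := E)
  have hn3 : (3 : ℝ) ≤ finrank ℝ E := by exact_mod_cast hn.out
  have h2p : 2 / π ≤ 2 := div_le_self (by norm_num) (by linarith [Real.pi_gt_three])
  have hd : 0 < (finrank ℝ E : ℝ) - 2 / π := by linarith
  set m := (∫ y : E, ‖y‖ ∂stdGaussian E) ^ 2 with hmd
  have hm0 : 0 ≤ m := sq_nonneg _
  set s0 : ℝ := min 1 (1 / π / (3 * finrank ℝ E + m)) with hs0
  have s0p : 0 < s0 := by positivity
  refine ⟨min 2 ((finrank ℝ E - 1 / π) / (finrank ℝ E - 2 / π)), lt_min (by norm_num) ?_,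
    s0 * (s0 / 2) * (mu E).real univ / sig, by positivity, fun ε hε u hu h => ?_⟩
  · rw [one_lt_div hd]
    have : 1 / π < 2 / π := div_lt_div_of_pos_right (by norm_num) hp
    linarith
  rcases le_total 2 (Et ε u) with h2 | h2
  · exact (min_le_left _ _).trans h2
  refine (min_le_right _ _).trans ?_
  have h1 := gap_ineq hε.1 hu h
  have h3 := integral_sqrt_Wt_le hε.1 hu (half_pos s0p)
  set s := ∫ y, √(Wt (ext u y)) ∂stdGaussian E with hsd
  have sp : 0 ≤ s := integral_nonneg fun y => Real.sqrt_nonneg _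
  have h4 : ε * sig * Et ε u / (4 * (s0 / 2) * (mu E).real univ) ≤ s0 / 2 := by
    rw [div_le_iff₀ (by positivity)]
    have a1 := (lt_div_iff₀ hs).1 hε.2
    have a2 := mul_le_mul_of_nonneg_left h2 (mul_pos hε.1 hs).le
    nlinarith
  have h5 : s ≤ s0 := by linarith
  have h6 : s ≤ 1 := h5.trans (min_le_left _ _)
  have h7 : s * (3 * finrank ℝ E + m) ≤ 1 / π :=
    (le_div_iff₀ (by positivity)).1 (h5.trans (min_le_right _ _))
  have h8 : s ^ 2 ≤ s := by nlinarith
  have h9 := mul_le_mul_of_nonneg_left h8 (show (0 : ℝ) ≤ finrank ℝ E + m by positivity)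
  rw [div_le_iff₀ hd]
  nlinarith

end Crest.Agent.R246.A
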