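import Crest.Agent.R246.A.Polar
import Crest.Agent.R246.Fub

/-! Row 246, block A: the standard Gaussian measure on `E`. -/

set_option autoImplicit false
set_option linter.unusedSectionVars false

open MeasureTheory Metric Filter Topology Set Module
open scoped RealInnerProductSpace ENNReal NNReal ContDiff Real

noncomputable section

namespace Crest.Agent.R246.A
open ProbabilityTheory (stdGaussian gaussianReal)

variable {E : Type} [NormedAddCommGroup E] [InnerProductSpace ℝ E] [FiniteDimensional ℝ E]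
  [MeasurableSpace E] [BorelSpace E] [hn : Fact (3 ≤ finrank ℝ E)]

theorem gk_eq (d : ℕ) (y : E) : gk d 0 1 y = (√(2 * π))⁻¹ ^ d * Real.exp (-‖y‖ ^ 2 / 2) := by
  simp [gk]

theorem integral_gk_withDensity {F : Type} [NormedAddCommGroup F] [NormedSpace ℝ F] (d : ℕ)
    (h : E → F) : ∫ y, h y ∂(volume : Measure E).withDensity (fun y => ENNReal.ofReal (gk d 0 1 y)) =
      ∫ y, gk d 0 1 y • h y := by
  rw [integral_withDensity_eq_integral_toReal_smul (continuous_gk _ _ _).measurable.ennreal_ofReal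
    (Eventually.of_forall fun _ => by simp)]
  congr 1; funext y
  rw [ENNReal.toReal_ofReal (gk_pos _ _ one_pos y).le]

/-- `Measure.ext_of_charFun`, `charFun_stdGaussian`,
`GaussianFourier.integral_cexp_neg_mul_sq_norm_add` (`b = 1/2`, `c = I`). -/
theorem std_eq : stdGaussian E =
    (volume : Measure E).withDensity fun y => ENNReal.ofReal (gk (finrank ℝ E) 0 1 y) := by
  have hi := integrable_gk (E := E) (finrank ℝ E) 0 one_pos
  have : IsFiniteMeasure ((volume : Measure E).withDensity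
      fun y => ENNReal.ofReal (gk (finrank ℝ E) 0 1 y)) := isFiniteMeasure_withDensity_ofReal hi.2
  have : CompleteSpace E := FiniteDimensional.complete ℝ E
  refine Measure.ext_of_charFun (funext fun t => ?_)
  rw [ProbabilityTheory.charFun_stdGaussian, charFun_apply, integral_gk_withDensity]
  have key : ∀ w : E, ∫ y : E, gk (finrank ℝ E) 0 1 y • Complex.exp (⟪y, w⟫ * Complex.I) =
      (((√(2 * π))⁻¹ ^ finrank ℝ E : ℝ) : ℂ) * ((π / (1 / 2 : ℂ)) ^ (finrank ℝ E / 2 : ℂ) *
        Complex.exp (Complex.I ^ 2 * ‖w‖ ^ 2 / (4 * (1 / 2)))) := fun w => by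
    rw [← GaussianFourier.integral_cexp_neg_mul_sq_norm_add (by norm_num) Complex.I w,
      ← integral_const_mul]
    congr 1; funext y
    rw [gk_eq, Complex.real_smul, Complex.ofReal_mul, mul_assoc, Complex.ofReal_exp,
      ← Complex.exp_add, real_inner_comm]
    congr 2
    push_cast; ring
  have k0 := key 0
  simp only [inner_zero_right, Complex.ofReal_zero, zero_mul, Complex.exp_zero, norm_zero] at k0
  rw [integral_smul_const, integral_gk 0 one_pos] at k0
  simp only [ne_eq, OfNat.ofNat_ne_zero, not_false_eq_true, zero_pow, mul_zero, zero_div,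
    Complex.exp_zero, mul_one, one_smul] at k0
  rw [key, ← mul_assoc, ← k0, one_mul]
  congr 1
  rw [Complex.I_sq]; ring

theorem integral_std {F : Type} [NormedAddCommGroup F] [NormedSpace ℝ F] (h : E → F) :
    ∫ y, h y ∂stdGaussian E = ∫ y, gk (finrank ℝ E) 0 1 y • h y := by
  rw [std_eq, integral_gk_withDensity]

theorem std_ac : stdGaussian E ≪ volume := by
  rw [std_eq]; exact withDensity_absolutelyContinuous _ _

/-- `gk (n-1) 0 1 = √(2π) gk n 0 1`. -/
theorem integral_mu_std (h : E → ℝ) :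
    ∫ y, h y ∂mu E = √(2 * π) * ∫ y, h y / ‖y‖ ∂stdGaussian E := by
  rw [integral_mu, integral_std, ← integral_const_mul]
  congr 1; funext y
  have hp : 0 < √(2 * π) := Real.sqrt_pos.2 (by positivity)
  obtain ⟨m, hm⟩ : ∃ m, finrank ℝ E = m + 1 := ⟨finrank ℝ E - 1, by have := hn.out; omega⟩
  rw [om, gk_eq, gk_eq, hm, Nat.add_sub_cancel, pow_succ (√(2 * π))⁻¹, smul_eq_mul, smul_eq_mul]
  generalize (√(2 * π))⁻¹ ^ m = c
  field_simp

/-- radius and direction are independent (`polar`, `integral_std`; `ra (profile) * sa 1 = 1`). -/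
theorem std_indep {h : E → ℝ} (h0 : Hom0 h) (a : ℝ → ℝ) :
    ∫ y, a ‖y‖ * h y ∂stdGaussian E = (∫ y, a ‖y‖ ∂stdGaussian E) * ∫ y, h y ∂stdGaussian E := by
  have key : ∀ {g : E → ℝ}, Hom0 g → ∀ b : ℝ → ℝ, ∫ y, b ‖y‖ * g y ∂stdGaussian E =
      ra E (fun r => (√(2 * π))⁻¹ ^ finrank ℝ E * Real.exp (-r ^ 2 / 2) * b r) * sa g :=
    fun {g} hg b => by
      rw [integral_std, ← polar hg]
      congr 1; funext y
      rw [gk_eq, smul_eq_mul]; ring
  have h1 : Hom0 fun _ : E => (1 : ℝ) := fun _ _ _ => rfl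
  have k1 := key h0 a
  have k2 := key h1 a
  have k3 := key h0 fun _ => 1
  have k4 := key h1 fun _ => 1
  simp only [mul_one, one_mul] at k2 k3 k4
  rw [integral_const, probReal_univ, one_smul] at k4
  rw [k1, k2, k3]
  linear_combination (ra E (fun r => (√(2 * π))⁻¹ ^ finrank ℝ E * Real.exp (-r ^ 2 / 2) * a r) *
    sa h) * k4

/-- `IsGaussian.memLp_id`. -/
theorem integrable_norm_pow_std (k : ℕ) : Integrable (fun y : E => ‖y‖ ^ k) (stdGaussian E) := by
  have : CompleteSpace E := FiniteDimensional.complete ℝ E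
  exact (ProbabilityTheory.IsGaussian.memLp_id (stdGaussian E) k (by simp)).integrable_norm_pow'

/-- from `integrable_om` (`integrable_withDensity_iff`). -/
theorem integrable_norm_inv_std : Integrable (fun y : E => ‖y‖⁻¹) (stdGaussian E) := by
  rw [std_eq, integrable_withDensity_iff_integrable_smul'
    (continuous_gk _ _ _).measurable.ennreal_ofReal (Eventually.of_forall fun _ => by simp)]
  refine ((integrable_om (E := E)).const_mul (√(2 * π))⁻¹).congr (Eventually.of_forall fun y => ?_)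
  obtain ⟨m, hm⟩ : ∃ m, finrank ℝ E = m + 1 := ⟨finrank ℝ E - 1, by have := hn.out; omega⟩
  simp only [ENNReal.toReal_ofReal (gk_pos _ _ one_pos y).le]
  rw [om, gk_eq, gk_eq, hm, Nat.add_sub_cancel, pow_succ (√(2 * π))⁻¹, smul_eq_mul]
  ring

theorem integral_norm_inv_pos : 0 < ∫ y : E, ‖y‖⁻¹ ∂stdGaussian E := by
  have h := integral_mu_std (E := E) fun _ => 1
  rw [integral_const, smul_eq_mul, mul_one] at h
  simp only [one_div] at h
  have h2 := m0_pos (E := E)
  rw [h] at h2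
  exact (mul_pos_iff_of_pos_left (Real.sqrt_pos.2 (by positivity))).1 h2

theorem radial_moment_eq (k : ℕ) : ∫ r in Ioi (0 : ℝ), r ^ k * Real.exp (-r ^ 2 / 2) =
    (1 / 2) ^ (-((k : ℝ) + 1) / 2) * (1 / 2) * Real.Gamma (((k : ℝ) + 1) / 2) := by
  rw [← integral_rpow_mul_exp_neg_mul_rpow (p := 2) (q := k) (b := 1 / 2) (by norm_num)
    (by linarith [Nat.cast_nonneg (α := ℝ) k]) (by norm_num)]
  refine setIntegral_congr_fun measurableSet_Ioi fun r _ => ?_
  simp only [Real.rpow_natCast, Real.rpow_two]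
  congr 2; ring

/-- `M k = ∫_0^∞ r^k e^{-r²/2}`, `M (k+2) = (k+1) M k` (`integral_rpow_mul_exp_neg_mul_rpow` and
`Real.Gamma_add_one`, or integration by parts). -/
theorem radial_moment (k : ℕ) : ∫ r in Ioi (0 : ℝ), r ^ (k + 2) * Real.exp (-r ^ 2 / 2) =
    (k + 1) * ∫ r in Ioi (0 : ℝ), r ^ k * Real.exp (-r ^ 2 / 2) := by
  rw [radial_moment_eq, radial_moment_eq]
  have e1 : (((k + 2 : ℕ) : ℝ) + 1) / 2 = ((k : ℝ) + 1) / 2 + 1 := by push_cast; ring
  have e2 : -(((k + 2 : ℕ) : ℝ) + 1) / 2 = -((k : ℝ) + 1) / 2 - 1 := by push_cast; ring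
  rw [e1, e2, Real.Gamma_add_one (by positivity), Real.rpow_sub_one (by norm_num)]
  ring

theorem exists_radial_std : ∃ (C : ℝ) (m : ℕ), finrank ℝ E = m + 2 ∧ ∀ (a : ℝ → ℝ) (k : ℕ),
    (∀ r, 0 < r → r ^ (m + 1) * a r = r ^ k) →
      ∫ y : E, a ‖y‖ ∂stdGaussian E = C * ∫ r in Ioi (0 : ℝ), r ^ k * Real.exp (-r ^ 2 / 2) := by
  obtain ⟨m, hm⟩ : ∃ m, finrank ℝ E = m + 2 := ⟨finrank ℝ E - 2, by have := hn.out; omega⟩
  have := nontrivial_E (E := E)
  refine ⟨finrank ℝ E * (volume : Measure E).real (ball 0 1) * (√(2 * π))⁻¹ ^ finrank ℝ E, m, hm,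
    fun a k h => ?_⟩
  rw [integral_std]
  simp only [gk_eq, smul_eq_mul]
  rw [integral_fun_norm_addHaar (volume : Measure E)
    (fun r => (√(2 * π))⁻¹ ^ finrank ℝ E * Real.exp (-r ^ 2 / 2) * a r), nsmul_eq_mul, smul_eq_mul,
    mul_assoc, mul_assoc, ← integral_const_mul ((√(2 * π))⁻¹ ^ finrank ℝ E)]
  congr 2
  refine setIntegral_congr_fun measurableSet_Ioi fun r hr => ?_
  simp only [smul_eq_mul]
  rw [← h r hr, show finrank ℝ E - 1 = m + 1 by omega]; ring

/-- `integral_std`, `integral_fun_norm_addHaar`, `radial_moment`; total mass `1`. -/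
theorem integral_norm_sq_std : ∫ y : E, ‖y‖ ^ 2 ∂stdGaussian E = finrank ℝ E := by
  obtain ⟨C, m, hm, h⟩ := exists_radial_std (E := E)
  have h0 := h (fun _ => 1) (m + 1) fun r _ => by simp
  have h2 := h (fun r => r ^ 2) (m + 1 + 2) fun r _ => by ring
  rw [integral_const, probReal_univ, one_smul] at h0
  rw [h2, radial_moment, hm]
  push_cast
  linear_combination (-(m + 2 : ℝ)) * h0

theorem integral_norm_std :
    ∫ y : E, ‖y‖ ∂stdGaussian E = ((finrank ℝ E : ℝ) - 1) * ∫ y : E, ‖y‖⁻¹ ∂stdGaussian E := by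
  obtain ⟨C, m, hm, h⟩ := exists_radial_std (E := E)
  have h0 := h (fun r => r⁻¹) m fun r hr => by field_simp; ring
  have h2 := h (fun r => r) (m + 2) fun r _ => by ring
  rw [h2, h0, radial_moment, hm]
  push_cast
  ring

theorem integral_norm_cube_std :
    ∫ y : E, ‖y‖ ^ 3 ∂stdGaussian E = ((finrank ℝ E : ℝ) + 1) * ∫ y : E, ‖y‖ ∂stdGaussian E := by
  obtain ⟨C, m, hm, h⟩ := exists_radial_std (E := E)
  have h0 := h (fun r => r ^ 3) (m + 2 + 2) fun r _ => by ring
  have h2 := h (fun r => r) (m + 2) fun r _ => by ring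
  rw [h2, h0, radial_moment (m + 2), hm]
  push_cast
  ring

/-- the law of `⟪v, y⟫` is `gaussianReal 0 ‖v‖²` (`IsGaussian.map_eq_gaussianReal`,
`variance_dual_stdGaussian`); `∫ |x| dN(0,1) = 2/√(2π)`. -/
theorem integral_abs_inner_std (v : E) :
    ∫ y, |⟪v, y⟫| ∂stdGaussian E = √(2 / π) * ‖v‖ := by
  have h1 : ∫ x : ℝ, |x| ∂gaussianReal 0 1 = √(2 / π) := by
    rw [ProbabilityTheory.integral_gaussianReal_eq_integral_smul one_ne_zero]
    have e : ∀ x : ℝ, ProbabilityTheory.gaussianPDFReal 0 1 x • |x| =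
        (√(2 * π))⁻¹ * (fun r : ℝ => r ^ 1 * Real.exp (-r ^ 2 / 2)) |x| := fun x => by
      simp only [ProbabilityTheory.gaussianPDFReal, NNReal.coe_one, mul_one, sub_zero, smul_eq_mul,
        sq_abs]
      ring
    simp only [e]
    rw [integral_const_mul, integral_comp_abs (f := fun r : ℝ => r ^ 1 * Real.exp (-r ^ 2 / 2)),
      radial_moment_eq]
    have hp := Real.pi_pos
    norm_num [Real.rpow_neg_one]
    have h2 : √2 * √2 = 2 := Real.mul_self_sqrt (by norm_num)
    have h3 : 0 < √2 := by positivity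
    have h4 : 0 < √π := by positivity
    field_simp
    nlinarith
  by_cases hv : v = 0
  · simp [hv]
  have hp := norm_pos_iff.2 hv
  set e : E := ‖v‖⁻¹ • v with he
  have he1 : ‖e‖ = 1 := by rw [he, norm_smul, norm_inv, norm_norm, inv_mul_cancel₀ hp.ne']
  have h2 := ProbabilityTheory.IsGaussian.map_eq_gaussianReal (μ := stdGaussian E) (innerSL ℝ e)
  rw [ProbabilityTheory.integral_strongDual_stdGaussian,
    ProbabilityTheory.variance_dual_stdGaussian, innerSL_apply_norm, he1] at h2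
  simp only [one_pow, Real.toNNReal_one] at h2
  rw [← h2, integral_map (innerSL ℝ e).continuous.aemeasurable
    continuous_abs.aestronglyMeasurable] at h1
  rw [← h1, ← integral_mul_const]
  congr 1; funext y
  simp only [he, innerSL_apply_apply, real_inner_smul_left, abs_mul, abs_inv, abs_norm]
  field_simp

/-- `std_indep` with `h y = |⟪v,y⟫|/‖y‖`, `a r = r³` and `a r = r`; `integral_norm_cube_std`. -/
theorem integral_sq_abs_inner_std (v : E) :
    ∫ y, ‖y‖ ^ 2 * |⟪v, y⟫| ∂stdGaussian E = ((finrank ℝ E : ℝ) + 1) * (√(2 / π) * ‖v‖) := by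
  have h0 : Hom0 fun y : E => |⟪v, y⟫| / ‖y‖ := fun t ht y => by
    simp only [real_inner_smul_right, abs_mul, norm_smul, Real.norm_eq_abs]
    exact mul_div_mul_left _ _ (abs_pos.2 ht.ne').ne'
  have h1 := std_indep h0 fun r => r ^ 3
  have h2 := std_indep h0 fun r => r
  have e1 : ∀ y : E, ‖y‖ ^ 3 * (|⟪v, y⟫| / ‖y‖) = ‖y‖ ^ 2 * |⟪v, y⟫| := fun y => by
    by_cases hy : y = 0
    · simp [hy]
    · have := norm_ne_zero_iff.2 hy; field_simp
  have e2 : ∀ y : E, ‖y‖ * (|⟪v, y⟫| / ‖y‖) = |⟪v, y⟫| := fun y => by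
    by_cases hy : y = 0
    · simp [hy]
    · have := norm_ne_zero_iff.2 hy; field_simp
  simp only [e1, e2] at h1 h2
  rw [h1, integral_norm_cube_std, ← integral_abs_inner_std, h2]; ring

end Crest.Agent.R246.A
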