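import Crest.Agent.R246.A.Polar

/-! Row 246, block A: integration by parts. -/

set_option autoImplicit false
set_option linter.unusedSectionVars false

open MeasureTheory Metric Filter Topology Set Module
open scoped RealInnerProductSpace ENNReal NNReal ContDiff Real

noncomputable section

namespace Crest.Agent.R246.A

variable {E : Type} [NormedAddCommGroup E] [InnerProductSpace ℝ E] [FiniteDimensional ℝ E]
  [MeasurableSpace E] [BorelSpace E] [hn : Fact (3 ≤ finrank ℝ E)]

theorem ibpa_glob {Z : E → E} (hZ : ContDiff ℝ 1 Z) (hc : HasCompactSupport Z) {Φ : E → ℝ}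
    (hΦ : Tst Φ) : ∫ y, ⟪Z y, gradient Φ y⟫ = -∫ y, trc (fderiv ℝ Z y) * Φ y := by
  let b := stdOrthonormalBasis ℝ E
  obtain ⟨L, hL⟩ := hΦ.lip
  have hZc := hZ.continuous
  have hF := hZ.continuous_fderiv one_ne_zero
  have key : ∀ i, ∫ y, ⟪b i, fderiv ℝ Z y (b i)⟫ * Φ y = -∫ y, ⟪⟪Z y, b i⟫ • b i, gradient Φ y⟫ := by
    intro i
    obtain ⟨M, hM⟩ := ((innerSL ℝ (b i)).contDiff.comp hZ).lipschitzWith_of_hasCompactSupport
      (hc.comp_left (map_zero _)) one_ne_zero
    have := hM.integral_lineDeriv_mul_eq (μ := volume) hL hΦ.cpt (b i)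
    rw [← integral_neg]
    refine (integral_congr_ae (Eventually.of_forall fun y => ?_)).trans
      (this.trans (integral_congr_ae (hΦ.ae_diff.mono fun y hy => ?_)))
    · have h1 := (innerSL ℝ (b i)).hasFDerivAt.comp y (hZ.differentiable one_ne_zero y).hasFDerivAt
      simp only [h1.differentiableAt.lineDeriv_eq_fderiv, h1.fderiv]
      rfl
    · simp only [hy.lineDeriv_eq_fderiv, ← inner_gradient_eq, inner_neg_right, real_inner_smul_left,
        Function.comp, innerSL_apply_apply, real_inner_comm (b i)]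
      ring
  have e1 : ∀ y, trc (fderiv ℝ Z y) * Φ y = ∑ i, ⟪b i, fderiv ℝ Z y (b i)⟫ * Φ y := fun y => by
    rw [trc, LinearMap.trace_eq_sum_inner _ b, Finset.sum_mul]
    rfl
  have e2 : ∀ y, ⟪Z y, gradient Φ y⟫ = ∑ i, ⟪⟪Z y, b i⟫ • b i, gradient Φ y⟫ := fun y => by
    simp only [real_inner_smul_left, b.sum_inner_mul_inner]
  simp only [e1]
  rw [integral_finsetSum _ fun i _ => hΦ.integrable_mul (Continuous.continuousOn (by fun_prop)),
    integral_congr_ae (Eventually.of_forall e2), integral_finsetSum _ fun i _ =>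
      hΦ.integrable_inner (Continuous.continuousOn (by fun_prop))]
  simp only [key, Finset.sum_neg_distrib, neg_neg]

/-- Choose a smooth cutoff `ζ` with compact support in `{0}ᶜ`, `= 1` on a neighbourhood of
`tsupport Φ` (`exists_contDiff_tsupport_subset` / `exists_smooth_support_eq`-type lemmas, or
`exists_contMDiff_zero_iff_one_iff_of_isClosed`, or `ζ y = b ‖y‖²` with a `ContDiffBump`); for an
orthonormal basis `e i` the functions `f i = ζ ⟪Y, e i⟫` are C¹ with compact support, hence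
Lipschitz (`ContDiff.lipschitzWith_of_hasCompactSupport`);
`LipschitzWith.integral_lineDeriv_mul_eq`, `DifferentiableAt.lineDeriv_eq_fderiv` a.e.
(`Tst.ae_diff`), `LinearMap.trace_eq_sum_inner`, `OrthonormalBasis.sum_inner_mul_inner`. -/
theorem ibp {Y : E → E} (hY : ContDiffOn ℝ 1 Y {0}ᶜ) {Φ : E → ℝ} (hΦ : Tst Φ) :
    ∫ y, ⟪Y y, gradient Φ y⟫ = -∫ y, trc (fderiv ℝ Y y) * Φ y := by
  obtain ⟨T, hT, h1, h2⟩ := exists_compact_between hΦ.cpt isOpen_compl_singleton hΦ.supp
  obtain ⟨ζ, h3, h4, -⟩ := exists_contMDiffMap_one_nhds_of_subset_interior (n := 1)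
    (modelWithCornersSelf ℝ E) (isClosed_tsupport Φ) h1
  have hζ : ContDiff ℝ 1 ζ := ζ.contMDiff.contDiff
  have hs : ∀ x ∉ T, ζ x • Y x = 0 := fun x hx => by rw [h4 x hx, zero_smul]
  have hZ : ContDiff ℝ 1 fun x => ζ x • Y x := contDiff_iff_contDiffAt.2 fun x => by
    by_cases hx : x ∈ T
    · exact hζ.contDiffAt.smul (hY.contDiffAt (isOpen_compl_singleton.mem_nhds (h2 hx)))
    · exact contDiffAt_const.congr_of_eventuallyEq (Filter.eventually_of_mem
        (hT.isClosed.isOpen_compl.mem_nhds hx) hs)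
  have key := ibpa_glob hZ (HasCompactSupport.intro hT hs) hΦ
  have h5 : ∀ y ∈ tsupport Φ, (fun x => ζ x • Y x) =ᶠ[𝓝 y] Y := fun y hy =>
    (h3.filter_mono (nhds_le_nhdsSet hy)).mono fun x hx => by simp only [hx, one_smul]
  obtain ⟨L, hL⟩ := hΦ.exists_grad
  refine (integral_congr_ae (Eventually.of_forall fun y => ?_)).trans (key.trans
    (congrArg _ (integral_congr_ae (Eventually.of_forall fun y => ?_))))
  · by_cases hy : y ∈ tsupport Φ
    · exact congrArg (⟪·, gradient Φ y⟫) (h5 y hy).self_of_nhds.symm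
    · have := hL y
      rw [indicator_of_notMem hy, norm_le_zero_iff] at this
      simp only [this, inner_zero_right]
  · by_cases hy : y ∈ tsupport Φ
    · simp only [(h5 y hy).fderiv_eq]
    · simp only [image_eq_zero_of_notMem_tsupport hy, mul_zero]

/-- a radial cutoff: `a` a `ContDiffBump (1:ℝ)` with radii `1/4 < 1/2`, `a' = deriv a`.  The last
identity is `ibp` for `Y y = (‖y‖²)⁻¹ • y`, `trc (fderiv Y y) = (n-2)/‖y‖²`. -/
theorem exists_chi : ∃ a a' : ℝ → ℝ, Continuous a ∧ Continuous a' ∧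
    (∀ r, r ∉ Icc (1 / 2 : ℝ) 2 → a r = 0 ∧ a' r = 0) ∧ Tst (fun y : E => a ‖y‖) ∧
    (∀ y : E, y ≠ 0 → HasGradientAt (fun y : E => a ‖y‖) ((a' ‖y‖ / ‖y‖) • y) y) ∧
    (0 < ∫ y : E, a ‖y‖ / ‖y‖ ^ 2) ∧
    ∫ y : E, a' ‖y‖ / ‖y‖ = -(2 * kap E) * ∫ y : E, a ‖y‖ / ‖y‖ ^ 2 := by
  let a : ContDiffBump (1 : ℝ) := ⟨1 / 4, 1 / 2, by norm_num, by norm_num⟩
  have ha : ContDiff ℝ 1 a := a.contDiff
  have h0 : ∀ r, r ∉ Icc (1 / 2 : ℝ) 2 → a r = 0 ∧ deriv a r = 0 := fun r hr => by
    have : r ∉ tsupport a := fun h => hr (by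
      rw [a.tsupport_eq, Real.closedBall_eq_Icc] at h
      have e : a.rOut = 1 / 2 := rfl
      rw [e] at h
      exact ⟨by linarith [h.1], by linarith [h.2]⟩)
    exact ⟨image_eq_zero_of_notMem_tsupport this, deriv_of_notMem_tsupport this⟩
  have hT : Tst fun y : E => a ‖y‖ := by
    obtain ⟨L, hL⟩ := ha.lipschitzWith_of_hasCompactSupport a.hasCompactSupport one_ne_zero
    refine ⟨⟨_, hL.comp lipschitzWith_one_norm⟩, HasCompactSupport.intro
      (isCompact_closedBall 0 2) fun y hy => (h0 _ fun h => hy ?_).1, ?_⟩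
    · exact mem_closedBall_zero_iff.2 h.2
    · refine (closure_minimal (t := {y : E | 1 / 2 ≤ ‖y‖}) (fun y hy => ?_)
        (isClosed_le continuous_const continuous_norm)).trans ?_
      · by_contra h
        exact hy (h0 _ fun h' => h h'.1).1
      · rintro y hy rfl
        norm_num at hy
  have hg : ∀ y : E, y ≠ 0 → HasGradientAt (fun y : E => a ‖y‖) ((deriv a ‖y‖ / ‖y‖) • y) y := by
    intro y hy
    have h0 : ‖y‖ ≠ 0 := norm_ne_zero_iff.2 hy
    have h1 := (hasStrictFDerivAt_norm_sq y).hasFDerivAt.sqrt (pow_ne_zero 2 h0)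
    simp only [Real.sqrt_sq (norm_nonneg _)] at h1
    rw [hasGradientAt_iff_hasFDerivAt]
    refine ((ha.differentiable one_ne_zero _).hasDerivAt.comp_hasFDerivAt y h1).congr_fderiv ?_
    ext v
    simp
    field_simp
  have hi : ContDiffOn ℝ 1 (fun y : E => (‖y‖ ^ 2)⁻¹) {0}ᶜ :=
    (contDiff_norm_sq ℝ).contDiffOn.inv fun y hy => pow_ne_zero 2 (norm_ne_zero_iff.2 hy)
  refine ⟨a, deriv a, ha.continuous, ha.continuous_deriv le_rfl, h0, hT, hg, ?_, ?_⟩
  · have := nontrivial_E (E := E)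
    obtain ⟨x, hx⟩ := exists_norm_eq E zero_le_one
    have hT' := hT.mul (locallyLipschitzOn_of_contDiffOn hi)
    simp only [div_eq_mul_inv]
    refine hT'.continuous.integral_pos_of_hasCompactSupport_nonneg_nonzero hT'.cpt
      (fun y => mul_nonneg a.nonneg (by positivity)) (x := x) ?_
    rw [hx, a.one_of_mem_closedBall (mem_closedBall_self a.rIn_pos.le)]
    norm_num
  · have := ibp (Y := fun x : E => (‖x‖ ^ 2)⁻¹ • id x) (hi.smul contDiffOn_id) hT
    rw [neg_mul, ← integral_const_mul]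
    refine (integral_congr_ae (Eventually.of_forall fun y => ?_)).trans (this.trans
      (congrArg _ (integral_congr_ae (Eventually.of_forall fun y => ?_))))
    · rcases eq_or_ne y 0 with rfl | hy
      · simp
      have h0 : ‖y‖ ≠ 0 := norm_ne_zero_iff.2 hy
      simp only [(hg y hy).gradient, real_inner_smul_left, real_inner_smul_right, id,
        real_inner_self_eq_norm_sq]
      field_simp
    · rcases eq_or_ne y 0 with rfl | hy
      · simp [(h0 0 (by norm_num)).1]
      have h0 : ‖y‖ ≠ 0 := norm_ne_zero_iff.2 hy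
      have h1 := (((hasDerivAt_inv (pow_ne_zero 2 h0)).comp_hasFDerivAt y
        (hasStrictFDerivAt_norm_sq y).hasFDerivAt).smul (hasFDerivAt_id y)).fderiv
      have h2 : fderiv ℝ (fun x : E => (‖x‖ ^ 2)⁻¹ • id x) y = _ := h1
      have h3 : ∀ (φ : E →L[ℝ] ℝ), trc (φ.smulRight y) = φ y := fun φ =>
        LinearMap.trace_smulRight (φ : E →ₗ[ℝ] ℝ) y
      have h4 : ∀ (t : ℝ) (B : E →L[ℝ] E), trc (t • ContinuousLinearMap.id ℝ E + B) =
          t * finrank ℝ E + trc B := fun t B => by simp [trc]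
      simp only [h2]
      simp only [h4, id, h3, kap]
      simp
      field_simp
      ring

end Crest.Agent.R246.A
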