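import Crest.Agent.R246.A.Ext

/-! Row 246, block A: Lipschitz functions on the sphere and test functions. -/

set_option autoImplicit false
set_option linter.unusedSectionVars false

open MeasureTheory Metric Filter Topology Set Module
open scoped RealInnerProductSpace ENNReal NNReal ContDiff Real

noncomputable section

namespace Crest.Agent.R246.A

variable {E : Type} [NormedAddCommGroup E] [InnerProductSpace ℝ E] [FiniteDimensional ℝ E]
  [MeasurableSpace E] [BorelSpace E] [hn : Fact (3 ≤ finrank ℝ E)]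

theorem Lip.add {u v : X E} (hu : Lip u) (hv : Lip v) : Lip (u + v) := by
  obtain ⟨L, hL⟩ := hu
  obtain ⟨M, hM⟩ := hv
  exact ⟨L + M, hL.add hM⟩

theorem Lip.sub {u v : X E} (hu : Lip u) (hv : Lip v) : Lip (u - v) := by
  obtain ⟨L, hL⟩ := hu
  obtain ⟨M, hM⟩ := hv
  exact ⟨L + M, hL.sub hM⟩

theorem Lip.smul {u : X E} (hu : Lip u) (c : ℝ) : Lip (c • u) := by
  obtain ⟨L, hL⟩ := hu
  exact ⟨_, (lipschitzWith_smul c).comp hL⟩

theorem Lip.gX {u : X E} (hu : Lip u) : Lip (gX u) := by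
  obtain ⟨L, hL⟩ := hu
  exact ⟨_, (LipschitzWith.of_dist_le_mul (K := 3) (f := gg) abs_gg_sub_le).comp hL⟩

theorem lipa_nrm {y y' : E} (hy : y ≠ 0) (hy' : y' ≠ 0) :
    ‖‖y'‖⁻¹ • y' - ‖y‖⁻¹ • y‖ ≤ 2 * ‖y' - y‖ / ‖y‖ := by
  have h1 := norm_pos_iff.2 hy
  have h2 := norm_pos_iff.2 hy'
  have e : ‖y'‖⁻¹ • y' - ‖y‖⁻¹ • y = ‖y‖⁻¹ • (y' - y) + ((‖y‖ - ‖y'‖) / (‖y‖ * ‖y'‖)) • y' := by
    rw [smul_sub, show (‖y‖ - ‖y'‖) / (‖y‖ * ‖y'‖) = ‖y'‖⁻¹ - ‖y‖⁻¹ by field_simp, sub_smul]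
    abel
  rw [e]
  refine (norm_add_le _ _).trans ?_
  have h3 := abs_norm_sub_norm_le y y'
  rw [norm_sub_rev] at h3
  rw [norm_smul, norm_smul, norm_inv, norm_norm, norm_div, Real.norm_eq_abs,
    Real.norm_of_nonneg (mul_pos h1 h2).le, le_div_iff₀ h1]
  field_simp
  linarith

/-- `‖ŷ - ŷ'‖ ≤ 2‖y - y'‖/‖y‖`; if `y' = 0` use `|ext u y| ≤ ‖u‖`. -/
theorem Lip.exists_bound {u : X E} (hu : Lip u) : ∃ L : ℝ, 0 ≤ L ∧ ∀ y y' : E, y ≠ 0 →
    |ext u y' - ext u y| ≤ L * ‖y' - y‖ / ‖y‖ := by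
  obtain ⟨L, hL⟩ := hu
  refine ⟨2 * L + ‖u‖, by positivity, fun y y' hy => ?_⟩
  have h1 := norm_pos_iff.2 hy
  by_cases hy' : y' = 0
  · rw [hy', ext_zero, zero_sub, zero_sub, abs_neg, norm_neg, mul_div_cancel_right₀ _ h1.ne']
    exact (abs_ext_le u y).trans (le_add_of_nonneg_left (by positivity))
  · rw [ext_of_ne u hy, ext_of_ne u hy']
    refine (hL.dist_le_mul _ _).trans ?_
    rw [Subtype.dist_eq, dist_eq_norm]
    refine (mul_le_mul_of_nonneg_left (lipa_nrm hy hy') L.coe_nonneg).trans ?_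
    rw [← mul_div_assoc, ← mul_assoc, mul_comm (L : ℝ)]
    gcongr
    exact le_add_of_nonneg_right (norm_nonneg _)

/-- `norm_fderiv_le_of_lip'`; trivial at `y = 0`. -/
theorem Lip.exists_grad {u : X E} (hu : Lip u) :
    ∃ L : ℝ, ∀ y : E, ‖y‖ * ‖gradient (ext u) y‖ ≤ L := by
  obtain ⟨L, h0, hL⟩ := hu.exists_bound
  refine ⟨L, fun y => ?_⟩
  by_cases hy : y = 0
  · simpa [hy] using h0
  rw [norm_gradient_eq, ← le_div_iff₀' (norm_pos_iff.2 hy)]
  exact norm_fderiv_le_of_lip' ℝ (by positivity) (Eventually.of_forall fun y' =>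
    (hL y y' hy).trans_eq (mul_div_right_comm _ _ _))

theorem lipa_on {u : X E} (hu : Lip u) {δ : ℝ} (hδ : 0 < δ) :
    ∃ K, LipschitzOnWith K (ext u) {y | δ < ‖y‖} := by
  obtain ⟨L, h0, hL⟩ := hu.exists_bound
  refine ⟨⟨L / δ, by positivity⟩, LipschitzOnWith.of_dist_le_mul fun y' _ y hy => ?_⟩
  refine (hL y y' (norm_pos_iff.1 (hδ.trans hy))).trans ?_
  rw [dist_eq_norm, mul_div_right_comm]
  change _ ≤ L / δ * _
  gcongr
  exact le_of_lt hy

theorem Lip.locallyLipschitzOn {u : X E} (hu : Lip u) : LocallyLipschitzOn {0}ᶜ (ext u) := by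
  intro y hy
  have h := norm_pos_iff.2 hy
  obtain ⟨K, hK⟩ := lipa_on hu (half_pos h)
  exact ⟨K, _, mem_nhdsWithin_of_mem_nhds
    ((isOpen_lt continuous_const continuous_norm).mem_nhds (half_lt_self h)), hK⟩

/-- Rademacher (`ae_differentiableWithinAt_of_mem`) on the open sets `{1/(k+1) < ‖y‖}`, on which
`ext u` is Lipschitz; `{0}` is null (`E` is nontrivial). -/
theorem Lip.ae_diff {u : X E} (hu : Lip u) : ∀ᵐ y : E, DifferentiableAt ℝ (ext u) y := by
  have : Nontrivial E := Module.nontrivial_of_finrank_pos (R := ℝ) (by have := hn.out; omega)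
  have h : ∀ k : ℕ, ∀ᵐ y : E, 1 / ((k : ℝ) + 1) < ‖y‖ → DifferentiableAt ℝ (ext u) y := fun k => by
    obtain ⟨K, hK⟩ := lipa_on hu (Nat.one_div_pos_of_nat (n := k))
    exact hK.ae_differentiableWithinAt_of_mem.mono fun y hy hk =>
      (hy hk).differentiableAt ((isOpen_lt continuous_const continuous_norm).mem_nhds hk)
  filter_upwards [ae_all_iff.2 h, Measure.ae_ne volume (0 : E)] with y hy h0
  obtain ⟨k, hk⟩ := exists_nat_one_div_lt (norm_pos_iff.2 h0)
  exact hy k hk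

/-- if `dist x x' ≤ 1` the segment stays in the convex set `ball x 1 ∩ ...` where the norm is
`≥ 1/2` (use the segment itself and `Convex.norm_image_sub_le_of_norm_fderiv_le`; for
`p = (1-t)x + t x'`, `‖p‖ ≥ 1 - min t (1-t) ≥ 1/2`); otherwise use `|u x - u x'| ≤ 2‖u‖`. -/
theorem abs_sub_le_of_grad {u : X E} (hd : DifferentiableOn ℝ (ext u) {0}ᶜ) {c : ℝ}
    (hc : ∀ y : E, ‖y‖ * ‖gradient (ext u) y‖ ≤ c) (x x' : sphere (0 : E) 1) :
    |u x - u x'| ≤ (2 * c + 2 * ‖u‖) * dist x x' := by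
  have h0 : 0 ≤ c := by simpa using hc 0
  rcases le_total (dist x x') 1 with h | h
  · have hs : ∀ p ∈ segment ℝ (x' : E) x, 1 / 2 ≤ ‖p‖ := fun p hp => by
      have h1 := dist_add_dist_of_mem_segment hp
      have h2 := norm_le_norm_add_norm_sub' (x : E) p
      have h3 := norm_le_norm_add_norm_sub' (x' : E) p
      rw [norm_eq_of_mem_sphere, ← dist_eq_norm] at h2 h3
      rw [dist_comm p, dist_comm (x' : E) x, ← Subtype.dist_eq] at h1
      linarith
    have h1 := (convex_segment (x' : E) x).norm_image_sub_le_of_norm_fderiv_le (𝕜 := ℝ) (C := 2 * c)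
      (fun p hp => hd.differentiableAt (isOpen_compl_singleton.mem_nhds
        (norm_pos_iff.1 (one_half_pos.trans_le (hs p hp))))) (fun p hp => by
        have := hc p
        rw [norm_gradient_eq] at this
        nlinarith [hs p hp, norm_nonneg (fderiv ℝ (ext u) p)])
      (left_mem_segment ℝ _ _) (right_mem_segment ℝ _ _)
    rw [ext_coe, ext_coe, ← dist_eq_norm (x : E), ← Subtype.dist_eq] at h1
    refine h1.trans ?_
    gcongr
    exact le_add_of_nonneg_right (by positivity)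
  · have h1 := (abs_sub _ _).trans (add_le_add (u.norm_coe_le_norm x) (u.norm_coe_le_norm x'))
    nlinarith [norm_nonneg u]

theorem locallyLipschitzOn_of_contDiffOn {h : E → ℝ} (hh : ContDiffOn ℝ 1 h {0}ᶜ) :
    LocallyLipschitzOn {0}ᶜ h := by
  intro y hy
  obtain ⟨K, t, ht, hK⟩ := (hh.contDiffAt (isOpen_compl_singleton.mem_nhds hy)).exists_lipschitzOnWith
  exact ⟨K, t, mem_nhdsWithin_of_mem_nhds ht, hK⟩

/-- the product is locally Lipschitz on `E` (it vanishes near `0`) with compact support; a locally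
Lipschitz function with compact support is Lipschitz
(`LocallyLipschitzOn.exists_lipschitzOnWith_of_compact` on a big ball, then extend by zero). -/
theorem Tst.mul {Φ h : E → ℝ} (hΦ : Tst Φ) (hh : LocallyLipschitzOn {0}ᶜ h) :
    Tst fun y => Φ y * h y := by
  refine ⟨?_, hΦ.cpt.mul_right, (tsupport_mul_subset_left).trans hΦ.supp⟩
  obtain ⟨L, hL⟩ := hΦ.lip
  obtain ⟨A, hA⟩ := (hh.mono hΦ.supp).exists_lipschitzOnWith_of_compact hΦ.cpt.isCompact
  obtain ⟨g, hg, hgh⟩ := hA.extend_real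
  obtain ⟨B, hB⟩ := hΦ.cpt.isCompact.exists_bound_of_continuousOn hA.continuousOn
  obtain ⟨C, hC⟩ := hL.continuous.bounded_above_of_compact_support hΦ.cpt
  have hg' : LipschitzWith A fun y => max (min (g y) |B|) (-|B|) := (hg.min_const _).max_const _
  have e : (fun y => Φ y * h y) = fun y => Φ y * max (min (g y) |B|) (-|B|) := funext fun y => by
    by_cases hy : y ∈ tsupport Φ
    · have := abs_le.1 ((hB y hy).trans (le_abs_self B))
      rw [← hgh hy, min_eq_left this.2, max_eq_left this.1]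
    · rw [image_eq_zero_of_notMem_tsupport hy, zero_mul, zero_mul]
  rw [e]
  refine ⟨⟨|C| * A + |B| * L, by positivity⟩, LipschitzWith.of_dist_le_mul fun x y => ?_⟩
  have h1 := hg'.dist_le_mul x y
  have h2 := hL.dist_le_mul x y
  have h3 : |max (min (g y) |B|) (-|B|)| ≤ |B| :=
    abs_le.2 ⟨le_max_right _ _, max_le (min_le_right _ _) (neg_le_self (abs_nonneg _))⟩
  set a := max (min (g x) |B|) (-|B|)
  set b := max (min (g y) |B|) (-|B|)
  rw [Real.dist_eq] at h1 h2 ⊢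
  rw [show Φ x * a - Φ y * b = Φ x * (a - b) + b * (Φ x - Φ y) by ring]
  refine (abs_add_le _ _).trans ?_
  change _ ≤ (|C| * A + |B| * L) * _
  rw [abs_mul, abs_mul, add_mul, mul_assoc, mul_assoc]
  exact add_le_add (mul_le_mul ((hC x).trans (le_abs_self C)) h1 (abs_nonneg _) (abs_nonneg _))
    (mul_le_mul h3 h2 (abs_nonneg _) (abs_nonneg _))

theorem Tst.ae_diff {Φ : E → ℝ} (hΦ : Tst Φ) : ∀ᵐ y : E, DifferentiableAt ℝ Φ y := by
  obtain ⟨L, hL⟩ := hΦ.lip
  exact hL.ae_differentiableAt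

theorem Tst.continuous {Φ : E → ℝ} (hΦ : Tst Φ) : Continuous Φ := by
  obtain ⟨L, hL⟩ := hΦ.lip
  exact hL.continuous

/-- the gradient of a test function is bounded and vanishes off a compact subset of `E ∖ 0`
(`norm_fderiv_le_of_lipschitz`, `support_fderiv_subset`). -/
theorem Tst.exists_grad {Φ : E → ℝ} (hΦ : Tst Φ) : ∃ L : ℝ, ∀ y : E,
    ‖gradient Φ y‖ ≤ (tsupport Φ).indicator (fun _ => L) y := by
  obtain ⟨L, hL⟩ := hΦ.lip
  refine ⟨L, fun y => ?_⟩
  rw [norm_gradient_eq]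
  by_cases hy : y ∈ tsupport Φ
  · rw [indicator_of_mem hy]
    exact norm_fderiv_le_of_lipschitz ℝ hL
  · rw [indicator_of_notMem hy, norm_le_zero_iff]
    exact by_contra fun h => hy (support_fderiv_subset ℝ h)

/-- a function continuous on `E ∖ 0` times the gradient of a test function is integrable. -/
theorem Tst.integrable_inner {Φ : E → ℝ} (hΦ : Tst Φ) {Y : E → E} (hY : ContinuousOn Y {0}ᶜ) :
    Integrable fun y => ⟪Y y, gradient Φ y⟫ := by
  obtain ⟨L, hL⟩ := hΦ.exists_grad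
  have h1 : IntegrableOn (fun y => ‖Y y‖ * L) (tsupport Φ) :=
    ((hY.mono hΦ.supp).norm.mul continuousOn_const).integrableOn_compact hΦ.cpt.isCompact
  refine ((integrable_indicator_iff (isClosed_tsupport Φ).measurableSet).2 h1).mono'
    ((measurable_of_continuousOn_compl_singleton 0 hY).inner
      (measurable_gradient Φ)).aestronglyMeasurable (Eventually.of_forall fun y => ?_)
  refine (norm_inner_le_norm (𝕜 := ℝ) _ _).trans
    ((mul_le_mul_of_nonneg_left (hL y) (norm_nonneg _)).trans_eq ?_)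
  by_cases hy : y ∈ tsupport Φ <;> simp [hy]

theorem Tst.integrable_mul {Φ : E → ℝ} (hΦ : Tst Φ) {h : E → ℝ} (hh : ContinuousOn h {0}ᶜ) :
    Integrable fun y => h y * Φ y := by
  refine (integrableOn_iff_integrable_of_support_subset (s := tsupport Φ) fun y hy =>
    subset_tsupport Φ (right_ne_zero_of_mul hy)).1 ?_
  exact ((hh.mono hΦ.supp).mul hΦ.continuous.continuousOn).integrableOn_compact hΦ.cpt.isCompact

end Crest.Agent.R246.A
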