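import Crest.Agent.R246.A.Defs
import Crest.Agent.Lib.Brouwer.Basic

/-! Row 246, block A: essential boundary maps. -/

set_option autoImplicit false
set_option linter.unusedSectionVars false

open MeasureTheory Metric Filter Topology Set Module
open scoped RealInnerProductSpace ENNReal NNReal ContDiff Real

noncomputable section

namespace Crest.Agent.R246.A

variable {E : Type} [NormedAddCommGroup E] [InnerProductSpace ℝ E] [FiniteDimensional ℝ E]
  [MeasurableSpace E] [BorelSpace E] [hn : Fact (3 ≤ finrank ℝ E)]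

/-- every continuous extension of `f|sphere` to the ball has a zero -/
def Ess {V : Type} [NormedAddCommGroup V] (f : V → V) : Prop :=
  ∀ F : V → V, ContinuousOn F (closedBall 0 1) → EqOn F f (sphere 0 1) →
    ∃ z ∈ closedBall (0 : V) 1, F z = 0

/-- otherwise `z ↦ ‖F z‖⁻¹ • F z` has a fixed point `z` (`exists_fixedPoint_closedBall`), `‖z‖ = 1`,
`F z = ‖F z‖ • z`, `pr (F z) z = ‖F z‖ (z.1² + ‖z.2‖²) ≥ 0`. -/
theorem ess_of_pr {f : ℝ × E → ℝ × E} (h : ∀ z, ‖z‖ = 1 → pr (f z) z < 0) : Ess f := by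
  intro F hF hEq
  by_contra hne
  push Not at hne
  have hn1 : ∀ z ∈ closedBall (0 : ℝ × E) 1, ‖‖F z‖⁻¹ • F z‖ = 1 := fun z hz => by
    rw [norm_smul, norm_inv, norm_norm, inv_mul_cancel₀ (norm_ne_zero_iff.2 (hne z hz))]
  obtain ⟨z, hz, hfix⟩ := Crest.Agent.Lib.Brouwer.exists_fixedPoint_closedBall
    (fun z => ‖F z‖⁻¹ • F z) ((hF.norm.inv₀ fun z hz => norm_ne_zero_iff.2 (hne z hz)).smul hF)
    fun z hz => mem_closedBall_zero_iff.2 (hn1 z hz).le
  have h1 : ‖z‖ = 1 := hfix ▸ hn1 z hz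
  have h2 := h z h1
  rw [← hEq (mem_sphere_zero_iff_norm.2 h1), ← smul_inv_smul₀ (norm_ne_zero_iff.2 (hne z hz)) (F z),
    hfix] at h2
  simp only [pr, Prod.smul_fst, Prod.smul_snd, smul_eq_mul, real_inner_smul_left,
    real_inner_self_eq_norm_sq] at h2
  nlinarith [mul_nonneg (norm_nonneg (F z)) (add_nonneg (mul_self_nonneg z.1) (sq_nonneg ‖z.2‖))]

/-- collar: given an extension `F` of `H (1, ·)`, put `ρ z = (max (1/2) ‖z‖)⁻¹ • z` and
`F' z = F (ρ z) + H (min 1 (2 - 2‖z‖), ρ z) - H (1, ρ z)`; it is continuous, equals `H (0, ·)` on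
the sphere, equals `F (2z)` for `‖z‖ ≤ 1/2` and `H (2 - 2‖z‖, z/‖z‖) ≠ 0` for `‖z‖ ≥ 1/2`. -/
theorem Ess.homotopy {V : Type} [NormedAddCommGroup V] [NormedSpace ℝ V] {H : ℝ × V → V}
    (hH : Continuous H) (h0 : ∀ t ∈ Icc (0 : ℝ) 1, ∀ z, ‖z‖ = 1 → H (t, z) ≠ 0)
    (hE : Ess fun z => H (0, z)) : Ess fun z => H (1, z) := by
  intro F hF hEq
  have hm : ∀ z : V, 0 < max (1 / 2 : ℝ) ‖z‖ := fun z => lt_max_of_lt_left (by norm_num)
  obtain ⟨ρ, hρ⟩ : ∃ ρ : V → V, ρ = fun z => (max (1 / 2 : ℝ) ‖z‖)⁻¹ • z := ⟨_, rfl⟩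
  have hc : Continuous ρ := hρ ▸
    ((continuous_const.max continuous_norm).inv₀ fun z => (hm z).ne').smul continuous_id
  have h1 : ∀ z, ‖ρ z‖ = ‖z‖ / max (1 / 2 : ℝ) ‖z‖ := fun z => by
    rw [hρ, norm_smul, norm_inv, Real.norm_of_nonneg (hm z).le, inv_mul_eq_div]
  have h2 : ∀ z, ρ z ∈ closedBall (0 : V) 1 := fun z => by
    rw [mem_closedBall_zero_iff, h1, div_le_one (hm z)]
    exact le_max_right _ _
  obtain ⟨z, hz, h3⟩ := hE (fun z => F (ρ z) + H (min 1 (2 - 2 * ‖z‖), ρ z) - H (1, ρ z))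
    (Continuous.continuousOn (by
      exact ((hF.comp_continuous hc h2).add (hH.comp (by fun_prop))).sub (hH.comp (by fun_prop)))) fun z hz => by
      have hz1 := mem_sphere_zero_iff_norm.1 hz
      have : ρ z = z := by
        rw [hρ]
        simp only [hz1]
        rw [max_eq_right (by norm_num), inv_one, one_smul]
      simp only [this, hz1, hEq hz]
      norm_num
  rcases le_total ‖z‖ (1 / 2) with h4 | h4
  · rw [min_eq_left (by linarith), add_sub_cancel_right] at h3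
    exact ⟨_, h2 z, h3⟩
  · have h5 : ‖ρ z‖ = 1 := by rw [h1, max_eq_right h4, div_self (by linarith)]
    rw [hEq (mem_sphere_zero_iff_norm.2 h5), add_sub_cancel_left] at h3
    exact absurd h3 (h0 _ ⟨le_min zero_le_one (by linarith [mem_closedBall_zero_iff.1 hz]),
      min_le_left _ _⟩ _ h5)

end Crest.Agent.R246.A
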