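import Crest.Agent.R246.A.Desc
import Crest.Agent.R246.A.Top

/-! Row 246, block A: Palais–Smale and linking. -/

set_option autoImplicit false
set_option linter.unusedSectionVars false

open MeasureTheory Metric Filter Topology Set Module
open scoped RealInnerProductSpace ENNReal NNReal ContDiff Real

noncomputable section

namespace Crest.Agent.R246.A

variable {E : Type} [NormedAddCommGroup E] [InnerProductSpace ℝ E] [FiniteDimensional ℝ E]
  [MeasurableSpace E] [BorelSpace E] [hn : Fact (3 ≤ finrank ℝ E)]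

theorem Et_SS_le {ε : ℝ} (hε : 0 < ε) {K : X E →L[ℝ] X E} (hK : Res ε K) {u : X E} (hu : Lip u) :
    Et ε (SS K u) ≤ Et ε u - (∫ y, ext (SS K u - u) y * ext (SS K u - u) y ∂mu E) / (ε * sig) := by
  have h1 := descent hε hK hu zero_le_one
  rw [one_smul, add_sub_cancel] at h1
  refine h1.trans (sub_le_sub_left (div_le_div_of_nonneg_right ?_ (mul_pos hε sig_pos).le) _)
  linarith [two_mul_integral_sq_le ε ((hK.lip_SS u).sub hu)]

/-- Arzelà–Ascoli: `{K f : ‖f‖ ≤ 2}` is bounded and equi-Lipschitz (`Res.lip`); use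
`ArzelaAscoli.isCompact_closure_of_isClosedEmbedding`, or `BoundedContinuousFunction.arzela_ascoli`
transported by `ContinuousMap.isometryEquivBoundedOfCompact`. -/
theorem isCompact_closure_range_SS {ε : ℝ} {K : X E →L[ℝ] X E} (hK : Res ε K) :
    IsCompact (closure (range (SS K))) := by
  obtain ⟨L, hL, h⟩ := hK.lip
  let e := (ContinuousMap.isometryEquivBoundedOfCompact (sphere (0 : E) 1) ℝ).toHomeomorph
  rw [← e.isCompact_image, e.image_closure]
  refine BoundedContinuousFunction.arzela_ascoli (closedBall 0 (‖K‖ * 2)) (isCompact_closedBall _ _)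
    _ ?_ (Metric.equicontinuous_of_continuity_modulus (fun t => L * 2 * t)
      ((Continuous.tendsto' (by fun_prop) 0 0 (by simp))) _ ?_)
  · rintro _ x ⟨_, ⟨u, rfl⟩, rfl⟩
    exact mem_closedBall_zero_iff.2 (((SS K u).norm_coe_le_norm x).trans ((K.le_opNorm _).trans
      (mul_le_mul_of_nonneg_left (norm_gX_le u) (norm_nonneg _))))
  · rintro x y ⟨_, _, ⟨u, rfl⟩, rfl⟩
    exact (h (gX u) x y).trans (mul_le_mul_of_nonneg_right
      (mul_le_mul_of_nonneg_left (norm_gX_le u) hL) dist_nonneg)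

theorem psa_lip {ε : ℝ} {K : X E →L[ℝ] X E} (hK : Res ε K) {u : X E} (hu : Lip u) (k : ℕ) :
    Lip ((SS K)^[k] u) := by
  cases k with
  | zero => exact hu
  | succ k => rw [Function.iterate_succ_apply']; exact hK.lip_SS _

theorem psa_le {ε : ℝ} (hε : 0 < ε) {K : X E →L[ℝ] X E} (hK : Res ε K) {u : X E} (hu : Lip u) :
    Et ε (SS K u) ≤ Et ε u :=
  (Et_SS_le hε hK hu).trans (sub_le_self _ (div_nonneg
    (integral_nonneg fun _ => mul_self_nonneg _) (mul_pos hε sig_pos).le))

theorem psa_cont : Continuous fun w : X E => ∫ y, ext w y * ext w y ∂mu E := by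
  refine continuous_iff_continuousAt.2 fun w₀ => continuousAt_of_dominated
    (bound := fun _ => (‖w₀‖ + 1) * (‖w₀‖ + 1)) (Eventually.of_forall fun w =>
      (integrable_ext_mul w w).aestronglyMeasurable) ?_ (integrable_const _) ?_
  · filter_upwards [continuous_norm.continuousAt.eventually (gt_mem_nhds (lt_add_one ‖w₀‖))]
      with w hw
    refine Eventually.of_forall fun y => (norm_mul _ _).trans_le ?_
    exact mul_self_le_mul_self (norm_nonneg _) ((abs_ext_le w y).trans hw.le)
  · filter_upwards [ae_ne_zero_mu] with y hy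
    simp only [ext_of_ne _ hy]
    exact Continuous.continuousAt (by fun_prop)

/-- For each `N` the energies `e_k = Et (S^k u)` decrease from `≤ b` to `≥ a` for `k ≤ N + 2`, so
for some `1 ≤ k ≤ N + 1` the function `v_N = S^k u ∈ range S` has
`∫ (S v_N - v_N)² ≤ εσ (b-a)/(N+1)` and `a ≤ Et (S v_N) ≤ b`.  A subsequence converges to `v`;
`S v_N → S v`, `∫ (S v - v)² = 0` (continuity of `w ↦ ∫ ext w · ext w`), `eq_zero_of_integral_sq`,
`continuous_Et_K`. -/
theorem exists_fixed {ε : ℝ} (hε : 0 < ε) {K : X E →L[ℝ] X E} (hK : Res ε K) {a b : ℝ}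
    (h : ∀ N : ℕ, ∃ u : X E, Lip u ∧ Et ε u ≤ b ∧ a ≤ Et ε ((SS K)^[N] u)) :
    ∃ v : X E, SS K v = v ∧ a ≤ Et ε v ∧ Et ε v ≤ b := by
  have hs := mul_pos hε sig_pos
  have key : ∀ N : ℕ, ∃ v ∈ closure (range (SS K)), a ≤ Et ε (SS K v) ∧ Et ε (SS K v) ≤ b ∧
      ∫ y, ext (SS K v - v) y * ext (SS K v - v) y ∂mu E ≤
        ε * sig * (b - a + 1) * (1 / (N + 1)) := fun N => by
    obtain ⟨u, hu, hb, ha⟩ := h (N + 2)
    have hl := psa_lip hK hu
    have h1 := fun k => Et_SS_le hε hK (hl k)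
    have h2 : Antitone fun k => Et ε ((SS K)^[k] u) := antitone_nat_of_succ_le fun k => by
      rw [Function.iterate_succ_apply']
      exact psa_le hε hK (hl k)
    by_contra hne
    push Not at hne
    have h3 : ∀ j, j ≤ N + 1 → Et ε ((SS K)^[j + 1] u) ≤ b - j * ((b - a + 1) * (1 / (N + 1))) := by
      intro j hj
      induction j with
      | zero => simpa using (h2 zero_le_one).trans hb
      | succ j ih =>
        have e1 := Function.iterate_succ_apply' (SS K) (j + 1) u
        have := hne ((SS K)^[j + 1] u) (subset_closure ⟨_, (Function.iterate_succ_apply' _ _ _).symm⟩)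
          (e1 ▸ ha.trans (h2 (by omega))) (e1 ▸ (h2 (Nat.zero_le _)).trans hb)
        rw [mul_assoc, ← lt_div_iff₀' hs] at this
        rw [e1]
        push_cast
        linarith [h1 (j + 1), ih (by omega)]
    have h4 := ha.trans (h3 (N + 1) le_rfl)
    rw [mul_left_comm, Nat.cast_succ, mul_one_div_cancel (by positivity)] at h4
    linarith
  choose v hv h1 h2 h3 using key
  obtain ⟨w, -, φ, hφ, hw⟩ := (isCompact_closure_range_SS hK).tendsto_subseq hv
  have c1 := (((continuous_Et_K hK).comp continuous_gX).tendsto w).comp hw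
  have c2 := ((psa_cont.comp ((continuous_SS K).sub continuous_id)).tendsto w).comp hw
  have c3 := ((tendsto_one_div_add_atTop_nhds_zero_nat (𝕜 := ℝ)).const_mul
    (ε * sig * (b - a + 1))).comp hφ.tendsto_atTop
  have h4 : SS K w = w := sub_eq_zero.1 (eq_zero_of_integral_sq (le_antisymm
    ((le_of_tendsto_of_tendsto' c2 c3 fun n => h3 (φ n)).trans_eq (mul_zero _))
    (integral_nonneg fun y => mul_self_nonneg _)))
  exact ⟨w, h4, h4 ▸ ge_of_tendsto' c1 fun n => h1 (φ n), h4 ▸ le_of_tendsto' c1 fun n => h2 (φ n)⟩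

/-- Induction on `N`: `Ess (Ph ∘ S^N ∘ γ)`, `S^N γ z` is Lipschitz and has energy `< a` for
`‖z‖ = 1` (`ess_of_pr`; `Ess.homotopy` with `H (t,z) = Ph (v + t • (S v - v))`, `v = S^N γ z`,
`descent`, `hgap`).  Then a zero `z` of `Ph ∘ S^N ∘ γ` has energy `≥ a` by `hgap`. -/
theorem link {ε : ℝ} (hε : 0 < ε) {K : X E →L[ℝ] X E} (hK : Res ε K) {a : ℝ}
    (hgap : ∀ u : X E, Lip u → Ph u = 0 → a ≤ Et ε u) {γ : ℝ × E → X E} (hγ : Continuous γ)
    (hl : ∀ z, Lip (γ z)) (hb : ∀ z, ‖z‖ = 1 → Et ε (γ z) < a ∧ pr (Ph (γ z)) z < 0) (N : ℕ) :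
    ∃ z, a ≤ Et ε ((SS K)^[N] (γ z)) := by
  have key : Ess (fun z => Ph ((SS K)^[N] (γ z))) ∧ ∀ z, ‖z‖ = 1 → Et ε ((SS K)^[N] (γ z)) < a := by
    induction N with
    | zero => exact ⟨ess_of_pr fun z hz => (hb z hz).2, fun z hz => (hb z hz).1⟩
    | succ N ih =>
      have hc : Continuous fun z => (SS K)^[N] (γ z) := ((continuous_SS K).iterate N).comp hγ
      have hc' := (continuous_SS K).comp hc
      simp only [Function.iterate_succ_apply']
      refine ⟨?_, fun z hz => (psa_le hε hK (psa_lip hK (hl z) N)).trans_lt (ih.2 z hz)⟩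
      have := Ess.homotopy (H := fun p : ℝ × (ℝ × E) => Ph ((SS K)^[N] (γ p.2) +
        p.1 • (SS K ((SS K)^[N] (γ p.2)) - (SS K)^[N] (γ p.2))))
        (continuous_Ph.comp ((hc.comp continuous_snd).add
          (continuous_fst.smul ((hc'.sub hc).comp continuous_snd))))
        (fun t ht z hz h0 => by
          have hL := psa_lip hK (hl z) N
          have hw := (hK.lip_SS ((SS K)^[N] (γ z))).sub hL
          have a1 := hgap _ (hL.add (hw.smul t)) h0
          have a2 := (descent hε hK hL ht.1).trans (sub_le_self _ (div_nonneg (mul_nonneg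
            (by nlinarith [ht.1, ht.2]) (le_trans (mul_nonneg zero_le_two (integral_nonneg
              fun _ => mul_self_nonneg _)) (two_mul_integral_sq_le ε hw))) (mul_pos hε sig_pos).le))
          linarith [ih.2 z hz]) (by simpa using ih.1)
      simpa using this
  obtain ⟨z, -, hz⟩ := key.1 _ (continuous_Ph.comp
    (((continuous_SS K).iterate N).comp hγ)).continuousOn fun _ _ => rfl
  exact ⟨z, hgap _ (psa_lip hK (hl z) N) hz⟩

end Crest.Agent.R246.A
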