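import Crest.Agent.R246.A.SIBP
import Crest.Agent.R246.A.Desc

/-! Row 246, block A: regularity of fixed points. -/

set_option autoImplicit false
set_option linter.unusedSectionVars false

open MeasureTheory Metric Filter Topology Set Module
open scoped RealInnerProductSpace ENNReal NNReal ContDiff Real

noncomputable section

namespace Crest.Agent.R246.A

variable {E : Type} [NormedAddCommGroup E] [InnerProductSpace ℝ E] [FiniteDimensional ℝ E]
  [MeasurableSpace E] [BorelSpace E] [hn : Fact (3 ≤ finrank ℝ E)]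

/-- a curve of isometries with velocity `A` at `0`: `R t = exp (t • A)`
(`NormedSpace.exp_mem_unitary_of_mem_skewAdjoint` + `Unitary.linearIsometryEquiv`, or show that
`‖exp (t • A) x‖²` is constant by differentiating and use `LinearIsometry.toLinearIsometryEquiv`),
`hasDerivAt_exp_smul_const'`. -/
theorem exists_rot_curve (A : E →L[ℝ] E) (hA : ∀ x, ⟪A x, x⟫ = 0) :
    ∃ R : ℝ → (E ≃ₗᵢ[ℝ] E), (∀ x, R 0 x = x) ∧ Continuous (fun p : ℝ × E => R p.1 p.2) ∧
      ∀ t x, HasDerivAt (fun t => R t x) (A (R t x)) t := by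
  have h1 : ∀ (t : ℝ) (x : E), HasDerivAt (fun t : ℝ => NormedSpace.exp (t • A) x)
      (A (NormedSpace.exp (t • A) x)) t := fun t x => by
    simpa using (hasDerivAt_exp_smul_const' A t).clm_apply (hasDerivAt_const t x)
  have h0 : ∀ x : E, NormedSpace.exp ((0 : ℝ) • A) x = x := fun x => by simp
  have h2 : ∀ (t : ℝ) (x : E), ‖NormedSpace.exp (t • A) x‖ = ‖x‖ := fun t x => by
    have h3 : ∀ s : ℝ, HasDerivAt (fun t : ℝ => ‖NormedSpace.exp (t • A) x‖ ^ 2) 0 s := fun s =>
      (h1 s x).norm_sq.congr_deriv (by rw [real_inner_comm, hA, mul_zero])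
    have := is_const_of_deriv_eq_zero (fun s => (h3 s).differentiableAt) (fun s => (h3 s).deriv) t 0
    rw [h0] at this
    exact (pow_left_inj₀ (norm_nonneg _) (norm_nonneg _) two_ne_zero).1 this
  have hc : Continuous fun t : ℝ => NormedSpace.exp (t • A) :=
    continuous_iff_continuousAt.2 fun t => (hasDerivAt_exp_smul_const' A t).continuousAt
  exact ⟨fun t => LinearIsometry.toLinearIsometryEquiv
    ⟨(NormedSpace.exp (t • A) : E →L[ℝ] E), h2 t⟩ rfl, h0,
    (hc.comp continuous_fst).clm_apply continuous_snd, h1⟩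

/-- `f' = mkX (y ↦ fderiv (ext f) y (A y))` (`Hom0.fderiv_smul`).  The curve `t ↦ rot (R t) f` in
the Banach space `X E` has derivative `f'` at `0`: by the mean value theorem
`|f (R t x) - f x - t f' x| ≤ |t| sup_{|s| ≤ |t|} ‖rot (R s) f' - f'‖`, and `s ↦ rot (R s) f'` is
continuous (`ContinuousMap.curry`, or uniform continuity). -/
theorem hasDerivAt_rot {A : E →L[ℝ] E} {R : ℝ → (E ≃ₗᵢ[ℝ] E)} (h0 : ∀ x, R 0 x = x)
    (hc : Continuous fun p : ℝ × E => R p.1 p.2)
    (hd : ∀ t x, HasDerivAt (fun t => R t x) (A (R t x)) t) {f : X E}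
    (hf : ContDiffOn ℝ 1 (ext f) {0}ᶜ) :
    ∃ f' : X E, (∀ y, y ≠ 0 → ext f' y = fderiv ℝ (ext f) y (A y)) ∧
      HasDerivAt (fun t => rot (R t) f) f' 0 := by
  have hF : ContinuousOn (fun y => fderiv ℝ (ext f) y (A y)) {0}ᶜ :=
    (hf.continuousOn_fderiv_of_isOpen isOpen_compl_singleton le_rfl).clm_apply
      A.continuous.continuousOn
  have hH : Hom0 fun y => fderiv ℝ (ext f) y (A y) := fun t ht y => by
    simp only [(ext_hom0 f).fderiv_smul ht, map_smul, _root_.smul_apply, smul_smul,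
      mul_inv_cancel₀ ht.ne', one_smul]
  refine ⟨mkX _ hF, fun y hy => ext_mkX hF hH hy, ?_⟩
  set g := mkX _ hF
  have hr : ∀ u : X E, rot (R 0) u = u := fun u => by
    ext x
    exact congrArg u (Subtype.ext (h0 x))
  have hcont : Continuous fun s => rot (R s) g :=
    ContinuousMap.continuous_of_continuous_uncurry _ (g.continuous.comp
      ((hc.comp (continuous_id.prodMap continuous_subtype_val)).subtype_mk _))
  rw [hasDerivAt_iff_isLittleO_nhds_zero, Asymptotics.isLittleO_iff]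
  intro η hη
  obtain ⟨δ, hδ, hb⟩ := Metric.continuousAt_iff.1 (hcont.continuousAt (x := 0)) η hη
  filter_upwards [ball_mem_nhds (0 : ℝ) hδ] with t ht
  refine (ContinuousMap.norm_le _ (by positivity)).2 fun x => ?_
  have key := (convex_ball (0 : ℝ) δ).norm_image_sub_le_of_norm_hasDerivWithin_le
    (f := fun s => ext f (R s x) - s * g x) (f' := fun s => (rot (R s) g - g) x) (C := η)
    (fun s _ => by
      have hx : R s x ≠ 0 := coe_ne_zero (rotS (R s) x)
      have := ((hf.contDiffAt (isOpen_compl_singleton.mem_nhds hx)).differentiableAt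
        one_ne_zero).hasFDerivAt.comp_hasDerivAt s (hd s x)
      exact ((this.fun_sub (hasDerivAt_mul_const (g x))).congr_deriv rfl).hasDerivWithinAt)
    (fun s hs => by
      have := hb hs
      rw [hr, dist_eq_norm] at this
      exact (ContinuousMap.norm_coe_le_norm _ x).trans this.le) (mem_ball_self hδ) ht
  rw [h0, sub_zero, ext_coe, show ext f (R t x) = rot (R t) f x from ext_coe f (rotS (R t) x)]
    at key
  rw [zero_add, hr]
  refine le_of_eq_of_le ?_ key
  simp only [ContinuousMap.sub_apply, ContinuousMap.smul_apply, smul_eq_mul]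
  congr 1
  ring

/-- apply `K` and the evaluation at `nrm y` to `hasDerivAt_rot`; `K (rot R f) = rot R (K f)`;
chain rule for `t ↦ ext (K f) (R t y)`; uniqueness of the derivative. -/
theorem Res.comm_deriv {ε : ℝ} {K : X E →L[ℝ] X E} (hK : Res ε K) (A : E →L[ℝ] E)
    (hA : ∀ x, ⟪A x, x⟫ = 0) {f : X E} (hf : ContDiffOn ℝ 1 (ext f) {0}ᶜ) :
    ∃ f' : X E, (∀ y, y ≠ 0 → ext f' y = fderiv ℝ (ext f) y (A y)) ∧
      ∀ y, y ≠ 0 → fderiv ℝ (ext (K f)) y (A y) = ext (K f') y := by
  obtain ⟨R, h0, hc, hd⟩ := exists_rot_curve A hA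
  obtain ⟨f', h1, h2⟩ := hasDerivAt_rot h0 hc hd hf
  refine ⟨f', h1, fun y hy => ?_⟩
  have h3 := ((ContinuousMap.evalCLM ℝ (nrm y hy)).comp K).hasFDerivAt.comp_hasDerivAt (0 : ℝ) h2
  have h4 := (((hK.c1 f).contDiffAt (isOpen_compl_singleton.mem_nhds (show R 0 y ≠ 0 by
    rwa [h0]))).differentiableAt one_ne_zero).hasFDerivAt.comp_hasDerivAt (0 : ℝ) (hd 0 y)
  rw [h0] at h4
  rw [ext_of_ne _ hy]
  refine h4.unique (h3.congr_of_eventuallyEq (Eventually.of_forall fun t => ?_))
  change ext (K f) (R t y) = K (rot (R t) f) (nrm y hy)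
  rw [← ext_of_ne _ hy, hK.comm, ext_rot]

/-- Induction on `k`.  With an orthonormal basis `e`, `A i j x = ⟪e j, x⟫ e i - ⟪e i, x⟫ e j`:
`Σ_j ⟪e j, y⟫ A i j y = ‖y‖² e i - ⟪e i, y⟫ y`, so for `u = ext (K f)` (`Hom0.fderiv_self`)
`fderiv u y = Σ_i ((‖y‖²)⁻¹ Σ_j ⟪e j, y⟫ ext (K f'_{ij}) y) • innerSL (e i)` on `{0}ᶜ`;
`contDiffOn_succ_iff_fderiv_of_isOpen`. -/
theorem Res.contDiffOn {ε : ℝ} {K : X E →L[ℝ] X E} (hK : Res ε K) (k : ℕ) :
    ∀ f : X E, ContDiffOn ℝ k (ext f) {0}ᶜ → ContDiffOn ℝ (k + 1 : ℕ) (ext (K f)) {0}ᶜ := by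
  induction k with
  | zero => exact fun f _ => hK.c1 f
  | succ k ih =>
    intro f hf
    rw [Nat.cast_succ, contDiffOn_succ_iff_fderiv_of_isOpen isOpen_compl_singleton,
      contDiffOn_clm_apply]
    refine ⟨(hK.c1 f).differentiableOn one_ne_zero, by simp, fun v => ?_⟩
    let b := stdOrthonormalBasis ℝ E
    have key : ∀ j, ContDiffOn ℝ (k + 1 : ℕ)
        (fun y => fderiv ℝ (ext (K f)) y (⟪b j, y⟫ • v - ⟪v, y⟫ • b j)) {0}ᶜ := fun j => by
      obtain ⟨f', h1, h2⟩ := hK.comm_deriv (rk v (b j) - rk (b j) v) (fun x => by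
        simp [rk, inner_sub_left, real_inner_smul_left, mul_comm]) (hf.of_le (by simp))
      refine (ih f' (((hf.fderiv_of_isOpen isOpen_compl_singleton (m := k) (by simp)).clm_apply
        (rk v (b j) - rk (b j) v).contDiff.contDiffOn).congr h1)).congr fun y hy => ?_
      exact h2 y hy
    refine (((contDiff_norm_sq ℝ).contDiffOn.inv fun y hy =>
      pow_ne_zero 2 (norm_ne_zero_iff.2 hy)).mul (ContDiffOn.sum fun j (_ : j ∈ Finset.univ) =>
        (innerSL ℝ (b j)).contDiff.contDiffOn.mul (key j))).congr fun y hy => ?_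
    have e1 : ∑ j, ⟪b j, y⟫ • (⟪b j, y⟫ • v - ⟪v, y⟫ • b j) = ‖y‖ ^ 2 • v - ⟪v, y⟫ • y := by
      simp only [smul_sub, Finset.sum_sub_distrib, smul_smul, ← sq]
      rw [← Finset.sum_smul, b.sum_sq_inner_right]
      simp only [mul_comm _ ⟪v, y⟫, mul_smul, ← Finset.smul_sum, b.sum_repr']
    have e2 := congrArg (fderiv ℝ (ext (K f)) y) e1
    simp only [map_sum, map_smul _ ⟪b _, y⟫, smul_eq_mul] at e2
    simp only [innerSL_apply_apply, Pi.inv_apply]
    rw [e2, map_sub, map_smul, map_smul, (ext_hom0 _).fderiv_self, smul_zero, sub_zero, smul_eq_mul,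
      inv_mul_cancel_left₀ (pow_ne_zero 2 (norm_ne_zero_iff.2 hy))]

/-- `u = K g(u)` is C¹, so `g(u)` is C¹ (`contDiff_gg`, `ext_gX`), so `u` is C².  The residual
`R = mkX (-ε²‖y‖² lap u + 2u - gg u)` is orthogonal to all Lipschitz `φ` (`hK.weak`, `sph_ibp`), so
vanishes (`dbr`). -/
theorem Res.pde {ε : ℝ} {K : X E →L[ℝ] X E} (hK : Res ε K) {u : X E} (hu : SS K u = u) :
    ContDiffOn ℝ 2 (ext u) {0}ᶜ ∧ ∀ y : E, y ≠ 0 →
      ε ^ 2 * ‖y‖ ^ 2 * lap (ext u) y = 2 * ext u y - gg (ext u y) := by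
  have h1 : ContDiffOn ℝ 1 (ext u) {0}ᶜ := hu ▸ hK.c1 (gX u)
  have h2 : ContDiffOn ℝ 2 (ext u) {0}ᶜ := by
    have := hK.contDiffOn 1 (gX u) (by
      rw [ext_gX]
      exact contDiff_gg.comp_contDiffOn h1)
    rwa [show K (gX u) = u from hu] at this
  have hl : Lip u := hu ▸ hK.lip_SS u
  have hc : ContinuousOn (fun y => ‖y‖ ^ 2 * lap (ext u) y) {0}ᶜ :=
    (continuous_norm.pow 2).continuousOn.mul (continuousOn_lap h2)
  have hL := fun y hy => ext_mkX hc (ext_hom0 u).sq_mul_lap (y := y) hy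
  set L := mkX _ hc
  have key : (ε ^ 2 • L - (2 : ℝ) • u + gX u : X E) = 0 := dbr fun φ hφ => by
    have a1 := hK.weak (gX u) φ hφ
    rw [show K (gX u) = u from hu, Hb] at a1
    simp only [mul_assoc (ε ^ 2)] at a1
    rw [integral_add ((hl.integrable_inner hφ).const_mul _) ((integrable_ext_mul u φ).const_mul _),
      integral_const_mul, integral_const_mul, sph_ibp (ext_hom0 u) h2 hφ] at a1
    have a2 : ∫ y, ‖y‖ ^ 2 * lap (ext u) y * ext φ y ∂mu E = ∫ y, ext L y * ext φ y ∂mu E :=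
      integral_congr_ae (ae_ne_zero_mu.mono fun y hy => by simp only [hL y hy])
    have i : Integrable (fun y => ε ^ 2 * (ext L y * ext φ y) - 2 * (ext u y * ext φ y)) (mu E) :=
      ((integrable_ext_mul L φ).const_mul _).sub ((integrable_ext_mul u φ).const_mul _)
    simp only [ext_add, ext_sub, ext_smul, add_mul, sub_mul, mul_assoc]
    rw [integral_add i (integrable_ext_mul _ φ), integral_sub
      ((integrable_ext_mul L φ).const_mul _) ((integrable_ext_mul u φ).const_mul _),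
      integral_const_mul, integral_const_mul, ← a1, a2]
    ring
  refine ⟨h2, fun y hy => ?_⟩
  have := congrArg (fun w : X E => ext w y) key
  simp only [ext_add, ext_sub, ext_smul, ext_gX, hL y hy] at this
  rw [ext_of_ne 0 hy, ContinuousMap.zero_apply] at this
  linarith

/-- maximum principle at a maximum / minimum point of `u` on the compact sphere (a local extremum
of `ext u`); then `gg u = 3u - u³` and `Res.contDiffOn` gives all `C^k` by induction
(`contDiffOn_infty`). -/
theorem Res.crit {ε : ℝ} {K : X E →L[ℝ] X E} (hK : Res ε K) {u : X E} (hu : SS K u = u) :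
    (∀ x, |u x| ≤ 1) ∧ Crit ε (ext u) := by
  obtain ⟨h2, h3⟩ := hK.pde hu
  have := nontrivial_E (E := E)
  have : Nonempty (sphere (0 : E) 1) := (NormedSpace.sphere_nonempty.2 zero_le_one).to_subtype
  have hn0 : ∀ x : sphere (0 : E) 1, ({0}ᶜ : Set E) ∈ 𝓝 (x : E) := fun x =>
    isOpen_compl_singleton.mem_nhds (coe_ne_zero x)
  have hb : ∀ x, |u x| ≤ 1 := fun x => by
    obtain ⟨p, -, hp⟩ := isCompact_univ.exists_isMaxOn univ_nonempty u.continuous.continuousOn
    obtain ⟨q, -, hq⟩ := isCompact_univ.exists_isMinOn univ_nonempty u.continuous.continuousOn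
    have a1 := lap_nonpos_of_isLocalMax (h2.contDiffAt (hn0 p)) (by
      filter_upwards [hn0 p] with y hy
      rw [ext_of_ne u hy, ext_coe]
      exact hp (mem_univ _))
    have a2 := lap_nonneg_of_isLocalMin (h2.contDiffAt (hn0 q)) (by
      filter_upwards [hn0 q] with y hy
      rw [ext_of_ne u hy, ext_coe]
      exact hq (mem_univ _))
    have b1 := h3 p (coe_ne_zero p)
    have b2 := h3 q (coe_ne_zero q)
    rw [ext_coe] at b1 b2
    exact abs_le.2 ⟨(neg_one_le_of_nonneg (b2 ▸ mul_nonneg (by positivity) a2)).trans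
      (hq (mem_univ x)), le_trans (hp (mem_univ x))
        (le_one_of_nonpos (b1 ▸ mul_nonpos_of_nonneg_of_nonpos (by positivity) a1))⟩
  have hb' : ∀ y, |ext u y| ≤ 1 := fun y => by
    rcases eq_or_ne y 0 with rfl | hy
    · simp [ext_zero]
    · rw [ext_of_ne u hy]
      exact hb _
  refine ⟨hb, ext_hom0 u, contDiffOn_infty.2 fun k => ?_, hb', fun y hy => ?_⟩
  · induction k with
    | zero => exact h2.of_le (by simp)
    | succ k ih =>
      have := hK.contDiffOn k (gX u) (by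
        simp only [ext_gX, gg_eq (hb' _)]
        exact (contDiffOn_const.mul ih).sub (ih.pow 3))
      rwa [show K (gX u) = u from hu] at this
  · rw [h3 y hy, gg_eq (hb' y)]
    ring

end Crest.Agent.R246.A
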