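import Crest.Agent.R246.A.Res3
import Crest.Agent.R246.A.Reg
import Crest.Agent.R246.A.PS
import Crest.Agent.R246.A.Gap
import Crest.Agent.R246.A.Fam

/-! Row 246, block A: final statements (see `R246/Blueprint.lean`). -/

set_option autoImplicit false
set_option linter.unusedSectionVars false

open MeasureTheory Metric Filter Topology Set Module

namespace Crest.Agent.R246

namespace A

variable {E : Type} [NormedAddCommGroup E] [InnerProductSpace ℝ E] [FiniteDimensional ℝ E]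
  [MeasurableSpace E] [BorelSpace E] [hn : Fact (3 ≤ finrank ℝ E)]

/-- min-max for a fixed sweepout -/
theorem exists_crit : ∃ a : ℝ, 1 < a ∧ ∀ Λ, Sweep E (finrank ℝ E - 1) Λ → ∃ ε₀ : ℝ, 0 < ε₀ ∧
    ∀ ε ∈ Ioo 0 ε₀, ∃ u : E → ℝ, Crit ε u ∧ a ≤ En (finrank ℝ E - 1) ε u ∧
      En (finrank ℝ E - 1) ε u ≤ max Λ 0 := by
  obtain ⟨a, ha, ε₁, h₁, hgap⟩ := gap (E := E)
  obtain ⟨ε₂, h₂, hres⟩ := exists_res (E := E)
  refine ⟨a, ha, fun Λ hΛ => ?_⟩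
  obtain ⟨ε₃, h₃, hfam⟩ := exists_family hΛ ha
  refine ⟨min ε₁ (min ε₂ ε₃), by positivity, fun ε hε => ?_⟩
  obtain ⟨hε0, hε1⟩ := hε
  simp only [lt_min_iff] at hε1
  obtain ⟨K, hK⟩ := hres ε ⟨hε0, hε1.2.1⟩
  obtain ⟨γ, hγ, hl, hE, hb⟩ := hfam ε ⟨hε0, hε1.2.2⟩
  obtain ⟨v, hv, h1, h2⟩ := exists_fixed hε0 hK (a := a) (b := max Λ 0) fun N => by
    obtain ⟨z, hz⟩ := link hε0 hK (hgap ε ⟨hε0, hε1.1⟩) hγ hl hb N
    exact ⟨γ z, hl z, hE z, hz⟩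
  obtain ⟨hv1, hc⟩ := hK.crit hv
  exact ⟨ext v, hc, by rwa [En_eq_Et hv1], by rwa [En_eq_Et hv1]⟩

end A

theorem stCrit : All fun E => StCrit E := by
  intro E _ _ _ _ _ d hE hd hne
  have : Fact (3 ≤ finrank ℝ E) := ⟨by omega⟩
  obtain rfl : d = finrank ℝ E - 1 := by omega
  obtain ⟨a, ha, h⟩ := A.exists_crit (E := E)
  set S : Set ℝ := {Λ | Sweep E (finrank ℝ E - 1) Λ} with hS
  have hlow : ∀ Λ ∈ S, a ≤ Λ := fun Λ hΛ => by
    obtain ⟨ε₀, h0, h1⟩ := h Λ hΛ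
    obtain ⟨u, -, h2, h3⟩ := h1 (ε₀ / 2) ⟨by positivity, by linarith⟩
    rcases le_max_iff.1 (h2.trans h3) with h4 | h4
    · exact h4
    · linarith
  have hbdd : BddBelow S := ⟨a, hlow⟩
  have hj : ∀ j : ℕ, ∃ (ε : ℝ) (u : E → ℝ), 0 < ε ∧ ε ≤ 1 / ((j : ℝ) + 1) ∧ Crit ε u ∧
      a ≤ En (finrank ℝ E - 1) ε u ∧ En (finrank ℝ E - 1) ε u ≤ sInf S + 1 / ((j : ℝ) + 1) := by
    intro j
    have hp : 0 < 1 / ((j : ℝ) + 1) := by positivity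
    obtain ⟨Λ, hΛ, hlt⟩ := exists_lt_of_csInf_lt hne (lt_add_of_pos_right (sInf S) hp)
    obtain ⟨ε₀, h0, h1⟩ := h Λ hΛ
    obtain ⟨u, hu, h2, h3⟩ := h1 (min (ε₀ / 2) (1 / ((j : ℝ) + 1)))
      ⟨by positivity, (min_le_left _ _).trans_lt (by linarith)⟩
    refine ⟨_, u, by positivity, min_le_right _ _, hu, h2, h3.trans ?_⟩
    rw [max_eq_left (by linarith [hlow Λ hΛ])]
    exact hlt.le
  choose ε u h0 h1 hc h2 h3 using hj
  have hle : ∀ j : ℕ, 1 / ((j : ℝ) + 1) ≤ 1 := fun j => by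
    rw [div_le_one (by positivity)]; linarith [Nat.cast_nonneg (α := ℝ) j]
  obtain ⟨w, hw, φ, hφ, hlim⟩ := (isCompact_Icc (a := a) (b := sInf S + 1)).tendsto_subseq
    (x := fun j => En (finrank ℝ E - 1) (ε j) (u j))
    fun j => ⟨h2 j, (h3 j).trans (by linarith [hle j])⟩
  have ht : Tendsto (fun j : ℕ => 1 / ((φ j : ℝ) + 1)) atTop (𝓝 0) :=
    tendsto_one_div_add_atTop_nhds_zero_nat.comp hφ.tendsto_atTop
  have hw2 : w ≤ sInf S := by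
    have := le_of_tendsto_of_tendsto' hlim (tendsto_const_nhds.add ht) fun j => h3 (φ j)
    simpa using this
  exact ⟨w, ha.trans_le hw.1, fun Λ hΛ => hw2.trans (csInf_le hbdd hΛ), ε ∘ φ, u ∘ φ,
    fun j => h0 _, squeeze_zero (fun j => (h0 _).le) (fun j => h1 _) ht, fun j => hc _, hlim⟩

end Crest.Agent.R246
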