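import Crest.Agent.R246.A.IBP

/-! Row 246, block A: calculus of the regularised Newton kernel. -/

set_option autoImplicit false
set_option linter.unusedSectionVars false

open MeasureTheory Metric Filter Topology Set Module
open scoped RealInnerProductSpace ENNReal NNReal ContDiff Real

noncomputable section

namespace Crest.Agent.R246.A

variable {E : Type} [NormedAddCommGroup E] [InnerProductSpace ℝ E] [FiniteDimensional ℝ E]
  [MeasurableSpace E] [BorelSpace E] [hn : Fact (3 ≤ finrank ℝ E)]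

theorem three_le_n : (3 : ℝ) ≤ (finrank ℝ E : ℝ) := by exact_mod_cast hn.out

theorem kap_pos : 0 < kap E := by have := three_le_n (E := E); unfold kap; linarith

theorem n_eq : (finrank ℝ E : ℝ) = 2 * kap E + 2 := by unfold kap; ring

theorem hasFDerivAt_q {δ : ℝ} (hδ : 0 < δ) (p : ℝ) (x : E) :
    HasFDerivAt (fun x : E => (‖x‖ ^ 2 + δ ^ 2) ^ p)
      ((p * (‖x‖ ^ 2 + δ ^ 2) ^ (p - 1)) • (2 • innerSL ℝ x)) x :=
  ((hasStrictFDerivAt_norm_sq x).hasFDerivAt.add_const (δ ^ 2)).rpow_const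
    (Or.inl (by positivity))

theorem sq_rpow {r : ℝ} (hr : 0 ≤ r) (p : ℝ) : (r ^ 2) ^ p = r ^ (2 * p) := by
  rw [Real.rpow_mul hr, Real.rpow_two]

theorem q_rpow_le {s : ℝ} (hs : 0 ≤ s) (δ : ℝ) {r : ℝ} (hr : 0 < r) :
    (r ^ 2 + δ ^ 2) ^ (-s) ≤ r ^ (-(2 * s)) := by
  rw [← mul_neg, ← sq_rpow hr.le]
  exact Real.rpow_le_rpow_of_nonpos (by positivity) (le_add_of_nonneg_right (sq_nonneg _))
    (by linarith)

theorem rpow_aux {r : ℝ} (hr : 0 < r) (k : ℝ) : r ^ (-(2 * (k + 1))) * r = r ^ (-(2 * k + 1)) := by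
  rw [← Real.rpow_add_one hr.ne']; congr 1; ring

theorem norm_ng (δ : ℝ) (x : E) :
    ‖ng δ x‖ = 2 * kap E * (‖x‖ ^ 2 + δ ^ 2) ^ (-(kap E + 1)) * ‖x‖ := by
  have hk := kap_pos (E := E)
  rw [ng, norm_smul, show -kap E - 1 = -(kap E + 1) by ring, neg_mul, neg_mul, norm_neg,
    Real.norm_of_nonneg (by positivity)]

/-- `HasFDerivAt.rpow_const` applied to `x ↦ ‖x‖² + δ²` (`hasStrictFDerivAt_norm_sq`). -/
theorem hasGradientAt_nk {δ : ℝ} (hδ : 0 < δ) (x : E) : HasGradientAt (nk δ) (ng δ x) x := by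
  rw [hasGradientAt_iff_hasFDerivAt]
  refine (hasFDerivAt_q hδ (-kap E) x).congr_fderiv ?_
  ext v
  simp [ng]
  ring

theorem contDiff_ng {δ : ℝ} (hδ : 0 < δ) : ContDiff ℝ 1 (ng δ : E → E) := by
  refine ContDiff.smul (contDiff_const.mul ?_) contDiff_id
  exact ((contDiff_norm_sq ℝ).add contDiff_const).rpow_const_of_ne fun x => by positivity

/-- `D(φ • id) = φ id + (Dφ).smulRight x`, trace `= nφ + Dφ x` (`LinearMap.trace_smulRight` or
`trace_eq_sum_inner`), `n = 2κ + 2`. -/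
theorem trc_fderiv_ng {δ : ℝ} (hδ : 0 < δ) (x : E) : trc (fderiv ℝ (ng δ) x) = -nl δ x := by
  have h := (((hasFDerivAt_q hδ (-kap E - 1) x).const_mul (-2 * kap E)).smul (hasFDerivAt_id x)).fderiv
  have e : ng δ = (fun y : E => -2 * kap E * (‖y‖ ^ 2 + δ ^ 2) ^ (-kap E - 1)) • (id : E → E) := by
    funext y; simp [ng]
  have hq : 0 < ‖x‖ ^ 2 + δ ^ 2 := by positivity
  have e2 : (‖x‖ ^ 2 + δ ^ 2) ^ (-kap E - 1) =
      (‖x‖ ^ 2 + δ ^ 2) ^ (-kap E - 2) * (‖x‖ ^ 2 + δ ^ 2) := by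
    rw [← Real.rpow_add_one hq.ne']; congr 1; ring
  rw [e, h, trc, ContinuousLinearMap.coe_add, map_add, ContinuousLinearMap.coe_smul, map_smul,
    ContinuousLinearMap.coe_id, LinearMap.trace_id]
  erw [LinearMap.trace_smulRight]
  simp only [nl, e2, show -kap E - 1 - 1 = -kap E - 2 by ring]
  simp
  rw [n_eq]; ring

theorem measurable_nk (δ : ℝ) : Measurable (nk δ : E → ℝ) := by unfold nk; fun_prop

theorem measurable_ng (δ : ℝ) : Measurable (ng δ : E → E) := by unfold ng; fun_prop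

theorem nk_nonneg (δ : ℝ) (x : E) : 0 ≤ nk δ x := by unfold nk; positivity

/-- relative defect of the regularisation -/
def Dl (s δ r : ℝ) : ℝ := 1 - (r ^ 2 / (r ^ 2 + δ ^ 2)) ^ s

theorem Dl_nonneg {s : ℝ} (hs : 0 ≤ s) (δ r : ℝ) : 0 ≤ Dl s δ r := by
  exact sub_nonneg.2 (Real.rpow_le_one (by positivity)
    (div_le_one_of_le₀ (le_add_of_nonneg_right (sq_nonneg _)) (by positivity)) hs)

theorem Dl_le_one (s δ r : ℝ) : Dl s δ r ≤ 1 := by
  exact sub_le_self _ (Real.rpow_nonneg (by positivity) _)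

theorem Dl_anti {s : ℝ} (hs : 0 ≤ s) (δ : ℝ) {r r' : ℝ} (hr : 0 < r) (h : r ≤ r') :
    Dl s δ r' ≤ Dl s δ r := by
  refine sub_le_sub_left (Real.rpow_le_rpow (by positivity) ?_ hs) 1
  have hr' : 0 < r' := hr.trans_le h
  rw [div_le_div_iff₀ (by positivity) (by positivity)]
  nlinarith [mul_le_mul_of_nonneg_right (pow_le_pow_left₀ hr.le h 2) (sq_nonneg δ)]

theorem tendsto_Dl (s : ℝ) {r : ℝ} (hr : 0 < r) :
    Tendsto (fun δ => Dl s δ r) (𝓝[>] 0) (𝓝 0) := by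
  have h0 : r ^ 2 + (0 : ℝ) ^ 2 ≠ 0 := by positivity
  have h1 : ContinuousAt (fun δ : ℝ => r ^ 2 / (r ^ 2 + δ ^ 2)) 0 :=
    continuousAt_const.div (by fun_prop) h0
  have h2 : r ^ 2 / (r ^ 2 + (0 : ℝ) ^ 2) = 1 := by
    rw [div_eq_one_iff_eq h0]; ring
  have h3 := (continuousAt_const (y := (1 : ℝ))).sub (h1.rpow_const (p := s) (Or.inl (by
    rw [h2]; exact one_ne_zero)))
  have h4 := h3.tendsto.mono_left (nhdsWithin_le_nhds (s := Ioi 0))
  simp only [Pi.sub_apply, h2, Real.one_rpow, sub_self] at h4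
  exact h4

theorem measurable_Dl (s δ : ℝ) : Measurable (Dl s δ) := by unfold Dl; fun_prop

theorem q_rpow_sub (s δ : ℝ) {r : ℝ} (hr : 0 < r) :
    (r ^ 2 + δ ^ 2) ^ (-s) - (r ^ 2 + 0 ^ 2) ^ (-s) = -(Dl s δ r * r ^ (-(2 * s))) := by
  have h1 : 0 < r ^ 2 + δ ^ 2 := by positivity
  have h2 : 0 < (r ^ 2) ^ s := by positivity
  have h3 : 0 < (r ^ 2 + δ ^ 2) ^ s := by positivity
  rw [Dl, ← mul_neg 2, ← sq_rpow hr.le, Real.div_rpow (by positivity) h1.le,
    show r ^ 2 + (0 : ℝ) ^ 2 = r ^ 2 by ring, Real.rpow_neg h1.le, Real.rpow_neg (by positivity)]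
  field_simp
  ring

theorem nk_le (δ : ℝ) {x : E} (hx : x ≠ 0) : nk δ x ≤ ‖x‖ ^ (-(2 * kap E)) := by
  exact q_rpow_le kap_pos.le δ (norm_pos_iff.2 hx)

theorem norm_ng_le (δ : ℝ) (x : E) : ‖ng δ x‖ ≤ 2 * kap E * ‖x‖ ^ (-(2 * kap E + 1)) := by
  have hk := kap_pos (E := E)
  by_cases hx : x = 0
  · rw [hx, ng, smul_zero, norm_zero]; positivity
  have hp := norm_pos_iff.2 hx
  rw [norm_ng, mul_assoc, ← rpow_aux hp]
  exact mul_le_mul_of_nonneg_left (mul_le_mul_of_nonneg_right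
    (q_rpow_le (by linarith) δ hp) hp.le) (by positivity)

theorem abs_nk_sub (δ : ℝ) {x : E} (hx : x ≠ 0) :
    |nk δ x - nk 0 x| = Dl (kap E) δ ‖x‖ * ‖x‖ ^ (-(2 * kap E)) := by
  have hp := norm_pos_iff.2 hx
  rw [nk, nk, q_rpow_sub _ _ hp, abs_neg, abs_of_nonneg]
  exact mul_nonneg (Dl_nonneg kap_pos.le _ _) (by positivity)

theorem norm_ng_sub (δ : ℝ) {x : E} (hx : x ≠ 0) :
    ‖ng δ x - ng 0 x‖ = 2 * kap E * (Dl (kap E + 1) δ ‖x‖ * ‖x‖ ^ (-(2 * kap E + 1))) := by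
  have hp := norm_pos_iff.2 hx
  have hk := kap_pos (E := E)
  have h0 := Dl_nonneg (s := kap E + 1) (by linarith) δ ‖x‖
  rw [ng, ng, ← sub_smul, ← mul_sub, show -kap E - 1 = -(kap E + 1) by ring, q_rpow_sub _ _ hp,
    norm_smul, ← rpow_aux hp, show -2 * kap E * -(Dl (kap E + 1) δ ‖x‖ * ‖x‖ ^ (-(2 * (kap E + 1)))) =
      2 * kap E * (Dl (kap E + 1) δ ‖x‖ * ‖x‖ ^ (-(2 * (kap E + 1)))) by ring,
    Real.norm_of_nonneg (by positivity)]
  ring

/-- `(1+r)² ≤ c (r² + δ²)` with `c = 2 max 1 δ⁻²`. -/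
theorem exists_nk_le {δ : ℝ} (hδ : 0 < δ) : ∃ C : ℝ, 0 ≤ C ∧ ∀ x : E,
    nk δ x ≤ C * (1 + ‖x‖) ^ (-(2 * kap E)) ∧ ‖ng δ x‖ ≤ C * (1 + ‖x‖) ^ (-(2 * kap E + 1)) := by
  have hk := kap_pos (E := E)
  set c : ℝ := 2 + 2 / δ ^ 2 with hc
  have hc0 : 0 < c := by positivity
  have key : ∀ (s r : ℝ), 0 ≤ s → 0 ≤ r → (r ^ 2 + δ ^ 2) ^ (-s) ≤ c ^ s * (1 + r) ^ (-(2 * s)) := by
    intro s r hs hr
    have h1 : (1 + r) ^ 2 / c ≤ r ^ 2 + δ ^ 2 := by
      rw [div_le_iff₀ hc0]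
      have h2 : (r ^ 2 + δ ^ 2) * c = 2 * r ^ 2 + 2 + 2 * δ ^ 2 + r ^ 2 * (2 / δ ^ 2) := by
        rw [hc]; field_simp; ring
      have h3 : 0 ≤ r ^ 2 * (2 / δ ^ 2) := by positivity
      nlinarith [sq_nonneg (r - 1), sq_nonneg δ]
    refine (Real.rpow_le_rpow_of_nonpos (by positivity) h1 (by linarith)).trans (le_of_eq ?_)
    rw [Real.div_rpow (by positivity) hc0.le, sq_rpow (by positivity), Real.rpow_neg hc0.le,
      div_inv_eq_mul, mul_comm, mul_neg]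
  refine ⟨c ^ kap E + 2 * kap E * c ^ (kap E + 1), by positivity, fun x => ⟨?_, ?_⟩⟩
  · refine (key _ _ hk.le (norm_nonneg x)).trans (mul_le_mul_of_nonneg_right ?_ (by positivity))
    exact le_add_of_nonneg_right (by positivity)
  · have h1 := key (kap E + 1) _ (by linarith) (norm_nonneg x)
    have hp : 0 < 1 + ‖x‖ := by positivity
    rw [norm_ng, ← rpow_aux hp]
    calc _ ≤ 2 * kap E * (c ^ (kap E + 1) * (1 + ‖x‖) ^ (-(2 * (kap E + 1)))) * (1 + ‖x‖) := by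
          gcongr; linarith
      _ = 2 * kap E * c ^ (kap E + 1) * ((1 + ‖x‖) ^ (-(2 * (kap E + 1))) * (1 + ‖x‖)) := by ring
      _ ≤ _ := mul_le_mul_of_nonneg_right (le_add_of_nonneg_left (by positivity)) (by positivity)

theorem nk_smul {t : ℝ} (ht : 0 < t) (x : E) : nk 0 (t • x) = t ^ (-(2 * kap E)) * nk 0 x := by
  rw [nk, nk, norm_smul, Real.norm_of_nonneg ht.le, show (t * ‖x‖) ^ 2 + (0 : ℝ) ^ 2 =
    t ^ 2 * (‖x‖ ^ 2 + 0 ^ 2) by ring, Real.mul_rpow (by positivity) (by positivity),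
    sq_rpow ht.le, mul_neg]

/-- `integrable_rpow_neg_one_add_norm_sq` with exponent `n + 2`. -/
theorem integrable_nl : Integrable (nl 1 : E → ℝ) := by
  have h := (integrable_rpow_neg_one_add_norm_sq (μ := (volume : Measure E))
    (r := finrank ℝ E + 2) (by linarith)).const_mul (2 * kap E * (finrank ℝ E : ℝ) * 1 ^ 2)
  refine h.congr (Eventually.of_forall fun x => ?_)
  simp only [nl]
  rw [show -((finrank ℝ E : ℝ) + 2) / 2 = -kap E - 2 by rw [n_eq]; ring, one_pow, add_comm]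

theorem cN_pos : 0 < cN E := by
  have hk := kap_pos (E := E)
  have h3 := three_le_n (E := E)
  have hp : ∀ x : E, 0 < nl 1 x := fun x => by unfold nl; positivity
  rw [cN, integral_pos_iff_support_of_nonneg (fun x => (hp x).le) integrable_nl,
    eq_univ_of_forall (s := Function.support (nl 1 : E → ℝ)) fun x => (hp x).ne']
  exact isOpen_univ.measure_pos _ univ_nonempty

/-- substitute `y = z + δ x` (`integral_sub_right_eq_self`, `Measure.integral_comp_smul`),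
`nl δ (δ x) = δ^{-n} nl 1 x`; dominated convergence. -/
theorem tendsto_integral_nl {Φ : E → ℝ} (hc : Continuous Φ) {B : ℝ} (hB : ∀ y, |Φ y| ≤ B) (z : E) :
    Tendsto (fun δ => ∫ y, nl δ (y - z) * Φ y) (𝓝[>] 0) (𝓝 (cN E * Φ z)) := by
  have hk := kap_pos (E := E)
  have h3 := three_le_n (E := E)
  have hp : ∀ x : E, 0 ≤ nl 1 x := fun x => by unfold nl; positivity
  have key : ∀ δ : ℝ, 0 < δ → ∫ x, nl 1 x * Φ (z + δ • x) = ∫ y, nl δ (y - z) * Φ y := by
    intro δ hδ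
    rw [← integral_add_left_eq_self (fun y => nl δ (y - z) * Φ y) z]
    simp only [add_sub_cancel_left]
    have h := Measure.integral_comp_smul (volume : Measure E) (fun y => nl δ y * Φ (z + y)) δ
    have hn' : 0 < δ ^ finrank ℝ E := by positivity
    have e : ∀ x : E, nl δ (δ • x) = (δ ^ finrank ℝ E)⁻¹ * nl 1 x := fun x => by
      have e1 : (δ ^ finrank ℝ E)⁻¹ = δ ^ 2 * δ ^ (2 * (-kap E - 2)) := by
        rw [← Real.rpow_natCast, ← Real.rpow_neg hδ.le, ← Real.rpow_two, ← Real.rpow_add hδ, n_eq]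
        congr 1; ring
      rw [nl, nl, norm_smul, Real.norm_of_nonneg hδ.le, show (δ * ‖x‖) ^ 2 + δ ^ 2 =
        δ ^ 2 * (‖x‖ ^ 2 + 1 ^ 2) by ring, Real.mul_rpow (by positivity) (by positivity),
        sq_rpow hδ.le, e1]
      ring
    simp only [e, mul_assoc, integral_const_mul, smul_eq_mul] at h
    rw [abs_of_pos (inv_pos.2 hn')] at h
    exact mul_left_cancel₀ (inv_pos.2 hn').ne' h
  have h1 : Tendsto (fun δ : ℝ => ∫ x, nl 1 x * Φ (z + δ • x)) (𝓝[>] 0)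
      (𝓝 (∫ x : E, nl 1 x * Φ z)) := by
    refine tendsto_integral_filter_of_dominated_convergence (fun x => nl 1 x * B)
      (Eventually.of_forall fun δ => integrable_nl.aestronglyMeasurable.mul
        (Continuous.aestronglyMeasurable (by fun_prop)))
      (Eventually.of_forall fun δ => Eventually.of_forall fun x => ?_)
      (integrable_nl.mul_const B) (Eventually.of_forall fun x => ?_)
    · rw [norm_mul, Real.norm_of_nonneg (hp x)]
      exact mul_le_mul_of_nonneg_left (hB _) (hp x)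
    · have h2 : Continuous fun δ : ℝ => nl 1 x * Φ (z + δ • x) := by fun_prop
      simpa using (h2.tendsto 0).mono_left (nhdsWithin_le_nhds (s := Ioi 0))
  rw [integral_mul_const] at h1
  exact h1.congr' (eventually_mem_nhdsWithin.mono fun δ hδ => key δ hδ)

end Crest.Agent.R246.A
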