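import Crest.Agent.R246.A.Lip

/-! Row 246, block A: polar factorisation and the reference measure. -/

set_option autoImplicit false
set_option linter.unusedSectionVars false

open MeasureTheory Metric Filter Topology Set Module
open scoped RealInnerProductSpace ENNReal NNReal ContDiff Real

noncomputable section

namespace Crest.Agent.R246.A

variable {E : Type} [NormedAddCommGroup E] [InnerProductSpace ℝ E] [FiniteDimensional ℝ E]
  [MeasurableSpace E] [BorelSpace E] [hn : Fact (3 ≤ finrank ℝ E)]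

theorem nontrivial_E : Nontrivial E :=
  Module.nontrivial_of_finrank_pos (R := ℝ) (lt_of_lt_of_le (by norm_num) hn.out)

theorem ae_ne_zero_vol : ∀ᵐ y : E, y ≠ 0 := by
  have := nontrivial_E (E := E)
  exact compl_mem_ae_iff.2 (measure_singleton (0 : E))

/-- `Measure.measurePreserving_homeomorphUnitSphereProd` (see the proof of
`integral_fun_norm_addHaar`), `integral_prod_mul`; no integrability is needed. -/
theorem polar {h : E → ℝ} (h0 : Hom0 h) (a : ℝ → ℝ) :
    ∫ y : E, a ‖y‖ * h y = ra E a * sa h := by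
  have := nontrivial_E (E := E)
  have h1 : ∫ y : E, a ‖y‖ * h y =
      ∫ x : ({(0)}ᶜ : Set E), a ‖x.1‖ * h x.1 ∂((volume : Measure E).comap (↑)) := by
    rw [integral_subtype_comap (measurableSet_singleton _).compl fun x => a ‖x‖ * h x,
      restrict_compl_singleton]
  have h2 := (volume : Measure E).measurePreserving_homeomorphUnitSphereProd.integral_comp
    (Homeomorph.measurableEmbedding _) (fun x => h x.1 * a x.2)
  rw [integral_prod_mul (fun x : sphere (0 : E) 1 => h x) (fun r : Ioi (0 : ℝ) => a r)] at h2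
  rw [h1, ra, sa, mul_comm, ← h2]
  congr 1; funext x
  have hx : (x : E) ≠ 0 := x.2
  rw [homeomorphUnitSphereProd_apply_fst_coe, homeomorphUnitSphereProd_apply_snd_coe,
    h0 _ (inv_pos.2 (norm_pos_iff.2 hx)), mul_comm]

theorem om_nonneg (y : E) : 0 ≤ om E y := by unfold om gk; positivity

theorem om_pos {y : E} (hy : y ≠ 0) : 0 < om E y := by
  have := norm_pos_iff.2 hy
  have := Real.pi_pos
  unfold om gk; positivity

theorem measurable_om : Measurable (om E) := by unfold om gk; fun_prop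

theorem om_eq (y : E) : om E y =
    (fun r : ℝ => (√(2 * π))⁻¹ ^ (finrank ℝ E - 1) * Real.exp (-r ^ 2 / 2) / r) ‖y‖ := by
  simp [om, gk]

/-- `integrable_fun_norm_addHaar`: `r^{n-1} e^{-r²/2}/r` is integrable on `(0,∞)`
(`integrableOn_rpow_mul_exp_neg_mul_sq`). -/
theorem integrable_om : Integrable (om E) := by
  have := nontrivial_E (E := E)
  rw [show om E = _ from funext om_eq, integrable_fun_norm_addHaar (volume : Measure E)
    (f := fun r : ℝ => (√(2 * π))⁻¹ ^ (finrank ℝ E - 1) * Real.exp (-r ^ 2 / 2) / r)]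
  obtain ⟨m, hm⟩ : ∃ m, finrank ℝ E - 1 = m + 1 := ⟨finrank ℝ E - 2, by have := hn.out; omega⟩
  have h := (integrableOn_rpow_mul_exp_neg_mul_sq (b := 1 / 2) (s := m) (by norm_num)
    (by linarith [Nat.cast_nonneg (α := ℝ) m])).const_mul ((√(2 * π))⁻¹ ^ (finrank ℝ E - 1))
  refine IntegrableOn.congr_fun h (fun r hr => ?_) measurableSet_Ioi
  have hr' : r ≠ 0 := (mem_Ioi.1 hr).ne'
  generalize (√(2 * π))⁻¹ ^ (finrank ℝ E - 1) = c
  simp only [hm, Real.rpow_natCast, smul_eq_mul, show -(1 / 2) * r ^ 2 = -r ^ 2 / 2 by ring]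
  field_simp
  ring

instance : IsFiniteMeasure (mu E) := isFiniteMeasure_withDensity_ofReal integrable_om.2

/-- `integral_withDensity_eq_integral_toReal_smul`. -/
theorem integral_mu {F : Type} [NormedAddCommGroup F] [NormedSpace ℝ F] (h : E → F) :
    ∫ y, h y ∂mu E = ∫ y, om E y • h y := by
  rw [mu, integral_withDensity_eq_integral_toReal_smul measurable_om.ennreal_ofReal
    (Eventually.of_forall fun _ => by simp)]
  congr 1; funext y
  rw [ENNReal.toReal_ofReal (om_nonneg y)]

theorem lintegral_mu {h : E → ℝ≥0∞} (hh : Measurable h) :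
    ∫⁻ y, h y ∂mu E = ∫⁻ y, ENNReal.ofReal (om E y) * h y :=
  lintegral_withDensity_eq_lintegral_mul _ measurable_om.ennreal_ofReal hh

theorem mu_ac : mu E ≪ volume := withDensity_absolutelyContinuous _ _

theorem ae_ne_zero_mu : ∀ᵐ y ∂mu E, y ≠ 0 := by
  exact mu_ac ae_ne_zero_vol

/-- `withDensity_absolutelyContinuous'`. -/
theorem ac_mu : (volume : Measure E) ≪ mu E := by
  refine withDensity_absolutelyContinuous' measurable_om.ennreal_ofReal.aemeasurable ?_
  filter_upwards [ae_ne_zero_vol] with y hy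
  exact (ENNReal.ofReal_pos.2 (om_pos hy)).ne'

theorem m0_pos : 0 < (mu E).real univ := by
  refine ENNReal.toReal_pos (fun h => ?_) (measure_ne_top _ _)
  exact (isOpen_univ.measure_pos (volume : Measure E) univ_nonempty).ne' (ac_mu h)

/-- four applications of `polar` (`h` and `1`, `a` and the profile of `om`, `om_eq`). -/
theorem radial_transfer {h : E → ℝ} (h0 : Hom0 h) (a : ℝ → ℝ) :
    (mu E).real univ * ∫ y : E, a ‖y‖ * h y = (∫ y : E, a ‖y‖) * ∫ y, h y ∂mu E := by
  have h1 : Hom0 fun _ : E => (1 : ℝ) := fun _ _ _ => rfl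
  have k1 := polar h0 a
  have k2 := polar h1 a
  have k3 := polar h0 fun r : ℝ => (√(2 * π))⁻¹ ^ (finrank ℝ E - 1) * Real.exp (-r ^ 2 / 2) / r
  have k4 := polar h1 fun r : ℝ => (√(2 * π))⁻¹ ^ (finrank ℝ E - 1) * Real.exp (-r ^ 2 / 2) / r
  have e1 : (mu E).real univ = ∫ y : E, om E y * 1 := by
    have := integral_mu (E := E) fun _ => (1 : ℝ)
    rwa [integral_const, smul_eq_mul, mul_one] at this
  simp only [mul_one] at k2
  rw [e1, integral_mu, k1, k2]
  simp only [smul_eq_mul, om_eq]
  rw [k3, k4]; ring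

/-- `LinearIsometryEquiv.measurePreserving`, `MeasurePreserving.integral_comp'`; `om (R y) = om y`. -/
theorem integral_mu_comp {F : Type} [NormedAddCommGroup F] [NormedSpace ℝ F] (R : E ≃ₗᵢ[ℝ] E)
    (h : E → F) : ∫ y, h (R y) ∂mu E = ∫ y, h y ∂mu E := by
  rw [integral_mu, integral_mu, ← R.measurePreserving.integral_comp
    R.toHomeomorph.measurableEmbedding fun y => om E y • h y]
  simp only [om_eq, R.norm_map]

theorem integral_mu_neg {F : Type} [NormedAddCommGroup F] [NormedSpace ℝ F] (h : E → F) :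
    ∫ y, h (-y) ∂mu E = ∫ y, h y ∂mu E :=
  integral_mu_comp (LinearIsometryEquiv.neg ℝ) h

theorem integrable_ext (u : X E) : Integrable (ext u) (mu E) :=
  Integrable.of_bound (measurable_ext u).aestronglyMeasurable ‖u‖
    (Eventually.of_forall fun y => abs_ext_le u y)

/-- `ext w = 0` a.e. for `volume`, continuous on the open set `{0}ᶜ`
(`Measure.eqOn_open_of_ae_eq`). -/
theorem eq_zero_of_integral_sq {w : X E} (h : ∫ y, ext w y * ext w y ∂mu E = 0) : w = 0 := by
  have hi : Integrable (fun y => ext w y * ext w y) (mu E) :=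
    (integrable_ext w).mul_bdd (measurable_ext w).aestronglyMeasurable
      (Eventually.of_forall fun y => abs_ext_le w y)
  have h1 := (integral_eq_zero_iff_of_nonneg (fun y => mul_self_nonneg _) hi).1 h
  have h2 : ext w =ᵐ[(volume : Measure E).restrict {0}ᶜ] fun _ => 0 := by
    refine ae_restrict_of_ae ?_
    filter_upwards [ac_mu h1] with y hy
    exact mul_self_eq_zero.1 hy
  have h3 := Measure.eqOn_open_of_ae_eq h2 isOpen_compl_singleton (continuousOn_ext w)
    continuousOn_const
  ext x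
  rw [← ext_coe]
  exact h3 (coe_ne_zero x)

/-- the value does not depend on the unit vector `e` (reflections: `reflection_sub` /
`LinearIsometryEquiv` with `R e = e'`, `integral_mu_comp`) and the sum over an orthonormal basis is
`m0`. -/
theorem exists_inner_sq_ge : ∃ c : ℝ, 0 < c ∧ ∀ e : E, ‖e‖ = 1 →
    c ≤ ∫ y, (⟪e, y⟫ / ‖y‖) ^ 2 ∂mu E := by
  have hm := m0_pos (E := E)
  have hn0 : (0 : ℝ) < finrank ℝ E := by have := hn.out; positivity
  refine ⟨(mu E).real univ / finrank ℝ E, by positivity, fun e he => le_of_eq ?_⟩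
  have hi : ∀ e : E, ‖e‖ = 1 → Integrable (fun y : E => (⟪e, y⟫ / ‖y‖) ^ 2) (mu E) := fun e he => by
    refine Integrable.of_bound (Measurable.aestronglyMeasurable (by fun_prop)) 1
      (Eventually.of_forall fun y => ?_)
    rw [Real.norm_eq_abs, abs_pow, abs_div, abs_norm]
    refine pow_le_one₀ (by positivity) (div_le_one_of_le₀ ?_ (norm_nonneg _))
    simpa [he] using abs_real_inner_le_norm e y
  have h1 : ∀ e' : E, ‖e'‖ = 1 →
      ∫ y, (⟪e', y⟫ / ‖y‖) ^ 2 ∂mu E = ∫ y, (⟪e, y⟫ / ‖y‖) ^ 2 ∂mu E := fun e' he' => by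
    have h2 := Submodule.reflection_sub (he.trans he'.symm)
    generalize Submodule.reflection (ℝ ∙ (e - e'))ᗮ = R at h2
    rw [← integral_mu_comp R, ← h2]
    simp only [LinearIsometryEquiv.inner_map_map, LinearIsometryEquiv.norm_map]
  set b := stdOrthonormalBasis ℝ E
  have h3 : ∑ i, ∫ y, (⟪b i, y⟫ / ‖y‖) ^ 2 ∂mu E = (mu E).real univ := by
    rw [← integral_finsetSum _ fun i _ => hi _ (b.norm_eq_one i)]
    have : ∫ _y, (1 : ℝ) ∂mu E = (mu E).real univ := by simp
    rw [← this]
    refine integral_congr_ae ?_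
    filter_upwards [ae_ne_zero_mu] with y hy
    simp only [div_pow, ← Finset.sum_div]
    rw [div_eq_one_iff_eq (pow_ne_zero 2 (norm_ne_zero_iff.2 hy)), ← b.sum_sq_norm_inner_right y]
    simp
  simp only [h1 _ (b.norm_eq_one _), Finset.sum_const, Finset.card_univ, Fintype.card_fin,
    nsmul_eq_mul] at h3
  rw [← h3, mul_div_cancel_left₀ _ hn0.ne']

/-- pointwise equality of the integrands (also at `y = 0`), `Wt_eq`, `integral_mu`. -/
theorem En_eq_Et {u : X E} (hu : ∀ x, |u x| ≤ 1) (ε : ℝ) :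
    En (finrank ℝ E - 1) ε (ext u) = Et ε u := by
  rw [En, Et, integral_mu, ← integral_div]
  congr 1; funext y
  have h1 : |ext u y| ≤ 1 := by
    unfold ext; split_ifs
    · simp
    · exact hu _
  rw [Wt_eq h1, ed, om, smul_eq_mul]
  by_cases hy : y = 0
  · simp [hy]
  have := norm_ne_zero_iff.2 hy
  by_cases hε : ε = 0
  · simp [hε]
  field_simp

/-- `‖Ph u - Ph v‖ ≤ m0 ‖u - v‖`. -/
theorem norm_Ph_sub_le (u v : X E) : ‖Ph u - Ph v‖ ≤ (mu E).real univ * ‖u - v‖ := by
  have hm : Measurable fun y : E => ‖y‖⁻¹ • y := by fun_prop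
  have hb : ∀ y : E, ‖‖y‖⁻¹ • y‖ ≤ 1 := fun y => by
    rw [norm_smul, norm_inv, norm_norm]
    exact inv_mul_le_one_of_le₀ le_rfl (norm_nonneg _)
  have hi : ∀ w : X E, Integrable (fun y => ext w y • (‖y‖⁻¹ • y)) (mu E) := fun w =>
    Integrable.of_bound ((measurable_ext w).smul hm).aestronglyMeasurable (‖w‖ * 1)
      (Eventually.of_forall fun y => by
        rw [norm_smul]
        exact mul_le_mul (abs_ext_le w y) (hb y) (norm_nonneg _) (norm_nonneg _))
  have hd : ∀ y, ‖ext u y - ext v y‖ ≤ ‖u - v‖ := fun y => by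
    have := abs_ext_le (u - v) y
    rwa [ext_sub] at this
  rw [mul_comm, Prod.norm_def, max_le_iff]
  constructor
  · simp only [Ph, Prod.fst_sub]
    rw [← integral_sub (integrable_ext u) (integrable_ext v)]
    exact norm_integral_le_of_norm_le_const (Eventually.of_forall hd)
  · simp only [Ph, Prod.snd_sub]
    rw [← integral_sub (hi u) (hi v)]
    refine norm_integral_le_of_norm_le_const (Eventually.of_forall fun y => ?_)
    rw [← sub_smul, norm_smul]
    exact (mul_le_of_le_one_right (norm_nonneg _) (hb y)).trans (hd y)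

theorem continuous_Ph : Continuous (Ph : X E → ℝ × E) := by
  refine (LipschitzWith.of_dist_le_mul (K := ⟨(mu E).real univ, m0_pos.le⟩) fun u v => ?_).continuous
  rw [dist_eq_norm, dist_eq_norm]
  exact norm_Ph_sub_le u v

end Crest.Agent.R246.A
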