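import Crest.Agent.R246.A.New1
import Crest.Agent.R246.A.Polar

/-! Row 246, block A: integrals with two poles. -/

set_option autoImplicit false
set_option linter.unusedSectionVars false

open MeasureTheory Metric Filter Topology Set Module
open scoped RealInnerProductSpace ENNReal NNReal ContDiff Real

noncomputable section

namespace Crest.Agent.R246.A

variable {E : Type} [NormedAddCommGroup E] [InnerProductSpace ℝ E] [FiniteDimensional ℝ E]
  [MeasurableSpace E] [BorelSpace E] [hn : Fact (3 ≤ finrank ℝ E)]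

/-- dominating function -/
def hd (p q r₀ : ℝ) (x : E) : ℝ := ‖x‖ ^ (-p) * (max ‖x‖ (r₀ / 2)) ^ (-q)

theorem hd_nonneg (p q : ℝ) {r₀ : ℝ} (hr : 0 < r₀) (x : E) : 0 ≤ hd p q r₀ x := by
  unfold hd; positivity

theorem integrable_radial_two {f : ℝ → ℝ} (hf : Measurable f) {ρ s₁ s₂ C₁ C₂ : ℝ} (hρ : 0 < ρ)
    (h1 : s₁ < finrank ℝ E) (h2 : (finrank ℝ E : ℝ) < s₂)
    (b1 : ∀ r ∈ Ioc 0 ρ, |f r| ≤ C₁ * r ^ (-s₁)) (b2 : ∀ r, ρ < r → |f r| ≤ C₂ * r ^ (-s₂)) :
    Integrable fun x : E => f ‖x‖ := by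
  have := nontrivial_E (E := E)
  have hm : Measurable fun r : ℝ => r ^ (finrank ℝ E - 1) • f r := by fun_prop
  have e : ∀ (r C s : ℝ), 0 < r → |f r| ≤ C * r ^ (-s) →
      ‖r ^ (finrank ℝ E - 1) • f r‖ ≤ C * r ^ ((finrank ℝ E : ℝ) - 1 - s) := fun r C s hr h => by
    have e1 : r ^ ((finrank ℝ E : ℝ) - 1 - s) = r ^ (finrank ℝ E - 1) * r ^ (-s) := by
      rw [sub_eq_add_neg _ s, Real.rpow_add hr, ← Real.rpow_natCast,
        Nat.cast_sub (by have := hn.out; omega), Nat.cast_one]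
    rw [norm_smul, Real.norm_of_nonneg (by positivity), e1, mul_left_comm]
    exact mul_le_mul_of_nonneg_left h (by positivity)
  rw [integrable_fun_norm_addHaar (volume : Measure E), ← Ioc_union_Ioi_eq_Ioi hρ.le]
  refine IntegrableOn.union ?_ ?_
  · have h := (intervalIntegral.integrableOn_Ioo_rpow_iff hρ
      (s := (finrank ℝ E : ℝ) - 1 - s₁)).2 (by linarith)
    rw [← integrableOn_Ioc_iff_integrableOn_Ioo] at h
    exact (h.const_mul C₁).mono' hm.aestronglyMeasurable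
      (ae_restrict_of_forall_mem measurableSet_Ioc fun r hr => e r _ _ hr.1 (b1 r hr))
  · exact ((integrableOn_Ioi_rpow_of_lt (a := (finrank ℝ E : ℝ) - 1 - s₂) (by linarith)
      hρ).const_mul C₂).mono' hm.aestronglyMeasurable
      (ae_restrict_of_forall_mem measurableSet_Ioi fun r hr => e r _ _ (hρ.trans hr) (b2 r hr))

/-- `integrable_fun_norm_addHaar`; on `(0, r₀/2]` use `intervalIntegral.intervalIntegrable_rpow'`
/ `integrableOn_Ioo_rpow_iff`, on `(r₀/2, ∞)` use `integrableOn_Ioi_rpow_of_lt`. -/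
theorem integrable_hd {p q r₀ : ℝ} (hr : 0 < r₀) (hp : p < finrank ℝ E)
    (hpq : (finrank ℝ E : ℝ) < p + q) : Integrable (hd p q r₀ : E → ℝ) := by
  refine integrable_radial_two (f := fun r => r ^ (-p) * (max r (r₀ / 2)) ^ (-q)) (by fun_prop)
    (half_pos hr) hp hpq (C₁ := (r₀ / 2) ^ (-q)) (C₂ := 1) (fun r h => ?_) fun r h => ?_
  · have := h.1
    rw [max_eq_right h.2, abs_of_nonneg (by positivity), mul_comm]
  · have : 0 < r := (half_pos hr).trans h
    rw [max_eq_left h.le, abs_of_nonneg (by positivity), one_mul, neg_add, Real.rpow_add this]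

theorem two_pole_cases {a b r₀ : ℝ} (ha : 0 ≤ a) (hb : 0 ≤ b) (hr : 0 < r₀) {y : E} (hy : r₀ ≤ ‖y‖)
    (z : E) : (r₀ / 2 ≤ ‖y - z‖ ∧ ‖y - z‖ ^ (-b) * ‖z‖ ^ (-a) ≤ hd a b r₀ z) ∨
      ‖y - z‖ ^ (-b) * ‖z‖ ^ (-a) ≤ hd b a r₀ (y - z) := by
  have h1 : ‖y‖ ≤ ‖y - z‖ + ‖z‖ := by simpa using norm_add_le (y - z) z
  have hp : ∀ t : ℝ, 0 < max t (r₀ / 2) := fun t => (half_pos hr).trans_le (le_max_right _ _)
  rcases le_total ‖z‖ ‖y - z‖ with h | h
  · refine Or.inl ⟨by linarith, ?_⟩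
    rw [hd, mul_comm]
    exact mul_le_mul_of_nonneg_left (Real.rpow_le_rpow_of_nonpos (hp _)
      (max_le h (by linarith)) (by linarith)) (by positivity)
  · exact Or.inr (mul_le_mul_of_nonneg_left (Real.rpow_le_rpow_of_nonpos (hp _)
      (max_le h (by linarith)) (by linarith)) (by positivity))

/-- if `‖z‖ ≤ ‖y - z‖` then `max ‖z‖ (r₀/2) ≤ ‖y - z‖`; symmetrically otherwise. -/
theorem two_pole_le {a b r₀ : ℝ} (ha : 0 ≤ a) (hb : 0 ≤ b) (hr : 0 < r₀) {y : E} (hy : r₀ ≤ ‖y‖)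
    (z : E) : ‖y - z‖ ^ (-b) * ‖z‖ ^ (-a) ≤ hd a b r₀ z + hd b a r₀ (y - z) := by
  rcases two_pole_cases ha hb hr hy z with h | h
  · exact h.2.trans (le_add_of_nonneg_right (hd_nonneg _ _ hr _))
  · exact h.trans (le_add_of_nonneg_left (hd_nonneg _ _ hr _))

theorem integrable_two_pole {a b : ℝ} (ha : 0 ≤ a) (hb : 0 ≤ b) (ha' : a < finrank ℝ E)
    (hb' : b < finrank ℝ E) (hab : (finrank ℝ E : ℝ) < a + b) {y : E} (hy : y ≠ 0) :
    Integrable fun z : E => ‖y - z‖ ^ (-b) * ‖z‖ ^ (-a) := by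
  have hr := norm_pos_iff.2 hy
  refine ((integrable_hd hr ha' hab).add
    ((integrable_hd hr hb' (by linarith : _ < b + a)).comp_sub_left y)).mono'
    (Measurable.aestronglyMeasurable (by fun_prop)) (Eventually.of_forall fun z => ?_)
  rw [Real.norm_of_nonneg (by positivity)]
  exact two_pole_le ha hb hr le_rfl z

/-- `C = ∫ hd a b r₀ + ∫ hd b a r₀` (`integral_sub_left_eq_self`). -/
theorem exists_two_pole_le {a b r₀ : ℝ} (ha : 0 ≤ a) (hb : 0 ≤ b) (ha' : a < finrank ℝ E)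
    (hb' : b < finrank ℝ E) (hab : (finrank ℝ E : ℝ) < a + b) (hr : 0 < r₀) :
    ∃ C : ℝ, ∀ y : E, r₀ ≤ ‖y‖ → ∫ z : E, ‖y - z‖ ^ (-b) * ‖z‖ ^ (-a) ≤ C := by
  have i1 := integrable_hd (E := E) hr ha' hab
  have i2 := integrable_hd (E := E) hr hb' (by linarith : _ < b + a)
  refine ⟨(∫ z : E, hd a b r₀ z) + ∫ z : E, hd b a r₀ z, fun y hy => ?_⟩
  rw [← integral_sub_left_eq_self (hd b a r₀) volume y, ← integral_add i1 (i2.comp_sub_left y)]
  exact integral_mono_of_nonneg (Eventually.of_forall fun z => by positivity)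
    (i1.add (i2.comp_sub_left y)) (Eventually.of_forall fun z => two_pole_le ha hb hr hy z)

/-- pointwise: the integrand is `≤ Dl s δ (r₀/2) · hd a b r₀ z + Dl s δ ‖y-z‖ · hd b a r₀ (y-z)`
(in the first case of `two_pole_le`, `r₀/2 ≤ ‖y-z‖`, `Dl_anti`); the integral of the second term
is `∫ Dl s δ ‖x‖ hd b a r₀ x → 0` by dominated convergence. -/
theorem unif_two_pole {a b r₀ s : ℝ} (ha : 0 ≤ a) (hb : 0 ≤ b) (ha' : a < finrank ℝ E)
    (hb' : b < finrank ℝ E) (hab : (finrank ℝ E : ℝ) < a + b) (hr : 0 < r₀) (hs : 0 ≤ s)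
    {η : ℝ} (hη : 0 < η) : ∀ᶠ δ in 𝓝[>] (0 : ℝ), ∀ y : E, r₀ ≤ ‖y‖ →
      ∫ z : E, Dl s δ ‖y - z‖ * ‖y - z‖ ^ (-b) * ‖z‖ ^ (-a) ≤ η := by
  have i1 := integrable_hd (E := E) hr ha' hab
  have i2 := integrable_hd (E := E) hr hb' (by linarith : _ < b + a)
  have mD : ∀ δ, Measurable fun x : E => Dl s δ ‖x‖ := fun δ =>
    (measurable_Dl s δ).comp measurable_norm
  have bD : ∀ δ r, ‖Dl s δ r‖ ≤ 1 := fun δ r => by
    rw [Real.norm_of_nonneg (Dl_nonneg hs δ r)]; exact Dl_le_one s δ r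
  have i3 : ∀ δ, Integrable fun x : E => Dl s δ ‖x‖ * hd b a r₀ x := fun δ =>
    i2.bdd_mul (mD δ).aestronglyMeasurable (Eventually.of_forall fun x => bD δ _)
  have t1 := (tendsto_Dl s (half_pos hr)).mul_const (∫ z : E, hd a b r₀ z)
  have t2 : Tendsto (fun δ => ∫ x : E, Dl s δ ‖x‖ * hd b a r₀ x) (𝓝[>] 0)
      (𝓝 (∫ x : E, 0 * hd b a r₀ x)) := by
    refine tendsto_integral_filter_of_dominated_convergence (hd b a r₀)
      (Eventually.of_forall fun δ => (i3 δ).aestronglyMeasurable)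
      (Eventually.of_forall fun δ => Eventually.of_forall fun x => ?_) i2 ?_
    · rw [norm_mul, Real.norm_of_nonneg (hd_nonneg _ _ hr x)]
      exact mul_le_of_le_one_left (hd_nonneg _ _ hr x) (bD δ _)
    · filter_upwards [ae_ne_zero_vol] with x hx
      exact (tendsto_Dl s (norm_pos_iff.2 hx)).mul_const _
  have t3 := t1.add t2
  simp only [zero_mul, integral_zero, add_zero] at t3
  filter_upwards [t3.eventually (ge_mem_nhds hη)] with δ hδ y hy
  refine le_trans ?_ hδ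
  rw [← integral_sub_left_eq_self (fun x : E => Dl s δ ‖x‖ * hd b a r₀ x) volume y,
    ← integral_const_mul, ← integral_add (i1.const_mul _) ((i3 δ).comp_sub_left y)]
  refine integral_mono_of_nonneg (Eventually.of_forall fun z => ?_)
    ((i1.const_mul _).add ((i3 δ).comp_sub_left y)) (Eventually.of_forall fun z => ?_)
  · have := Dl_nonneg hs δ ‖y - z‖
    positivity
  have d0 := Dl_nonneg hs δ
  simp only [mul_assoc]
  rcases two_pole_cases ha hb hr hy z with h | h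
  · refine le_trans ?_ (le_add_of_nonneg_right (mul_nonneg (d0 _) (hd_nonneg _ _ hr _)))
    exact mul_le_mul (Dl_anti hs δ (half_pos hr) h.1) h.2 (by positivity) (d0 _)
  · exact (mul_le_mul_of_nonneg_left h (d0 _)).trans
      (le_add_of_nonneg_left (mul_nonneg (d0 _) (hd_nonneg _ _ hr _)))

/-- `integrable_fun_norm_addHaar`. -/
theorem integrable_pole_decay {a b : ℝ} (ha' : a < finrank ℝ E) (hb : 0 ≤ b)
    (hab : (finrank ℝ E : ℝ) < a + b) :
    Integrable fun z : E => (1 + ‖z‖) ^ (-b) * ‖z‖ ^ (-a) := by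
  refine integrable_radial_two (f := fun r => (1 + r) ^ (-b) * r ^ (-a)) (by fun_prop)
    one_pos ha' hab (C₁ := 1) (C₂ := 1) (fun r h => ?_) fun r h => ?_
  · have := h.1
    rw [abs_of_nonneg (by positivity)]
    exact mul_le_mul_of_nonneg_right (Real.rpow_le_one_of_one_le_of_nonpos (by linarith)
      (by linarith)) (by positivity)
  · have : 0 < r := one_pos.trans h
    rw [abs_of_nonneg (by positivity), one_mul, neg_add, Real.rpow_add this, mul_comm]
    exact mul_le_mul_of_nonneg_left (Real.rpow_le_rpow_of_nonpos this (by linarith)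
      (by linarith)) (by positivity)

end Crest.Agent.R246.A
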