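import Crest.Agent.R246.A.New2

/-! Row 246, block A: the regularised Newton potential is C¹; the limit `δ → 0`. -/

set_option autoImplicit false
set_option linter.unusedSectionVars false

open MeasureTheory Metric Filter Topology Set Module
open scoped RealInnerProductSpace ENNReal NNReal ContDiff Real

noncomputable section

namespace Crest.Agent.R246.A

variable {E : Type} [NormedAddCommGroup E] [InnerProductSpace ℝ E] [FiniteDimensional ℝ E]
  [MeasurableSpace E] [BorelSpace E] [hn : Fact (3 ≤ finrank ℝ E)]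

theorem ex_a : kap E + 2 < finrank ℝ E := by have := three_le_n (E := E); unfold kap; linarith

theorem ex_b : 2 * kap E < finrank ℝ E := by rw [n_eq]; linarith

theorem ex_b' : 2 * kap E + 1 < finrank ℝ E := by rw [n_eq]; linarith

theorem ex_ab : (finrank ℝ E : ℝ) < kap E + 2 + 2 * kap E := by
  rw [n_eq]; linarith [kap_pos (E := E)]

theorem ex_ab' : (finrank ℝ E : ℝ) < kap E + 2 + (2 * kap E + 1) := by
  rw [n_eq]; linarith [kap_pos (E := E)]

theorem integrable_Dl {s : ℝ} (hs : 0 ≤ s) (δ : ℝ) {a b : ℝ} (ha : 0 ≤ a) (hb : 0 ≤ b)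
    (ha' : a < finrank ℝ E) (hb' : b < finrank ℝ E) (hab : (finrank ℝ E : ℝ) < a + b) {y : E}
    (hy : y ≠ 0) : Integrable fun z : E => Dl s δ ‖y - z‖ * ‖y - z‖ ^ (-b) * ‖z‖ ^ (-a) := by
  simp only [mul_assoc]
  exact (integrable_two_pole ha hb ha' hb' hab hy).bdd_mul (c := 1) ((measurable_Dl s δ).comp
    (measurable_const.sub measurable_id).norm).aestronglyMeasurable
    (Eventually.of_forall fun z => by
      rw [Real.norm_of_nonneg (Dl_nonneg hs _ _)]; exact Dl_le_one _ _ _)

theorem Den.nonneg {F : E → ℝ} {M : ℝ} (h : Den F M) : 0 ≤ M := by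
  have := nontrivial_E (E := E)
  obtain ⟨z, hz⟩ := exists_ne (0 : E)
  have h1 := (abs_nonneg _).trans (h.bd z)
  exact nonneg_of_mul_nonneg_left h1 (Real.rpow_pos_of_pos (norm_pos_iff.2 hz) _)

/-- exponents `b = 2κ = n-2`, `a = κ + 2 = (n+2)/2` in `integrable_two_pole`; `nk_le` for `z ≠ y`. -/
theorem integrable_NP (δ : ℝ) {F : E → ℝ} {M : ℝ} (h : Den F M) {y : E} (hy : y ≠ 0) :
    Integrable fun z => nk δ (y - z) * F z := by
  have hk := kap_pos (E := E)
  have := nontrivial_E (E := E)
  refine ((integrable_two_pole (a := kap E + 2) (b := 2 * kap E) (by positivity) (by positivity)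
    ex_a ex_b ex_ab hy).const_mul M).mono' (((measurable_nk δ).comp
      (measurable_const.sub measurable_id)).mul h.meas).aestronglyMeasurable ?_
  filter_upwards [compl_mem_ae_iff.2 (measure_singleton y)] with z hz
  rw [norm_mul, Real.norm_of_nonneg (nk_nonneg _ _), mul_left_comm]
  exact mul_le_mul (nk_le δ (sub_ne_zero.2 (Ne.symm hz))) (h.bd z) (abs_nonneg _) (by positivity)

theorem integrable_NG (δ : ℝ) {F : E → ℝ} {M : ℝ} (h : Den F M) {y : E} (hy : y ≠ 0) :
    Integrable fun z => F z • ng δ (y - z) := by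
  have hk := kap_pos (E := E)
  refine ((integrable_two_pole (a := kap E + 2) (b := 2 * kap E + 1) (by positivity) (by positivity)
    ex_a ex_b' ex_ab' hy).const_mul (M * (2 * kap E))).mono' (h.meas.smul ((measurable_ng δ).comp
      (measurable_const.sub measurable_id))).aestronglyMeasurable
      (Eventually.of_forall fun z => ?_)
  rw [norm_smul]
  exact (mul_le_mul (h.bd z) (norm_ng_le δ _) (norm_nonneg _)
    ((abs_nonneg _).trans (h.bd z))).trans (le_of_eq (by ring))

theorem shift_le {s : ℝ} (hs : 0 ≤ s) {y x : E} (hx : x ∈ ball y 1) (z : E) :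
    (1 + ‖x - z‖) ^ (-s) ≤ (2 + ‖y‖) ^ s * (1 + ‖z‖) ^ (-s) := by
  have h1 : ‖x‖ ≤ ‖y‖ + 1 := by
    have := norm_add_le y (x - y)
    rw [add_sub_cancel] at this
    linarith [mem_ball_iff_norm.1 hx]
  have h2 : ‖z‖ ≤ ‖x‖ + ‖x - z‖ := by simpa using norm_sub_le x (x - z)
  have h3 : (1 + ‖z‖) / (2 + ‖y‖) ≤ 1 + ‖x - z‖ := by
    rw [div_le_iff₀ (by positivity)]
    nlinarith [norm_nonneg (x - z), norm_nonneg y]
  refine (Real.rpow_le_rpow_of_nonpos (by positivity) h3 (by linarith)).trans (le_of_eq ?_)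
  rw [Real.div_rpow (by positivity) (by positivity), Real.rpow_neg (by positivity : 0 ≤ 2 + ‖y‖),
    div_inv_eq_mul, mul_comm]

theorem exists_dom {δ : ℝ} (hδ : 0 < δ) {F : E → ℝ} {M : ℝ} (h : Den F M) (y : E) :
    ∃ b : E → ℝ, Integrable b ∧ Integrable (fun z => nk δ (y - z) * F z) ∧
      ∀ z, ∀ x ∈ ball y 1, ‖F z • ng δ (x - z)‖ ≤ b z := by
  have hk := kap_pos (E := E)
  obtain ⟨C, hC, hb⟩ := exists_nk_le (E := E) hδ
  refine ⟨_, (integrable_pole_decay (a := kap E + 2) (b := 2 * kap E + 1) ex_a (by positivity)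
    ex_ab').const_mul (M * C * (2 + ‖y‖) ^ (2 * kap E + 1)), ?_, fun z x hx => ?_⟩
  · refine ((integrable_pole_decay (a := kap E + 2) (b := 2 * kap E) ex_a (by positivity)
      ex_ab).const_mul (M * C * (2 + ‖y‖) ^ (2 * kap E))).mono' (((measurable_nk δ).comp
        (measurable_const.sub measurable_id)).mul h.meas).aestronglyMeasurable
      (Eventually.of_forall fun z => ?_)
    rw [norm_mul, Real.norm_of_nonneg (nk_nonneg _ _)]
    exact (mul_le_mul ((hb _).1.trans (mul_le_mul_of_nonneg_left (shift_le (by positivity)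
      (mem_ball_self one_pos) z) hC)) (h.bd z) (abs_nonneg _) (by positivity)).trans
      (le_of_eq (by ring))
  · rw [norm_smul]
    exact (mul_le_mul (h.bd z) ((hb _).2.trans (mul_le_mul_of_nonneg_left (shift_le (by positivity)
      hx z) hC)) (norm_nonneg _) ((abs_nonneg _).trans (h.bd z))).trans (le_of_eq (by ring))

/-- `hasFDerivAt_integral_of_dominated_of_fderiv_le` on `ball y 1`, bound from `exists_nk_le`,
`(1+‖y'-z‖)⁻¹ ≤ (2+‖y‖)(1+‖z‖)⁻¹` and `integrable_pole_decay`; pull `toDual` out of the integral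
(`ContinuousLinearMap.integral_comp_comm` / `LinearIsometry.integral_comp_comm`). -/
theorem hasGradientAt_NP {δ : ℝ} (hδ : 0 < δ) {F : E → ℝ} {M : ℝ} (h : Den F M) (y : E) :
    HasGradientAt (NP δ F) (NG δ F y) y := by
  have : CompleteSpace E := FiniteDimensional.complete ℝ E
  obtain ⟨b, hb, h1, h2⟩ := exists_dom hδ h y
  have mk : ∀ x : E, Measurable fun z => nk δ (x - z) * F z := fun x =>
    ((measurable_nk δ).comp (measurable_const.sub measurable_id)).mul h.meas
  have mg : Measurable fun z => F z • ng δ (y - z) :=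
    h.meas.smul ((measurable_ng δ).comp (measurable_const.sub measurable_id))
  have key := hasFDerivAt_integral_of_dominated_of_fderiv_le (𝕜 := ℝ) (μ := volume)
    (F := fun x z => nk δ (x - z) * F z)
    (F' := fun x z => InnerProductSpace.toDual ℝ E (F z • ng δ (x - z))) (bound := b)
    (ball_mem_nhds y one_pos) (Eventually.of_forall fun x => (mk x).aestronglyMeasurable) h1
    ((InnerProductSpace.toDual ℝ E).continuous.comp_aestronglyMeasurable mg.aestronglyMeasurable)
    (Eventually.of_forall fun z x hx => by rw [LinearIsometryEquiv.norm_map]; exact h2 z x hx) hb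
    (Eventually.of_forall fun z x _ => by
      have := ((hasGradientAt_nk hδ (x - z)).hasFDerivAt.comp x
        ((hasFDerivAt_id x).sub_const z)).mul_const (F z)
      refine this.congr_fderiv ?_
      ext v; simp)
  rw [hasGradientAt_iff_hasFDerivAt]
  refine key.congr_fderiv ?_
  exact (InnerProductSpace.toDual ℝ E).toLinearIsometry.integral_comp_comm _

/-- `continuousAt_of_dominated` with the same bound. -/
theorem continuous_NG {δ : ℝ} (hδ : 0 < δ) {F : E → ℝ} {M : ℝ} (h : Den F M) :
    Continuous (NG δ F) := by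
  refine continuous_iff_continuousAt.2 fun y => ?_
  obtain ⟨b, hb, -, h2⟩ := exists_dom hδ h y
  refine continuousAt_of_dominated (Eventually.of_forall fun x => (h.meas.smul
    ((measurable_ng δ).comp (measurable_const.sub measurable_id))).aestronglyMeasurable) ?_ hb
    (Eventually.of_forall fun z => ?_)
  · filter_upwards [ball_mem_nhds y one_pos] with x hx
    exact Eventually.of_forall fun z => h2 z x hx
  · exact (((contDiff_ng hδ).continuous.comp (continuous_id.sub continuous_const)).const_smul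
      (F z)).continuousAt

/-- `abs_nk_sub`, `unif_two_pole`. -/
theorem tendstoUniformlyOn_NP {F : E → ℝ} {M : ℝ} (h : Den F M) {r₀ : ℝ} (hr : 0 < r₀) :
    TendstoUniformlyOn (fun δ => NP δ F) (NP 0 F) (𝓝[>] 0) {y | r₀ ≤ ‖y‖} := by
  have hk := kap_pos (E := E)
  have hM := h.nonneg
  have := nontrivial_E (E := E)
  refine Metric.tendstoUniformlyOn_iff.2 fun ε hε => ?_
  filter_upwards [unif_two_pole (E := E) (a := kap E + 2) (b := 2 * kap E) (s := kap E)
    (by positivity) (by positivity) ex_a ex_b ex_ab hr hk.le (η := ε / (M + 1))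
    (by positivity)] with δ hδ y hy
  have hy0 : y ≠ 0 := norm_pos_iff.1 (hr.trans_le hy)
  rw [dist_comm, dist_eq_norm, NP, NP, ← integral_sub (integrable_NP δ h hy0) (integrable_NP 0 h hy0)]
  refine (norm_integral_le_of_norm_le ((integrable_Dl hk.le δ (a := kap E + 2) (b := 2 * kap E)
    (by positivity) (by positivity) ex_a ex_b ex_ab hy0).const_mul M) ?_).trans_lt ?_
  · filter_upwards [compl_mem_ae_iff.2 (measure_singleton y)] with z hz
    rw [← sub_mul, norm_mul, Real.norm_eq_abs, abs_nk_sub δ (sub_ne_zero.2 (Ne.symm hz)),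
      mul_left_comm]
    have := Dl_nonneg hk.le δ ‖y - z‖
    exact mul_le_mul_of_nonneg_left (h.bd z) (by positivity)
  · rw [integral_const_mul]
    refine (mul_le_mul_of_nonneg_left (hδ y hy) hM).trans_lt ?_
    rw [mul_div_assoc', div_lt_iff₀ (by positivity)]; nlinarith

/-- `norm_ng_sub`, `unif_two_pole`. -/
theorem tendstoUniformlyOn_NG {F : E → ℝ} {M : ℝ} (h : Den F M) {r₀ : ℝ} (hr : 0 < r₀) :
    TendstoUniformlyOn (fun δ => NG δ F) (NG 0 F) (𝓝[>] 0) {y | r₀ ≤ ‖y‖} := by
  have hk := kap_pos (E := E)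
  have hM := h.nonneg
  have := nontrivial_E (E := E)
  refine Metric.tendstoUniformlyOn_iff.2 fun ε hε => ?_
  filter_upwards [unif_two_pole (E := E) (a := kap E + 2) (b := 2 * kap E + 1) (s := kap E + 1)
    (by positivity) (by positivity) ex_a ex_b' ex_ab' hr (by positivity)
    (η := ε / (M * (2 * kap E) + 1)) (by positivity)] with δ hδ y hy
  have hy0 : y ≠ 0 := norm_pos_iff.1 (hr.trans_le hy)
  rw [dist_comm, dist_eq_norm, NG, NG, ← integral_sub (integrable_NG δ h hy0) (integrable_NG 0 h hy0)]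
  refine (norm_integral_le_of_norm_le ((integrable_Dl (s := kap E + 1) (by positivity) δ
    (a := kap E + 2) (b := 2 * kap E + 1) (by positivity) (by positivity) ex_a ex_b' ex_ab'
    hy0).const_mul (M * (2 * kap E))) ?_).trans_lt ?_
  · filter_upwards [compl_mem_ae_iff.2 (measure_singleton y)] with z hz
    rw [← smul_sub, norm_smul, norm_ng_sub δ (sub_ne_zero.2 (Ne.symm hz))]
    have := Dl_nonneg (s := kap E + 1) (by positivity) δ ‖y - z‖
    exact (mul_le_mul_of_nonneg_right (h.bd z) (by positivity)).trans (le_of_eq (by ring))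
  · rw [integral_const_mul]
    refine (mul_le_mul_of_nonneg_left (hδ y hy) (by positivity)).trans_lt ?_
    rw [mul_div_assoc', div_lt_iff₀ (by positivity)]; nlinarith

/-- `hasFDerivAt_of_tendstoUniformlyOn` (needs `∀ δ`; use `hasFDerivAt_of_tendstoUniformlyOnFilter`
or `hasFDerivAt_of_tendstoLocallyUniformlyOn` with `∀ᶠ`) on the open set `{‖y‖/2 < ‖·‖}`. -/
theorem hasGradientAt_NP0 {F : E → ℝ} {M : ℝ} (h : Den F M) {y : E} (hy : y ≠ 0) :
    HasGradientAt (NP 0 F) (NG 0 F y) y := by
  have hr := half_pos (norm_pos_iff.2 hy)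
  have hs : {x : E | ‖y‖ / 2 ≤ ‖x‖} ∈ 𝓝 y :=
    continuous_norm.continuousAt.eventually (le_mem_nhds (half_lt_self (norm_pos_iff.2 hy)))
  have h1 := (InnerProductSpace.toDual ℝ E).isometry.uniformContinuous.comp_tendstoUniformlyOn
    (tendstoUniformlyOn_NG h hr)
  rw [hasGradientAt_iff_hasFDerivAt]
  refine hasFDerivAt_of_tendstoUniformlyOnFilter (l := 𝓝[>] (0 : ℝ)) (f := fun δ => NP δ F)
    (h1.tendstoUniformlyOnFilter.mono_right (le_principal_iff.2 hs)) ?_ ?_
  · filter_upwards [prod_mem_prod self_mem_nhdsWithin univ_mem] with p hp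
    exact (hasGradientAt_NP hp.1 h p.2).hasFDerivAt
  · filter_upwards [hs] with x hx
    exact (tendstoUniformlyOn_NP h hr).tendsto_at hx

/-- `TendstoUniformlyOn.continuousOn`. -/
theorem continuousOn_NG0 {F : E → ℝ} {M : ℝ} (h : Den F M) : ContinuousOn (NG 0 F) {0}ᶜ := by
  intro y hy
  have hy' : y ≠ 0 := hy
  have hs : {x : E | ‖y‖ / 2 ≤ ‖x‖} ∈ 𝓝 y :=
    continuous_norm.continuousAt.eventually (le_mem_nhds (half_lt_self (norm_pos_iff.2 hy')))
  exact (((tendstoUniformlyOn_NG h (half_pos (norm_pos_iff.2 hy'))).continuousOn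
    (Eventually.frequently (f := 𝓝[>] (0 : ℝ)) (eventually_mem_nhdsWithin.mono fun δ hδ =>
      (continuous_NG hδ h).continuousOn))).continuousAt hs).continuousWithinAt

/-- `contDiffOn_succ_iff_fderiv_of_isOpen` / `contDiffOn_one_iff...`. -/
theorem contDiffOn_NP0 {F : E → ℝ} {M : ℝ} (h : Den F M) : ContDiffOn ℝ 1 (NP 0 F) {0}ᶜ := by
  rw [show (1 : WithTop ℕ∞) = 0 + 1 from rfl,
    contDiffOn_succ_iff_fderiv_of_isOpen isOpen_compl_singleton]
  refine ⟨fun y hy => (hasGradientAt_NP0 h hy).differentiableAt.differentiableWithinAt, by simp, ?_⟩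
  rw [contDiffOn_zero]
  exact ((InnerProductSpace.toDual ℝ E).continuous.comp_continuousOn (continuousOn_NG0 h)).congr
    fun y hy => (hasGradientAt_NP0 h hy).hasFDerivAt.fderiv

/-- `exists_two_pole_le` with `r₀ = 1`. -/
theorem exists_NP_le : ∃ C : ℝ, 0 ≤ C ∧ ∀ (F : E → ℝ) (M : ℝ), Den F M → ∀ y : E, 1 ≤ ‖y‖ →
    |NP 0 F y| ≤ C * M ∧ ‖NG 0 F y‖ ≤ C * M := by
  have hk := kap_pos (E := E)
  have := nontrivial_E (E := E)
  obtain ⟨C₁, h1⟩ := exists_two_pole_le (E := E) (a := kap E + 2) (b := 2 * kap E)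
    (by positivity) (by positivity) ex_a ex_b ex_ab one_pos
  obtain ⟨C₂, h2⟩ := exists_two_pole_le (E := E) (a := kap E + 2) (b := 2 * kap E + 1)
    (by positivity) (by positivity) ex_a ex_b' ex_ab' one_pos
  refine ⟨|C₁| + 2 * kap E * |C₂|, by positivity, fun F M h y hy => ?_⟩
  have hM := h.nonneg
  have hy0 : y ≠ 0 := norm_pos_iff.1 (one_pos.trans_le hy)
  have a1 := mul_le_mul_of_nonneg_left ((h1 y hy).trans (le_abs_self _)) hM
  have a2 := mul_le_mul_of_nonneg_left ((h2 y hy).trans (le_abs_self _))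
    (show 0 ≤ M * (2 * kap E) by positivity)
  have a3 : 0 ≤ M * |C₁| := by positivity
  have a4 : 0 ≤ M * (2 * kap E) * |C₂| := by positivity
  rw [← integral_const_mul] at a1 a2
  constructor
  · rw [← Real.norm_eq_abs]
    refine le_trans (norm_integral_le_of_norm_le ((integrable_two_pole (a := kap E + 2)
      (b := 2 * kap E) (by positivity) (by positivity) ex_a ex_b ex_ab hy0).const_mul M) ?_)
      (a1.trans (by linarith))
    filter_upwards [compl_mem_ae_iff.2 (measure_singleton y)] with z hz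
    rw [norm_mul, Real.norm_of_nonneg (nk_nonneg _ _), mul_left_comm]
    exact mul_le_mul (nk_le 0 (sub_ne_zero.2 (Ne.symm hz))) (h.bd z) (abs_nonneg _) (by positivity)
  · refine (norm_integral_le_of_norm_le ((integrable_two_pole (a := kap E + 2) (b := 2 * kap E + 1)
      (by positivity) (by positivity) ex_a ex_b' ex_ab' hy0).const_mul (M * (2 * kap E)))
      (Eventually.of_forall fun z => ?_)).trans (by linarith)
    rw [norm_smul]
    exact (mul_le_mul (h.bd z) (norm_ng_le 0 _) (norm_nonneg _)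
      ((abs_nonneg _).trans (h.bd z))).trans (le_of_eq (by ring))

end Crest.Agent.R246.A
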