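import Crest.Agent.R246.A.New3

/-! Row 246, block A: the Newton kernel is a fundamental solution. -/

set_option autoImplicit false
set_option linter.unusedSectionVars false

open MeasureTheory Metric Filter Topology Set Module
open scoped RealInnerProductSpace ENNReal NNReal ContDiff Real

noncomputable section

namespace Crest.Agent.R246.A

variable {E : Type} [NormedAddCommGroup E] [InnerProductSpace ℝ E] [FiniteDimensional ℝ E]
  [MeasurableSpace E] [BorelSpace E] [hn : Fact (3 ≤ finrank ℝ E)]

/-- For `δ > 0`: `ibp` with `Y y = ng δ (y - z)` gives `∫⟪ng δ (y-z), ∇Φ y⟫ = ∫ nl δ (y-z) Φ y`.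
Let `δ → 0+`: `tendsto_integral_nl` on the right; on the left dominated convergence with the bound
`2κ‖y-z‖^{-(n-1)} · L 1_{tsupport Φ}` (`norm_ng_le`, `Tst.exists_grad`, `norm_ng_sub`,
`tendsto_Dl`; local integrability e.g. from `integrable_hd` or `integrableOn_ball_of_norm_le_rpow`). -/
theorem integral_ng_grad {Φ : E → ℝ} (hΦ : Tst Φ) (z : E) :
    ∫ y, ⟪ng 0 (y - z), gradient Φ y⟫ = cN E * Φ z := by
  have hk := kap_pos (E := E)
  obtain ⟨L, hL⟩ := hΦ.exists_grad
  obtain ⟨B, hB⟩ := hΦ.continuous.bounded_above_of_compact_support hΦ.cpt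
  have key : ∀ δ : ℝ, 0 < δ → ∫ y, nl δ (y - z) * Φ y = ∫ y, ⟪ng δ (y - z), gradient Φ y⟫ := by
    intro δ hδ
    have h1 : ContDiff ℝ 1 fun y : E => ng δ (y - z) :=
      (contDiff_ng hδ).comp (contDiff_id.sub contDiff_const)
    rw [ibp h1.contDiffOn hΦ, ← integral_neg]
    congr 1; funext y
    rw [fderiv_comp_sub, trc_fderiv_ng hδ]; ring
  have t1 := (tendsto_integral_nl hΦ.continuous hB z).congr'
    (eventually_mem_nhdsWithin.mono fun δ hδ => key δ hδ)
  refine tendsto_nhds_unique (l := 𝓝[>] (0 : ℝ)) ?_ t1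
  have hi : Integrable fun y : E => (tsupport Φ).indicator (fun _ => L) y *
      (2 * kap E * ‖y - z‖ ^ (-(2 * kap E + 1))) := by
    obtain ⟨R, hR0, hR⟩ := (hΦ.cpt.isCompact.isBounded.subset_ball_lt 0 z)
    have h1 : Integrable (hd (2 * kap E + 1) 2 (2 * R) : E → ℝ) :=
      integrable_hd (by positivity) (by rw [n_eq]; linarith) (by rw [n_eq]; linarith)
    refine ((h1.comp_sub_right z).const_mul (|L| * (2 * kap E) * R ^ 2)).mono'
      (Measurable.aestronglyMeasurable ((measurable_const.indicator
        (isClosed_tsupport Φ).measurableSet).mul (by fun_prop))) (Eventually.of_forall fun y => ?_)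
    by_cases hy : y ∈ tsupport Φ
    · have h2 : ‖y - z‖ ≤ 2 * R / 2 := by
        have := mem_ball_iff_norm.1 (hR hy); linarith
      rw [indicator_of_mem hy, hd, max_eq_right h2, mul_div_cancel_left₀ _ two_ne_zero,
        Real.rpow_neg hR0.le, Real.rpow_two, norm_mul, Real.norm_eq_abs,
        Real.norm_of_nonneg (by positivity)]
      refine le_of_eq ?_
      field_simp
    · rw [indicator_of_notMem hy, zero_mul, norm_zero]
      have := hd_nonneg (2 * kap E + 1) 2 (r₀ := 2 * R) (by positivity) (y - z)
      positivity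
  refine tendsto_integral_filter_of_dominated_convergence _
    (Eventually.of_forall fun δ => Measurable.aestronglyMeasurable
      (((measurable_ng δ).comp (measurable_id.sub_const z)).inner (measurable_gradient Φ)))
    (Eventually.of_forall fun δ => Eventually.of_forall fun y => ?_) hi ?_
  · refine (norm_inner_le_norm _ _).trans ?_
    rw [mul_comm]
    exact mul_le_mul (hL y) (norm_ng_le δ _) (norm_nonneg _) ((norm_nonneg _).trans (hL y))
  · have := nontrivial_E (E := E)
    filter_upwards [compl_mem_ae_iff.2 (measure_singleton z)] with y hy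
    have hy' : y - z ≠ 0 := sub_ne_zero.2 hy
    refine Tendsto.inner ?_ tendsto_const_nhds
    rw [tendsto_iff_norm_sub_tendsto_zero]
    simp only [norm_ng_sub _ hy']
    simpa using (((tendsto_Dl (kap E + 1) (norm_pos_iff.2 hy')).mul_const
      (‖y - z‖ ^ (-(2 * kap E + 1)))).const_mul (2 * kap E))

/-- Fubini (`integral_integral_swap`): `(y,z) ↦ F z ⟪ng 0 (y-z), ∇Φ y⟫` is integrable on `E × E`
(`integrable_prod_iff`, `exists_two_pole_le` with `r₀ ≤ ‖y‖` on `tsupport Φ`,
`Tst.exists_grad`); `integral_inner`. -/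
theorem newton_weak {F : E → ℝ} {M : ℝ} (h : Den F M) {Φ : E → ℝ} (hΦ : Tst Φ) :
    ∫ y, ⟪NG 0 F y, gradient Φ y⟫ = cN E * ∫ y, F y * Φ y := by
  have hk := kap_pos (E := E)
  have hM := h.nonneg
  obtain ⟨L, hL⟩ := hΦ.exists_grad
  obtain ⟨r₀, hr0, hr⟩ : ∃ r₀ : ℝ, 0 < r₀ ∧ ∀ y ∈ tsupport Φ, r₀ ≤ ‖y‖ := by
    have h0 : (tsupport Φ)ᶜ ∈ 𝓝 (0 : E) :=
      (isClosed_tsupport Φ).isOpen_compl.mem_nhds fun h0 => hΦ.supp h0 rfl
    obtain ⟨r, hr, hb⟩ := Metric.mem_nhds_iff.1 h0
    exact ⟨r, hr, fun y hy => not_lt.1 fun h1 => hb (mem_ball_zero_iff.2 h1) hy⟩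
  have a1 : kap E + 2 < finrank ℝ E := by
    have := three_le_n (E := E); unfold kap; linarith
  have a2 : 2 * kap E + 1 < finrank ℝ E := by rw [n_eq]; linarith
  have a3 : (finrank ℝ E : ℝ) < kap E + 2 + (2 * kap E + 1) := by rw [n_eq]; linarith
  obtain ⟨C, hC⟩ := exists_two_pole_le (E := E) (a := kap E + 2) (b := 2 * kap E + 1)
    (by positivity) (by positivity) a1 a2 a3 hr0
  have hm : Measurable fun p : E × E => F p.2 * ⟪ng 0 (p.1 - p.2), gradient Φ p.1⟫ :=
    (h.meas.comp measurable_snd).mul (((measurable_ng 0).comp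
      (measurable_fst.sub measurable_snd)).inner ((measurable_gradient Φ).comp measurable_fst))
  have e : ∀ y z : E, F z * ⟪ng 0 (y - z), gradient Φ y⟫ = ⟪gradient Φ y, F z • ng 0 (y - z)⟫ :=
    fun y z => by rw [real_inner_smul_right, real_inner_comm]
  have hi : Integrable (Function.uncurry fun y z : E => F z * ⟪ng 0 (y - z), gradient Φ y⟫)
      (volume.prod volume) := by
    refine (integrable_prod_iff hm.aestronglyMeasurable).2 ⟨?_, ?_⟩
    · filter_upwards [ae_ne_zero_vol] with y hy
      simp only [e]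
      exact (integrable_NG 0 h hy).const_inner _
    · have hi2 : Integrable ((tsupport Φ).indicator fun _ : E => L * (M * (2 * kap E) * C)) :=
        (integrable_indicator_iff (isClosed_tsupport Φ).measurableSet).2
          (integrableOn_const hΦ.cpt.isCompact.measure_lt_top.ne)
      refine hi2.mono' hm.aestronglyMeasurable.norm.integral_prod_right'
        (Eventually.of_forall fun y => ?_)
      have hLy := hL y
      by_cases hy : y ∈ tsupport Φ
      · rw [indicator_of_mem hy] at hLy ⊢
        have hL0 := (norm_nonneg _).trans hLy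
        have hy0 : y ≠ 0 := hΦ.supp hy
        rw [Real.norm_of_nonneg (integral_nonneg fun z => norm_nonneg _)]
        have i1 := (integrable_two_pole (a := kap E + 2) (b := 2 * kap E + 1)
          (by positivity) (by positivity) a1 a2 a3 hy0).const_mul (L * (M * (2 * kap E)))
        refine (integral_mono_of_nonneg (Eventually.of_forall fun z => norm_nonneg _) i1
          (Eventually.of_forall fun z => ?_)).trans ?_
        · simp only [norm_mul]
          calc ‖F z‖ * ‖⟪ng 0 (y - z), gradient Φ y⟫‖ ≤ (M * ‖z‖ ^ (-(kap E + 2))) *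
                (2 * kap E * ‖y - z‖ ^ (-(2 * kap E + 1)) * L) :=
                mul_le_mul (h.bd z) ((norm_inner_le_norm _ _).trans (mul_le_mul (norm_ng_le 0 _) hLy
                  (norm_nonneg _) (by positivity))) (norm_nonneg _) (by positivity)
            _ = _ := by ring
        · rw [integral_const_mul, mul_assoc L]
          exact mul_le_mul_of_nonneg_left (mul_le_mul_of_nonneg_left (hC y (hr y hy))
            (by positivity)) hL0
      · rw [indicator_of_notMem hy] at hLy ⊢
        simp [norm_le_zero_iff.1 hLy]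
  have h1 := integral_integral_swap hi
  simp only [integral_const_mul, integral_ng_grad hΦ] at h1
  have h2 : ∫ z, F z * (cN E * Φ z) = cN E * ∫ y, F y * Φ y := by
    rw [← integral_const_mul]; congr 1; funext z; ring
  rw [← h2, ← h1]
  refine integral_congr_ae ?_
  filter_upwards [ae_ne_zero_vol] with y hy
  simp only [e]
  rw [integral_inner (integrable_NG 0 h hy), real_inner_comm]
  rfl

end Crest.Agent.R246.A
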