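import Crest.Agent.R246.A.Gauss
import Crest.Agent.R246.A.Lip

/-! Row 246, block A: Pisier's inequality with the weight `‖g₁ + g₂‖²`. -/

set_option autoImplicit false
set_option linter.unusedSectionVars false

open MeasureTheory Metric Filter Topology Set Module
open scoped RealInnerProductSpace ENNReal NNReal ContDiff Real

noncomputable section

namespace Crest.Agent.R246.A
open ProbabilityTheory (stdGaussian gaussianReal)

variable {E : Type} [NormedAddCommGroup E] [InnerProductSpace ℝ E] [FiniteDimensional ℝ E]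
  [MeasurableSpace E] [BorelSpace E] [hn : Fact (3 ≤ finrank ℝ E)]

/-- difference quotient along the rotation -/
def dq (v : X E) (h : ℝ) (z : E × E) : ℝ :=
  |ext v (Real.cos h • z.1 + Real.sin h • z.2) - ext v z.1| / h

theorem measurable_dq (v : X E) (h : ℝ) : Measurable (dq v h) :=
  (continuous_abs.measurable.comp (((measurable_ext v).comp (by fun_prop)).sub
    ((measurable_ext v).comp measurable_fst))).div_const h

theorem dq_nonneg (v : X E) {h : ℝ} (hh : 0 < h) (z : E × E) : 0 ≤ dq v h z := by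
  unfold dq; positivity

theorem ae_ne_zero_std : ∀ᵐ y ∂stdGaussian E, y ≠ 0 := std_ac (ac_mu ae_ne_zero_mu)

theorem ae_fst_ne_zero : ∀ᵐ z ∂(stdGaussian E).prod (stdGaussian E), z.1 ≠ 0 :=
  Measure.quasiMeasurePreserving_fst.ae ae_ne_zero_std

theorem measurable_abs_inner (v : X E) :
    Measurable fun z : E × E => |⟪gradient (ext v) z.1, z.2⟫| :=
  continuous_abs.measurable.comp
    (((measurable_gradient _).comp measurable_fst).inner measurable_snd)

theorem w1_le (z : E × E) : |‖z.1‖ ^ 2| ≤ ‖z.1‖ ^ 2 + ‖z.2‖ ^ 2 := by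
  rw [abs_of_nonneg (sq_nonneg _)]; linarith [sq_nonneg ‖z.2‖]

theorem w2_le (z : E × E) : |‖z.2‖ ^ 2| ≤ ‖z.1‖ ^ 2 + ‖z.2‖ ^ 2 := by
  rw [abs_of_nonneg (sq_nonneg _)]; linarith [sq_nonneg ‖z.1‖]

theorem w3_le (z : E × E) : |⟪z.1, z.2⟫| ≤ ‖z.1‖ ^ 2 + ‖z.2‖ ^ 2 := by
  have := abs_real_inner_le_norm z.1 z.2
  nlinarith [sq_nonneg (‖z.1‖ - ‖z.2‖), mul_nonneg (norm_nonneg z.1) (norm_nonneg z.2)]

theorem integrable_w_dq (v : X E) {h : ℝ} (hh : 0 < h) {w : E × E → ℝ} (hw : Continuous w)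
    (hb : ∀ z, |w z| ≤ ‖z.1‖ ^ 2 + ‖z.2‖ ^ 2) :
    Integrable (fun z => w z * dq v h z) ((stdGaussian E).prod (stdGaussian E)) := by
  have ip := integrable_norm_pow_std (E := E)
  refine ((((ip 2).mul_prod (ip 0)).add ((ip 0).mul_prod (ip 2))).mul_const (2 * ‖v‖ / h)).mono'
    (hw.measurable.mul (measurable_dq v h)).aestronglyMeasurable
    (Eventually.of_forall fun z => ?_)
  rw [norm_mul, Real.norm_of_nonneg (dq_nonneg v hh z)]
  refine mul_le_mul (by simpa using hb z) ?_ (dq_nonneg v hh z) (by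
    simp only [Pi.add_apply]; positivity)
  refine div_le_div_of_nonneg_right ((abs_sub _ _).trans ?_) hh.le
  linarith [abs_ext_le v (Real.cos h • z.1 + Real.sin h • z.2), abs_ext_le v z.1]

theorem sin_step_pos {N : ℕ} (hN : 0 < N) : 0 < Real.sin (π / 2 / N) := by
  have hp := Real.pi_pos
  have h1 : (1 : ℝ) ≤ N := by exact_mod_cast hN
  refine Real.sin_pos_of_pos_of_lt_pi (by positivity) ?_
  calc π / 2 / N ≤ π / 2 := div_le_self (by positivity) h1
    _ < π := by linarith

/-- dominated convergence: for a.e. `z` (`Lip.ae_diff`, `std_ac`) the chain rule gives the pointwise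
limit; `‖cos h • a + sin h • b - a‖ ≤ h (‖a‖ + ‖b‖)` and `Lip.exists_bound` give the bound
`L (‖a‖²+‖b‖²)(1 + ‖b‖ ‖a‖⁻¹)`, integrable by `Integrable.mul_prod`. -/
theorem tendsto_dq {v : X E} (hv : Lip v) {w : E × E → ℝ} (hw : Continuous w)
    (hb : ∀ z, |w z| ≤ ‖z.1‖ ^ 2 + ‖z.2‖ ^ 2) :
    Tendsto (fun h => ∫ z, w z * dq v h z ∂(stdGaussian E).prod (stdGaussian E)) (𝓝[>] 0)
      (𝓝 (∫ z, w z * |⟪gradient (ext v) z.1, z.2⟫| ∂(stdGaussian E).prod (stdGaussian E))) := by
  obtain ⟨L, hL0, hL⟩ := hv.exists_bound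
  have ip := integrable_norm_pow_std (E := E)
  refine tendsto_integral_filter_of_dominated_convergence
    (fun z => L * (‖z.1‖ ^ 2 * ‖z.2‖ ^ 0 + ‖z.1‖ ^ 0 * ‖z.2‖ ^ 2 + ‖z.1‖ ^ 1 * ‖z.2‖ ^ 1 +
      ‖z.1‖⁻¹ * ‖z.2‖ ^ 3))
    (Eventually.of_forall fun h => (hw.measurable.mul (measurable_dq v h)).aestronglyMeasurable) ?_
    ((((((ip 2).mul_prod (ip 0)).add ((ip 0).mul_prod (ip 2))).add ((ip 1).mul_prod (ip 1))).add
      (integrable_norm_inv_std.mul_prod (ip 3))).const_mul L) ?_
  · filter_upwards [self_mem_nhdsWithin] with h hh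
    have hh' : 0 < h := hh
    filter_upwards [ae_fst_ne_zero] with z hz
    have hp := norm_pos_iff.2 hz
    have h1 : ‖Real.cos h • z.1 + Real.sin h • z.2 - z.1‖ ≤ h * (‖z.1‖ + ‖z.2‖) := by
      have e : Real.cos h • z.1 + Real.sin h • z.2 - z.1 =
          (Real.cos h - Real.cos 0) • z.1 + Real.sin h • z.2 := by
        rw [Real.cos_zero]; module
      rw [e]
      refine (norm_add_le _ _).trans ?_
      rw [norm_smul, norm_smul, Real.norm_eq_abs, Real.norm_eq_abs, mul_add]
      have a1 := Real.abs_cos_sub_cos_le h 0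
      have a2 := Real.abs_sin_le_abs (x := h)
      rw [sub_zero] at a1
      rw [abs_of_pos hh'] at a1 a2
      gcongr
    have h2 : dq v h z ≤ L * (‖z.1‖ + ‖z.2‖) / ‖z.1‖ := by
      rw [dq, div_le_iff₀ hh']
      refine (hL _ _ hz).trans ?_
      calc _ ≤ L * (h * (‖z.1‖ + ‖z.2‖)) / ‖z.1‖ := by gcongr
        _ = _ := by ring
    rw [norm_mul, Real.norm_of_nonneg (dq_nonneg v hh' z)]
    refine (mul_le_mul (hb z) h2 (dq_nonneg v hh' z) (by positivity)).trans (le_of_eq ?_)
    field_simp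
    ring
  · filter_upwards [Measure.quasiMeasurePreserving_fst.ae (std_ac hv.ae_diff)] with z hz
    refine Tendsto.const_mul _ ?_
    have h1 : HasDerivAt (fun h => Real.cos h • z.1 + Real.sin h • z.2) z.2 0 := by
      refine (((Real.hasDerivAt_cos 0).smul_const z.1).add
        ((Real.hasDerivAt_sin 0).smul_const z.2)).congr_deriv ?_
      simp
    have h2 := hz.hasFDerivAt.comp_hasDerivAt_of_eq (0 : ℝ) h1 (by simp)
    have h3 := h2.tendsto_slope_zero_right.abs
    rw [inner_gradient_eq]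
    refine h3.congr' ?_
    filter_upwards [self_mem_nhdsWithin] with h hh
    have hh' : 0 < h := hh
    simp only [dq, Function.comp, zero_add, Real.cos_zero, Real.sin_zero, one_smul, zero_smul,
      add_zero, smul_eq_mul, abs_mul, abs_inv, abs_of_pos hh']
    ring

/-- `2 sin h · sin (2kh) = cos ((2k-1)h) - cos ((2k+1)h)`, `N h = π/2`. -/
theorem sum_sin {N : ℕ} (hN : 0 < N) :
    Real.sin (π / 2 / N) * ∑ k ∈ Finset.range N, Real.sin (2 * (k * (π / 2 / N))) =
      Real.cos (π / 2 / N) := by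
  have key : ∀ (h : ℝ) (M : ℕ), Real.sin h * ∑ k ∈ Finset.range M, Real.sin (2 * (k * h)) =
      (Real.cos h - Real.cos (2 * (M * h) - h)) / 2 := by
    intro h M
    induction M with
    | zero => simp
    | succ M ih =>
      rw [Finset.sum_range_succ, mul_add, ih,
        show 2 * (((M + 1 : ℕ) : ℝ) * h) - h = 2 * (M * h) + h by push_cast; ring,
        Real.cos_add, Real.cos_sub]
      ring
  have hN' : (N : ℝ) ≠ 0 := by positivity
  rw [key, show 2 * ((N : ℝ) * (π / 2 / N)) = π by field_simp, Real.cos_pi_sub]; ring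

theorem sum_cos {N : ℕ} (hN : 0 < N) :
    ∑ k ∈ Finset.range N, Real.cos (2 * (k * (π / 2 / N))) = 1 := by
  have key : ∀ (h : ℝ) (M : ℕ), Real.sin h * ∑ k ∈ Finset.range M, Real.cos (2 * (k * h)) =
      (Real.sin h + Real.sin (2 * (M * h) - h)) / 2 := by
    intro h M
    induction M with
    | zero => simp
    | succ M ih =>
      rw [Finset.sum_range_succ, mul_add, ih,
        show 2 * (((M + 1 : ℕ) : ℝ) * h) - h = 2 * (M * h) + h by push_cast; ring,
        Real.sin_add, Real.sin_sub]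
      ring
  have hN' : (N : ℝ) ≠ 0 := by positivity
  refine mul_left_cancel₀ (sin_step_pos hN).ne' ?_
  rw [key, show 2 * ((N : ℝ) * (π / 2 / N)) = π by field_simp, Real.sin_pi_sub]; ring

/-- one step: substitute `(a,b) = rotation t (g₁,g₂)` (`IsGaussian.map_rotation_eq_self`,
`ContinuousLinearMap.rotation`): `g₁ = cos t a - sin t b`, `g₂ = sin t a + cos t b`,
`cos(t+h) g₁ + sin(t+h) g₂ = cos h a + sin h b`. -/
theorem pis_step (v : X E) (t : ℝ) {h : ℝ} (hh : 0 < h) :
    ∫ z, ‖z.1 + z.2‖ ^ 2 * |ext v (Real.cos (t + h) • z.1 + Real.sin (t + h) • z.2) -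
        ext v (Real.cos t • z.1 + Real.sin t • z.2)| ∂(stdGaussian E).prod (stdGaussian E) =
      h * ((1 + Real.sin (2 * t)) * (∫ z, ‖z.1‖ ^ 2 * dq v h z ∂(stdGaussian E).prod (stdGaussian E))
        + (1 - Real.sin (2 * t)) * (∫ z, ‖z.2‖ ^ 2 * dq v h z ∂(stdGaussian E).prod (stdGaussian E))
        + 2 * Real.cos (2 * t) *
          ∫ z, ⟪z.1, z.2⟫ * dq v h z ∂(stdGaussian E).prod (stdGaussian E)) := by
  have : CompleteSpace E := FiniteDimensional.complete ℝ E
  have hmap := ProbabilityTheory.IsGaussian.map_rotation_eq_self (μ := stdGaussian E)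
    ProbabilityTheory.integral_id_stdGaussian t
  have i1 := (integrable_w_dq v hh (w := fun z => ‖z.1‖ ^ 2) (by fun_prop) w1_le).const_mul
    (1 + Real.sin (2 * t))
  have i2 := (integrable_w_dq v hh (w := fun z => ‖z.2‖ ^ 2) (by fun_prop) w2_le).const_mul
    (1 - Real.sin (2 * t))
  have i3 := (integrable_w_dq v hh (w := fun z => ⟪z.1, z.2⟫) (by fun_prop) w3_le).const_mul
    (2 * Real.cos (2 * t))
  have i12 : Integrable (fun z : E × E => (1 + Real.sin (2 * t)) * (‖z.1‖ ^ 2 * dq v h z) +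
      (1 - Real.sin (2 * t)) * (‖z.2‖ ^ 2 * dq v h z)) ((stdGaussian E).prod (stdGaussian E)) :=
    i1.add i2
  have i123 : Integrable (fun z : E × E => h * ((1 + Real.sin (2 * t)) * (‖z.1‖ ^ 2 * dq v h z) +
      (1 - Real.sin (2 * t)) * (‖z.2‖ ^ 2 * dq v h z) +
      2 * Real.cos (2 * t) * (⟪z.1, z.2⟫ * dq v h z))) ((stdGaussian E).prod (stdGaussian E)) :=
    (i12.add i3).const_mul h
  rw [← integral_const_mul, ← integral_const_mul, ← integral_const_mul, ← integral_add i1 i2,
    ← integral_add i12 i3, ← integral_const_mul]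
  conv_rhs => rw [← hmap]
  rw [integral_map (ContinuousLinearMap.rotation t).continuous.aemeasurable
    (by rw [hmap]; exact i123.aestronglyMeasurable)]
  congr 1; funext z
  simp only [ContinuousLinearMap.rotation_apply, dq]
  have hs := Real.sin_sq_add_cos_sq t
  have e1 : Real.cos h • (Real.cos t • z.1 + Real.sin t • z.2) +
      Real.sin h • (-Real.sin t • z.1 + Real.cos t • z.2) =
      Real.cos (t + h) • z.1 + Real.sin (t + h) • z.2 := by
    rw [Real.cos_add, Real.sin_add]; module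
  have e2 : z.1 + z.2 = (Real.cos t + Real.sin t) • (Real.cos t • z.1 + Real.sin t • z.2) +
      (Real.cos t - Real.sin t) • (-Real.sin t • z.1 + Real.cos t • z.2) := by
    match_scalars <;> linear_combination -hs
  rw [e1, e2, norm_add_sq_real, norm_smul, norm_smul, real_inner_smul_left, real_inner_smul_right,
    mul_pow, mul_pow, Real.norm_eq_abs, Real.norm_eq_abs, sq_abs, sq_abs, Real.sin_two_mul,
    Real.cos_two_mul']
  generalize ‖Real.cos t • z.1 + Real.sin t • z.2‖ ^ 2 = A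
  generalize ‖-Real.sin t • z.1 + Real.cos t • z.2‖ ^ 2 = B
  generalize ⟪Real.cos t • z.1 + Real.sin t • z.2, -Real.sin t • z.1 + Real.cos t • z.2⟫ = C
  generalize |ext v (Real.cos (t + h) • z.1 + Real.sin (t + h) • z.2) -
    ext v (Real.cos t • z.1 + Real.sin t • z.2)| = D
  field_simp
  linear_combination (D * (A + B)) * hs

/-- `integral_prod`, `integral_abs_inner_std`; then `std_indep` for the `Hom0` function
`‖y‖ ‖∇v y‖` with `a r = r` and `a r = r⁻¹`, `integral_norm_std`. -/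
theorem pis_A {v : X E} (hv : Lip v) :
    ∫ z, ‖z.1‖ ^ 2 * |⟪gradient (ext v) z.1, z.2⟫| ∂(stdGaussian E).prod (stdGaussian E) =
      ((finrank ℝ E : ℝ) - 1) * (√(2 / π) * ∫ y, ‖gradient (ext v) y‖ ∂stdGaussian E) := by
  obtain ⟨L, hL⟩ := hv.exists_grad
  have ip := integrable_norm_pow_std (E := E)
  have hi : Integrable (fun z : E × E => ‖z.1‖ ^ 2 * |⟪gradient (ext v) z.1, z.2⟫|)
      ((stdGaussian E).prod (stdGaussian E)) := by
    refine (((ip 1).mul_prod (ip 1)).const_mul L).mono'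
      (((measurable_fst.norm.pow_const 2).mul (measurable_abs_inner v)).aestronglyMeasurable)
      (Eventually.of_forall fun z => ?_)
    rw [Real.norm_of_nonneg (by positivity)]
    calc _ ≤ ‖z.1‖ ^ 2 * (‖gradient (ext v) z.1‖ * ‖z.2‖) :=
          mul_le_mul_of_nonneg_left (abs_real_inner_le_norm _ _) (by positivity)
      _ = (‖z.1‖ * ‖gradient (ext v) z.1‖) * (‖z.1‖ ^ 1 * ‖z.2‖ ^ 1) := by ring
      _ ≤ _ := mul_le_mul_of_nonneg_right (hL _) (by positivity)
  rw [integral_prod _ hi]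
  simp only [integral_const_mul, integral_abs_inner_std]
  have h0 : Hom0 fun y : E => ‖y‖ * ‖gradient (ext v) y‖ := fun t ht y => by
    simp only [(ext_hom0 v).gradient_smul ht, norm_smul, norm_inv, Real.norm_of_nonneg ht.le]
    field_simp
  have h1 := std_indep h0 fun r => r
  have h2 := std_indep h0 fun r => r⁻¹
  have h3 : ∫ y, ‖gradient (ext v) y‖ ∂stdGaussian E =
      ∫ y, ‖y‖⁻¹ * (‖y‖ * ‖gradient (ext v) y‖) ∂stdGaussian E := by
    refine integral_congr_ae ?_
    filter_upwards [ae_ne_zero_std] with y hy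
    rw [← mul_assoc, inv_mul_cancel₀ (norm_ne_zero_iff.2 hy), one_mul]
  have h4 : ∫ y, ‖y‖ ^ 2 * (√(2 / π) * ‖gradient (ext v) y‖) ∂stdGaussian E =
      √(2 / π) * ∫ y, ‖y‖ * (‖y‖ * ‖gradient (ext v) y‖) ∂stdGaussian E := by
    rw [← integral_const_mul]; congr 1; funext y; ring
  rw [h4, h3, h1, h2, integral_norm_std]; ring

theorem pis_B {v : X E} (hv : Lip v) :
    ∫ z, ‖z.2‖ ^ 2 * |⟪gradient (ext v) z.1, z.2⟫| ∂(stdGaussian E).prod (stdGaussian E) =
      ((finrank ℝ E : ℝ) + 1) * (√(2 / π) * ∫ y, ‖gradient (ext v) y‖ ∂stdGaussian E) := by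
  obtain ⟨L, hL⟩ := hv.exists_grad
  have ip := integrable_norm_pow_std (E := E)
  have hi : Integrable (fun z : E × E => ‖z.2‖ ^ 2 * |⟪gradient (ext v) z.1, z.2⟫|)
      ((stdGaussian E).prod (stdGaussian E)) := by
    refine ((integrable_norm_inv_std.mul_prod (ip 3)).const_mul L).mono'
      (((measurable_snd.norm.pow_const 2).mul (measurable_abs_inner v)).aestronglyMeasurable) ?_
    filter_upwards [ae_fst_ne_zero] with z hz
    have hp := norm_pos_iff.2 hz
    rw [Real.norm_of_nonneg (by positivity)]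
    calc _ ≤ ‖z.2‖ ^ 2 * (‖gradient (ext v) z.1‖ * ‖z.2‖) :=
          mul_le_mul_of_nonneg_left (abs_real_inner_le_norm _ _) (by positivity)
      _ = (‖z.1‖ * ‖gradient (ext v) z.1‖) * (‖z.1‖⁻¹ * ‖z.2‖ ^ 3) := by field_simp
      _ ≤ _ := mul_le_mul_of_nonneg_right (hL _) (by positivity)
  rw [integral_prod _ hi]
  simp only [integral_const_mul, integral_sq_abs_inner_std]

/-- telescope over `t = k h`, `h = π/2/N`, sum `pis_step`, use `sum_sin`, `sum_cos`, and let
`N → ∞` (`tendsto_dq`, `h cos h / sin h → 1`): the bound tends to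
`(π/2+1) A + (π/2-1) B + 0`. -/
theorem pisier {v : X E} (hv : Lip v) :
    ∫ z, ‖z.1 + z.2‖ ^ 2 * |ext v z.1 - ext v z.2| ∂(stdGaussian E).prod (stdGaussian E) ≤
      (π * finrank ℝ E - 2) * (√(2 / π) * ∫ y, ‖gradient (ext v) y‖ ∂stdGaussian E) := by
  set A : ℝ → ℝ := fun h => ∫ z, ‖z.1‖ ^ 2 * dq v h z ∂(stdGaussian E).prod (stdGaussian E) with hA
  set B : ℝ → ℝ := fun h => ∫ z, ‖z.2‖ ^ 2 * dq v h z ∂(stdGaussian E).prod (stdGaussian E) with hB
  set C : ℝ → ℝ := fun h => ∫ z, ⟪z.1, z.2⟫ * dq v h z ∂(stdGaussian E).prod (stdGaussian E) with hC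
  have tA := tendsto_dq hv (w := fun z => ‖z.1‖ ^ 2) (by fun_prop) w1_le
  have tB := tendsto_dq hv (w := fun z => ‖z.2‖ ^ 2) (by fun_prop) w2_le
  have tC := tendsto_dq hv (w := fun z => ⟪z.1, z.2⟫) (by fun_prop) w3_le
  rw [pis_A hv] at tA
  rw [pis_B hv] at tB
  have t0 : Tendsto (fun h : ℝ => h) (𝓝[>] 0) (𝓝 0) := nhdsWithin_le_nhds
  have t1 : Tendsto (fun h : ℝ => h * (Real.cos h / Real.sin h)) (𝓝[>] 0) (𝓝 1) := by
    have a1 := ((Real.hasDerivAt_sin 0).tendsto_slope_zero_right.inv₀ (by simp)).mul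
      ((Real.continuous_cos.tendsto 0).comp t0)
    simp only [Real.cos_zero, inv_one, mul_one] at a1
    refine a1.congr fun h => ?_
    simp only [zero_add, Real.sin_zero, sub_zero, smul_eq_mul, mul_inv, inv_inv, Function.comp]
    ring
  have tg := ((((tendsto_const_nhds (x := π / 2)).add t1).mul tA).add
    (((tendsto_const_nhds (x := π / 2)).sub t1).mul tB)).add ((t0.const_mul 2).mul tC)
  have tN : Tendsto (fun N : ℕ => π / 2 / (N : ℝ)) atTop (𝓝[>] 0) := by
    refine tendsto_nhdsWithin_iff.2 ⟨tendsto_const_div_atTop_nhds_zero_nat _, ?_⟩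
    filter_upwards [eventually_gt_atTop 0] with N hN
    have := Real.pi_pos
    exact mem_Ioi.2 (by positivity)
  refine le_of_le_of_eq (ge_of_tendsto (tg.comp tN) ?_) (by ring)
  filter_upwards [eventually_gt_atTop 0] with N hN
  have hp := Real.pi_pos
  have hN' : (0 : ℝ) < N := by positivity
  set h : ℝ := π / 2 / N with hh
  have hh0 : 0 < h := by positivity
  have hNh : (N : ℝ) * h = π / 2 := by rw [hh]; field_simp
  have ip := integrable_norm_pow_std (E := E)
  set f : ℕ → E × E → ℝ := fun k z =>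
    ext v (Real.cos (k * h) • z.1 + Real.sin (k * h) • z.2) with hf
  have mf : ∀ k, Measurable (f k) := fun k => (measurable_ext v).comp (by fun_prop)
  have hi : ∀ k, Integrable (fun z : E × E => ‖z.1 + z.2‖ ^ 2 * |f (k + 1) z - f k z|)
      ((stdGaussian E).prod (stdGaussian E)) := fun k => by
    refine (((((ip 2).mul_prod (ip 0)).add ((ip 0).mul_prod (ip 2))).const_mul 2).mul_const
      (2 * ‖v‖)).mono' (((measurable_fst.add measurable_snd).norm.pow_const 2).mul
        (continuous_abs.measurable.comp ((mf _).sub (mf _)))).aestronglyMeasurable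
      (Eventually.of_forall fun z => ?_)
    rw [Real.norm_of_nonneg (by positivity)]
    refine mul_le_mul ?_ ((abs_sub _ _).trans ?_) (abs_nonneg _)
      (by simp only [Pi.add_apply]; positivity)
    · have := pow_le_pow_left₀ (norm_nonneg _) (norm_add_le z.1 z.2) 2
      simp only [Pi.add_apply, pow_zero]
      nlinarith [sq_nonneg (‖z.1‖ - ‖z.2‖)]
    · have a1 := abs_ext_le v (Real.cos ((k + 1 : ℕ) * h) • z.1 + Real.sin ((k + 1 : ℕ) * h) • z.2)
      have a2 := abs_ext_le v (Real.cos (k * h) • z.1 + Real.sin (k * h) • z.2)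
      simp only [hf]
      linarith
  have h1 : ∫ z, ‖z.1 + z.2‖ ^ 2 * |ext v z.1 - ext v z.2| ∂(stdGaussian E).prod (stdGaussian E) ≤
      ∑ k ∈ Finset.range N, ∫ z, ‖z.1 + z.2‖ ^ 2 * |f (k + 1) z - f k z|
        ∂(stdGaussian E).prod (stdGaussian E) := by
    rw [← integral_finsetSum _ fun k _ => hi k]
    refine integral_mono_of_nonneg
      (Eventually.of_forall fun z => mul_nonneg (sq_nonneg _) (abs_nonneg _))
      (integrable_finsetSum _ fun k _ => hi k) (Eventually.of_forall fun z => ?_)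
    simp only
    rw [← Finset.mul_sum]
    refine mul_le_mul_of_nonneg_left (le_trans (le_of_eq ?_) (Finset.abs_sum_le_sum_abs _ _))
      (by positivity)
    rw [Finset.sum_range_sub (fun k => f k z), abs_sub_comm]
    simp [hf, hNh]
  have h2 : ∀ k : ℕ, ∫ z, ‖z.1 + z.2‖ ^ 2 * |f (k + 1) z - f k z|
      ∂(stdGaussian E).prod (stdGaussian E) = h * (A h + B h) +
        h * (A h - B h) * Real.sin (2 * (k * h)) + 2 * h * C h * Real.cos (2 * (k * h)) := fun k => by
    have := pis_step v (k * h) hh0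
    simp only [hf, Nat.cast_succ, add_mul, one_mul]
    rw [this]; ring
  simp only [h2, Finset.sum_add_distrib, Finset.sum_const, Finset.card_range, nsmul_eq_mul,
    ← Finset.mul_sum] at h1
  have s1 := sum_sin hN
  have s2 := sum_cos hN
  rw [← hh] at s1 s2
  have s3 : ∑ k ∈ Finset.range N, Real.sin (2 * (k * h)) = Real.cos h / Real.sin h := by
    rw [← s1, mul_div_cancel_left₀ _ (sin_step_pos hN).ne']
  rw [s2, s3, ← mul_assoc, hNh] at h1
  refine h1.trans (le_of_eq ?_)
  simp only [Function.comp, ← hh]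
  ring

end Crest.Agent.R246.A
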