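import Crest.Agent.R246.A.Defs

/-! Row 246, block A: the truncated potential (one-variable facts). -/

set_option autoImplicit false
set_option linter.unusedSectionVars false

open MeasureTheory Metric Filter Topology Set Module
open scoped RealInnerProductSpace ENNReal NNReal ContDiff Real

noncomputable section

namespace Crest.Agent.R246.A

theorem sig_pos : 0 < sig := by unfold sig; positivity

theorem neg_one_le_cl1 (u : ℝ) : -1 ≤ cl1 u := le_max_left _ _

theorem cl1_le_one (u : ℝ) : cl1 u ≤ 1 := max_le (by norm_num) (min_le_right _ _)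

theorem cl1_of_abs_le {u : ℝ} (h : |u| ≤ 1) : cl1 u = u := by
  have := abs_le.1 h
  unfold cl1; rw [min_eq_left this.2, max_eq_right this.1]

theorem continuous_cl1 : Continuous cl1 := by unfold cl1; fun_prop

theorem continuous_gg : Continuous gg := by unfold gg cl1; fun_prop

theorem continuous_Wt : Continuous Wt := by unfold Wt W cl1; fun_prop

theorem gg_zero : gg 0 = 0 := by simp [gg, cl1]

theorem Wt_nonneg (u : ℝ) : 0 ≤ Wt u := by unfold Wt W; positivity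

theorem Wt_eq {u : ℝ} (h : |u| ≤ 1) : Wt u = W u := by simp [Wt, cl1_of_abs_le h]

theorem gg_eq {u : ℝ} (h : |u| ≤ 1) : gg u = 3 * u - u ^ 3 := by simp [gg, cl1_of_abs_le h]

theorem pot_cases (u : ℝ) : cl1 u = u ∨ (cl1 u = 1 ∧ 1 ≤ u) ∨ (cl1 u = -1 ∧ u ≤ -1) := by
  unfold cl1
  rcases le_total u 1 with h | h
  · rcases le_total (-1) u with h' | h'
    · left; rw [min_eq_left h, max_eq_right h']
    · right; right; rw [min_eq_left h, max_eq_left h']; exact ⟨rfl, h'⟩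
  · right; left; rw [min_eq_right h, max_eq_right (by norm_num)]; exact ⟨rfl, h⟩

theorem pot_lip (u v : ℝ) : |cl1 u - cl1 v| ≤ |u - v| := by
  unfold cl1
  rw [max_comm, max_comm (-1)]
  refine (abs_max_sub_max_le_abs _ _ _).trans ?_
  simpa using abs_min_sub_min_le_max u 1 v 1

/-- `2 - (3c - c³) = (1-c)²(2+c)`. -/
theorem abs_gg_le (u : ℝ) : |gg u| ≤ 2 := by
  have h1 := neg_one_le_cl1 u
  have h2 := cl1_le_one u
  unfold gg
  rw [abs_le]
  constructor
  · nlinarith [mul_nonneg (sq_nonneg (1 + cl1 u)) (show 0 ≤ 2 - cl1 u by linarith)]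
  · nlinarith [mul_nonneg (sq_nonneg (1 - cl1 u)) (show 0 ≤ 2 + cl1 u by linarith)]

/-- `gg u - gg v = (c-c')(3 - c² - cc' - c'²)`, the second factor lies in `[0,3]`, `cl1` is
1-Lipschitz (`abs_max_sub_max_le_abs`, `abs_min_sub_min_le_max` or cases). -/
theorem abs_gg_sub_le (u v : ℝ) : |gg u - gg v| ≤ 3 * |u - v| := by
  have h1 := neg_one_le_cl1 u
  have h2 := cl1_le_one u
  have h3 := neg_one_le_cl1 v
  have h4 := cl1_le_one v
  have e : gg u - gg v = (3 - cl1 u ^ 2 - cl1 u * cl1 v - cl1 v ^ 2) * (cl1 u - cl1 v) := by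
    unfold gg; ring
  rw [e, abs_mul]
  refine mul_le_mul (abs_le.2 ⟨?_, ?_⟩) (pot_lip u v) (abs_nonneg _) (by norm_num)
  · nlinarith
  · nlinarith [sq_nonneg (cl1 u + cl1 v)]

/-- Off `±1` by `EventuallyEq` with a polynomial / a constant.  At `u = ±1`:
`|gg v - gg u| ≤ 3 (v-u)²` (`2 - gg v = (1-c)²(2+c)`, `|1-c| ≤ |v-1|`), so the derivative is `0`
(`hasDerivAt_iff_isLittleO`, or `HasFDerivAt` from a quadratic bound). -/
theorem hasDerivAt_gg (u : ℝ) : HasDerivAt gg (3 * (1 - cl1 u ^ 2)) u := by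
  have hev : ∀ᶠ v in 𝓝 u, (1 - cl1 u ^ 2) * (cl1 v - cl1 u - (v - u)) = 0 := by
    by_cases h : |u| < 1
    · filter_upwards [(isOpen_lt continuous_abs continuous_const).mem_nhds h] with v hv
      rw [cl1_of_abs_le h.le, cl1_of_abs_le (le_of_lt hv), sub_self, mul_zero]
    · refine Eventually.of_forall fun v => mul_eq_zero_of_left ?_ _
      rcases pot_cases u with h' | h' | h'
      · have : |u| = 1 := le_antisymm (h' ▸ abs_le.2 ⟨neg_one_le_cl1 u, cl1_le_one u⟩) (not_lt.1 h)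
        rw [h', ← sq_abs, this]; norm_num
      · rw [h'.1]; norm_num
      · rw [h'.1]; norm_num
  rw [hasDerivAt_iff_isLittleO]
  refine (Asymptotics.IsBigO.of_bound 3 (hev.mono fun v hv => ?_)).trans_isLittleO
    (Asymptotics.isLittleO_pow_sub_sub u one_lt_two)
  have e : gg v - gg u - (v - u) • (3 * (1 - cl1 u ^ 2)) =
      -(2 * cl1 u + cl1 v) * (cl1 v - cl1 u) ^ 2 := by
    unfold gg
    rw [smul_eq_mul]
    linear_combination 3 * hv
  rw [e, norm_mul, norm_pow, norm_pow, norm_norm]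
  refine mul_le_mul (abs_le.2 ⟨?_, ?_⟩) (pow_le_pow_left₀ (norm_nonneg _) (pot_lip v u) 2)
    (by positivity) (by norm_num)
  · linarith [cl1_le_one u, cl1_le_one v]
  · linarith [neg_one_le_cl1 u, neg_one_le_cl1 v]

/-- `contDiff_one_iff_deriv`. -/
theorem contDiff_gg : ContDiff ℝ 1 gg := by
  refine contDiff_one_iff_deriv.2 ⟨fun u => (hasDerivAt_gg u).differentiableAt, ?_⟩
  rw [show deriv gg = fun u => 3 * (1 - cl1 u ^ 2) from funext fun u => (hasDerivAt_gg u).deriv]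
  have := continuous_cl1
  fun_prop

/-- convexity of `u² - Wt u` (its derivative `gg` is monotone as `gg' ≥ 0`); e.g. show
`HasDerivAt Wt (2u - gg u) u` and use monotonicity of `w ↦ ...` / the mean value theorem, or a case
analysis with `nlinarith`. -/
theorem Wt_add_le (u w : ℝ) : Wt (u + w) ≤ Wt u + (2 * u - gg u) * w + w ^ 2 := by
  have h1 := neg_one_le_cl1 u
  have h2 := cl1_le_one u
  have h3 := neg_one_le_cl1 (u + w)
  have h4 := cl1_le_one (u + w)
  have k : ∀ t, (1 - cl1 t ^ 2) * (t - cl1 t) = 0 := fun t => by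
    rcases pot_cases t with h | h | h
    · rw [h, sub_self, mul_zero]
    · rw [h.1]; norm_num
    · rw [h.1]; norm_num
  have a1 : 0 ≤ (cl1 (u + w) - cl1 u) ^ 2 *
      (6 - cl1 (u + w) ^ 2 - 2 * cl1 u * cl1 (u + w) - 3 * cl1 u ^ 2) :=
    mul_nonneg (sq_nonneg _) (by nlinarith)
  have a2 : 0 ≤ (2 * cl1 (u + w) - gg u) * (u + w - cl1 (u + w)) := by
    have := abs_le.1 (abs_gg_le u)
    rcases pot_cases (u + w) with h | h | h
    · rw [h, sub_self, mul_zero]
    · rw [h.1]; exact mul_nonneg (by linarith) (by linarith [h.2])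
    · rw [h.1]; exact mul_nonneg_of_nonpos_of_nonpos (by linarith) (by linarith [h.2])
  have a3 := congrArg (fun t => cl1 u * t) (k u)
  unfold Wt W gg at *
  nlinarith

/-- for `|u| ≤ 1`: `|u||1-u²|/2 ≤ (1-u²)/2 = √W`; for `u ≥ 1`: `gg u = 2`, `Wt u = (u-1)²`
(`Real.abs_le_sqrt`). -/
theorem abs_half_gg_sub_le (u : ℝ) : |gg u / 2 - u| ≤ √(Wt u) := by
  refine Real.abs_le_sqrt ?_
  have h1 := neg_one_le_cl1 u
  have h2 := cl1_le_one u
  unfold Wt W gg
  rcases pot_cases u with h | h | h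
  · rw [h] at h1 h2 ⊢
    nlinarith [mul_nonneg (sq_nonneg (1 - u ^ 2)) (show 0 ≤ 1 - u ^ 2 by nlinarith)]
  · rw [h.1]; nlinarith
  · rw [h.1]; nlinarith

/-- `c² ≤ (gg u/2)²` and `1 - c² = 2√(W c) ≤ 2√(Wt u)`. -/
theorem one_sub_half_gg_sq_le (u : ℝ) : 1 - (gg u / 2) ^ 2 ≤ 2 * √(Wt u) := by
  have h1 := neg_one_le_cl1 u
  have h2 := cl1_le_one u
  have h3 : 0 ≤ 1 - cl1 u ^ 2 := by nlinarith
  have h4 : (1 - cl1 u ^ 2) / 2 ≤ √(Wt u) := Real.le_sqrt_of_sq_le (by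
    unfold Wt W
    nlinarith [sq_nonneg (u - cl1 u)])
  have h5 : cl1 u ^ 2 ≤ (gg u / 2) ^ 2 := by
    unfold gg
    nlinarith [mul_nonneg (mul_nonneg (sq_nonneg (cl1 u)) h3) (show 0 ≤ 5 - cl1 u ^ 2 by linarith)]
  linarith

/-- AM–GM: `σ/4 · 3(1-c²) = (1-c²)/√2`, `W c = (1-c²)²/4 ≤ Wt u`. -/
theorem modica_le {ε : ℝ} (hε : 0 < ε) (u a : ℝ) :
    sig / 4 * (3 * (1 - cl1 u ^ 2)) * a ≤ ε * a ^ 2 / 2 + Wt u / ε := by
  have h2 : √2 ^ 2 = 2 := Real.sq_sqrt zero_le_two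
  rw [← sub_nonneg]
  have e : ε * a ^ 2 / 2 + Wt u / ε - sig / 4 * (3 * (1 - cl1 u ^ 2)) * a =
      ((ε * a * √2 - (1 - cl1 u ^ 2)) ^ 2 / 4 + (u - cl1 u) ^ 2) / ε := by
    unfold Wt W sig
    field_simp
    linear_combination (-(2 * ε ^ 2 * a ^ 2)) * h2
  rw [e]
  positivity

theorem le_one_of_nonpos {u : ℝ} (h : 2 * u - gg u ≤ 0) : u ≤ 1 := by
  have := (abs_le.1 (abs_gg_le u)).2
  linarith

theorem neg_one_le_of_nonneg {u : ℝ} (h : 0 ≤ 2 * u - gg u) : -1 ≤ u := by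
  have := (abs_le.1 (abs_gg_le u)).1
  linarith

end Crest.Agent.R246.A
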