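import Crest.Agent.R246.A.New1

/-! Row 246, block A: radial factors `r^k cos(θ log r)`, `r^k sin(θ log r)`. -/

set_option autoImplicit false
set_option linter.unusedSectionVars false

open MeasureTheory Metric Filter Topology Set Module
open scoped RealInnerProductSpace ENNReal NNReal ContDiff Real

noncomputable section

namespace Crest.Agent.R246.A

variable {E : Type} [NormedAddCommGroup E] [InnerProductSpace ℝ E] [FiniteDimensional ℝ E]
  [MeasurableSpace E] [BorelSpace E] [hn : Fact (3 ≤ finrank ℝ E)]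

/-- `Re r^{k+iθ}` -/
def rc (k θ r : ℝ) : ℝ := r ^ k * Real.cos (θ * Real.log r)

/-- `Im r^{k+iθ}` -/
def rs (k θ r : ℝ) : ℝ := r ^ k * Real.sin (θ * Real.log r)

theorem rc_one (k θ : ℝ) : rc k θ 1 = 1 := by simp [rc]

theorem rs_one (k θ : ℝ) : rs k θ 1 = 0 := by simp [rs]

theorem measurable_rc (k θ : ℝ) : Measurable (rc k θ) := by unfold rc; fun_prop

theorem measurable_rs (k θ : ℝ) : Measurable (rs k θ) := by unfold rs; fun_prop

theorem abs_rc_le (k θ : ℝ) {r : ℝ} (hr : 0 ≤ r) : |rc k θ r| ≤ r ^ k := by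
  rw [rc, abs_mul, abs_of_nonneg (Real.rpow_nonneg hr k)]
  exact mul_le_of_le_one_right (Real.rpow_nonneg hr k) (Real.abs_cos_le_one _)

theorem abs_rs_le (k θ : ℝ) {r : ℝ} (hr : 0 ≤ r) : |rs k θ r| ≤ r ^ k := by
  rw [rs, abs_mul, abs_of_nonneg (Real.rpow_nonneg hr k)]
  exact mul_le_of_le_one_right (Real.rpow_nonneg hr k) (Real.abs_sin_le_one _)

theorem rc_mul (k θ : ℝ) {t r : ℝ} (ht : 0 < t) (hr : 0 < r) :
    rc k θ (t * r) = rc k θ t * rc k θ r - rs k θ t * rs k θ r := by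
  unfold rc rs
  rw [Real.mul_rpow ht.le hr.le, Real.log_mul ht.ne' hr.ne', mul_add, Real.cos_add]; ring

theorem rs_mul (k θ : ℝ) {t r : ℝ} (ht : 0 < t) (hr : 0 < r) :
    rs k θ (t * r) = rs k θ t * rc k θ r + rc k θ t * rs k θ r := by
  unfold rc rs
  rw [Real.mul_rpow ht.le hr.le, Real.log_mul ht.ne' hr.ne', mul_add, Real.sin_add]; ring

theorem rc_add (k l θ : ℝ) {r : ℝ} (hr : 0 < r) : rc (k + l) θ r = r ^ k * rc l θ r := by
  unfold rc; rw [Real.rpow_add hr]; ring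

theorem rs_add (k l θ : ℝ) {r : ℝ} (hr : 0 < r) : rs (k + l) θ r = r ^ k * rs l θ r := by
  unfold rs; rw [Real.rpow_add hr]; ring

theorem rc_mul_rc_add (k l θ : ℝ) {r : ℝ} (hr : 0 < r) :
    rc k θ r * rc l θ r + rs k θ r * rs l θ r = r ^ (k + l) := by
  unfold rc rs
  rw [Real.rpow_add hr]
  linear_combination (r ^ k * r ^ l) * Real.cos_sq_add_sin_sq (θ * Real.log r)

theorem rs_mul_rc (k l θ r : ℝ) : rs k θ r * rc l θ r = rc k θ r * rs l θ r := by
  unfold rc rs; ring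

theorem hasDerivAt_rc (k θ : ℝ) {r : ℝ} (hr : 0 < r) :
    HasDerivAt (rc k θ) ((k * rc k θ r - θ * rs k θ r) / r) r := by
  have h1 := Real.hasDerivAt_rpow_const (x := r) (p := k) (Or.inl hr.ne')
  have h2 := ((Real.hasDerivAt_log hr.ne').const_mul θ).cos
  refine (h1.mul h2).congr_deriv ?_
  unfold rc rs
  rw [Real.rpow_sub_one hr.ne']
  field_simp
  ring

theorem hasDerivAt_rs (k θ : ℝ) {r : ℝ} (hr : 0 < r) :
    HasDerivAt (rs k θ) ((k * rs k θ r + θ * rc k θ r) / r) r := by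
  have h1 := Real.hasDerivAt_rpow_const (x := r) (p := k) (Or.inl hr.ne')
  have h2 := ((Real.hasDerivAt_log hr.ne').const_mul θ).sin
  refine (h1.mul h2).congr_deriv ?_
  unfold rc rs
  rw [Real.rpow_sub_one hr.ne']
  field_simp

theorem contDiffOn_rc (k θ : ℝ) : ContDiffOn ℝ 1 (fun y : E => rc k θ ‖y‖) {0}ᶜ := by
  intro y hy
  have hy' : y ≠ 0 := hy
  have hn : ContDiffAt ℝ 1 (fun y : E => ‖y‖) y := contDiffAt_norm ℝ hy'
  have h0 : ‖y‖ ≠ 0 := norm_ne_zero_iff.2 hy'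
  exact ((hn.rpow_const_of_ne h0).mul (contDiffAt_const.mul (hn.log h0)).cos).contDiffWithinAt

theorem contDiffOn_rs (k θ : ℝ) : ContDiffOn ℝ 1 (fun y : E => rs k θ ‖y‖) {0}ᶜ := by
  intro y hy
  have hy' : y ≠ 0 := hy
  have hn : ContDiffAt ℝ 1 (fun y : E => ‖y‖) y := contDiffAt_norm ℝ hy'
  have h0 : ‖y‖ ≠ 0 := norm_ne_zero_iff.2 hy'
  exact ((hn.rpow_const_of_ne h0).mul (contDiffAt_const.mul (hn.log h0)).sin).contDiffWithinAt

theorem hasFDerivAt_norm' {y : E} (hy : y ≠ 0) :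
    HasFDerivAt (fun y : E => ‖y‖) (‖y‖⁻¹ • innerSL ℝ y) y := by
  have h0 : ‖y‖ ≠ 0 := norm_ne_zero_iff.2 hy
  have h1 := (hasStrictFDerivAt_norm_sq y).hasFDerivAt.sqrt (pow_ne_zero 2 h0)
  simp only [Real.sqrt_sq (norm_nonneg _)] at h1
  refine h1.congr_fderiv ?_
  ext v
  simp
  field_simp

/-- gradient of a radial function -/
theorem hasGradientAt_radial {a : ℝ → ℝ} {a' : ℝ} {y : E} (hy : y ≠ 0)
    (ha : HasDerivAt a a' ‖y‖) : HasGradientAt (fun y : E => a ‖y‖) ((a' / ‖y‖) • y) y := by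
  rw [hasGradientAt_iff_hasFDerivAt]
  refine (ha.comp_hasFDerivAt y (hasFDerivAt_norm' hy)).congr_fderiv ?_
  ext v
  simp [div_eq_mul_inv, mul_assoc]

theorem hasGradientAt_mul {f g : E → ℝ} {f' g' y : E} (hf : HasGradientAt f f' y)
    (hg : HasGradientAt g g' y) :
    HasGradientAt (fun y => f y * g y) (f y • g' + g y • f') y := by
  rw [hasGradientAt_iff_hasFDerivAt] at *
  refine (hf.mul hg).congr_fderiv ?_
  ext v
  simp

theorem hasGradientAt_add {f g : E → ℝ} {f' g' y : E} (hf : HasGradientAt f f' y)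
    (hg : HasGradientAt g g' y) : HasGradientAt (fun y => f y + g y) (f' + g') y := by
  rw [hasGradientAt_iff_hasFDerivAt] at *
  refine (hf.add hg).congr_fderiv ?_
  ext v
  simp

theorem hasGradientAt_sub {f g : E → ℝ} {f' g' y : E} (hf : HasGradientAt f f' y)
    (hg : HasGradientAt g g' y) : HasGradientAt (fun y => f y - g y) (f' - g') y := by
  rw [hasGradientAt_iff_hasFDerivAt] at *
  refine (hf.sub hg).congr_fderiv ?_
  ext v
  simp

end Crest.Agent.R246.A
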