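import Crest.Agent.R246.A.Res1
import Crest.Agent.R246.A.New3
import Crest.Agent.R246.A.Ext

/-! Row 246, block A: the two Newton potentials with complex exponent. -/

set_option autoImplicit false
set_option linter.unusedSectionVars false

open MeasureTheory Metric Filter Topology Set Module
open scoped RealInnerProductSpace ENNReal NNReal ContDiff Real

noncomputable section

namespace Crest.Agent.R246.A

variable {E : Type} [NormedAddCommGroup E] [InnerProductSpace ℝ E] [FiniteDimensional ℝ E]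
  [MeasurableSpace E] [BorelSpace E] [hn : Fact (3 ≤ finrank ℝ E)]

/-- density `Re (‖z‖^{-(κ+2)+iθ}) f(ẑ)` -/
def Fc (θ : ℝ) (f : X E) (z : E) : ℝ := rc (-(kap E + 2)) θ ‖z‖ * ext f z

/-- density `Im (‖z‖^{-(κ+2)+iθ}) f(ẑ)` -/
def Fs (θ : ℝ) (f : X E) (z : E) : ℝ := rs (-(kap E + 2)) θ ‖z‖ * ext f z

theorem den_Fc (θ : ℝ) (f : X E) : Den (Fc θ f) ‖f‖ := by
  refine ⟨((measurable_rc _ _).comp measurable_norm).mul (measurable_ext f), fun z => ?_⟩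
  rw [Fc, abs_mul, mul_comm]
  exact mul_le_mul (abs_ext_le f z) (abs_rc_le _ _ (norm_nonneg z)) (abs_nonneg _) (norm_nonneg _)

theorem den_Fs (θ : ℝ) (f : X E) : Den (Fs θ f) ‖f‖ := by
  refine ⟨((measurable_rs _ _).comp measurable_norm).mul (measurable_ext f), fun z => ?_⟩
  rw [Fs, abs_mul, mul_comm]
  exact mul_le_mul (abs_ext_le f z) (abs_rs_le _ _ (norm_nonneg z)) (abs_nonneg _) (norm_nonneg _)

theorem Fc_smul (θ : ℝ) (f : X E) {t : ℝ} (ht : 0 < t) (z : E) : Fc θ f (t • z) =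
    rc (-(kap E + 2)) θ t * Fc θ f z - rs (-(kap E + 2)) θ t * Fs θ f z := by
  by_cases hz : z = 0
  · simp [hz, Fc, Fs, ext_zero]
  · rw [Fc, Fc, Fs, ext_hom0 f t ht z, norm_smul, Real.norm_of_nonneg ht.le,
      rc_mul _ _ ht (norm_pos_iff.2 hz)]
    ring

theorem Fs_smul (θ : ℝ) (f : X E) {t : ℝ} (ht : 0 < t) (z : E) : Fs θ f (t • z) =
    rs (-(kap E + 2)) θ t * Fc θ f z + rc (-(kap E + 2)) θ t * Fs θ f z := by
  by_cases hz : z = 0
  · simp [hz, Fc, Fs, ext_zero]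
  · rw [Fs, Fc, Fs, ext_hom0 f t ht z, norm_smul, Real.norm_of_nonneg ht.le,
      rs_mul _ _ ht (norm_pos_iff.2 hz)]
    ring

theorem NP_smul (F : E → ℝ) {t : ℝ} (ht : 0 < t) (y : E) :
    NP 0 F (t • y) = t ^ (2 : ℝ) * NP 0 (fun z => F (t • z)) y := by
  have h := Measure.integral_comp_smul (volume : Measure E)
    (fun z => nk 0 (t • y - z) * F z) t
  have h2 : ∀ z : E, nk 0 (t • y - t • z) * F (t • z) =
      t ^ (-(2 * kap E)) * (nk 0 (y - z) * F (t • z)) := by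
    intro z
    rw [← smul_sub, nk_smul ht]; ring
  simp only [h2, integral_const_mul, smul_eq_mul] at h
  have hp : 0 < t ^ finrank ℝ E := pow_pos ht _
  rw [abs_of_pos (inv_pos.2 hp)] at h
  have h3 : t ^ (2 : ℝ) = t ^ finrank ℝ E * t ^ (-(2 * kap E)) := by
    rw [← Real.rpow_natCast, ← Real.rpow_add ht, n_eq]
    congr 1; ring
  unfold NP
  rw [h3, mul_assoc, h, ← mul_assoc, mul_inv_cancel₀ hp.ne', one_mul]

theorem NP_comb {F G : E → ℝ} {M N : ℝ} (hF : Den F M) (hG : Den G N) (a b : ℝ) {y : E}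
    (hy : y ≠ 0) : NP 0 (fun z => a * F z + b * G z) y = a * NP 0 F y + b * NP 0 G y := by
  unfold NP
  rw [← integral_const_mul, ← integral_const_mul,
    ← integral_add ((integrable_NP 0 hF hy).const_mul a) ((integrable_NP 0 hG hy).const_mul b)]
  congr 1; funext z; ring

theorem NP_Fc_smul (θ : ℝ) (f : X E) {t : ℝ} (ht : 0 < t) {y : E} (hy : y ≠ 0) :
    NP 0 (Fc θ f) (t • y) =
      rc (-kap E) θ t * NP 0 (Fc θ f) y - rs (-kap E) θ t * NP 0 (Fs θ f) y := by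
  have h := NP_comb (den_Fc θ f) (den_Fs θ f) (rc (-(kap E + 2)) θ t) (-rs (-(kap E + 2)) θ t) hy
  have e : -kap E = 2 + -(kap E + 2) := by ring
  rw [NP_smul _ ht, e, rc_add _ _ _ ht, rs_add _ _ _ ht]
  simp only [Fc_smul θ f ht, sub_eq_add_neg, ← neg_mul]
  rw [h]; ring

theorem NP_Fs_smul (θ : ℝ) (f : X E) {t : ℝ} (ht : 0 < t) {y : E} (hy : y ≠ 0) :
    NP 0 (Fs θ f) (t • y) =
      rs (-kap E) θ t * NP 0 (Fc θ f) y + rc (-kap E) θ t * NP 0 (Fs θ f) y := by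
  have h := NP_comb (den_Fc θ f) (den_Fs θ f) (rs (-(kap E + 2)) θ t) (rc (-(kap E + 2)) θ t) hy
  have e : -kap E = 2 + -(kap E + 2) := by ring
  rw [NP_smul _ ht, e, rc_add _ _ _ ht, rs_add _ _ _ ht]
  simp only [Fs_smul θ f ht]
  rw [h]; ring

/-- restriction of the first potential to the sphere -/
def Uc (θ : ℝ) (f : X E) : X E :=
  mkX (NP 0 (Fc θ f)) (contDiffOn_NP0 (den_Fc θ f)).continuousOn

/-- restriction of the second potential to the sphere -/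
def Us (θ : ℝ) (f : X E) : X E :=
  mkX (NP 0 (Fs θ f)) (contDiffOn_NP0 (den_Fs θ f)).continuousOn

theorem smul_nrm {y : E} (hy : y ≠ 0) : ‖y‖ • (nrm y hy : E) = y := by
  simp [nrm, smul_smul, mul_inv_cancel₀ (norm_ne_zero_iff.2 hy)]

theorem NP_Fc_eq (θ : ℝ) (f : X E) {y : E} (hy : y ≠ 0) : NP 0 (Fc θ f) y =
    rc (-kap E) θ ‖y‖ * ext (Uc θ f) y - rs (-kap E) θ ‖y‖ * ext (Us θ f) y := by
  rw [ext_of_ne _ hy, ext_of_ne _ hy]
  conv_lhs => rw [← smul_nrm hy]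
  exact NP_Fc_smul θ f (norm_pos_iff.2 hy) (coe_ne_zero _)

theorem NP_Fs_eq (θ : ℝ) (f : X E) {y : E} (hy : y ≠ 0) : NP 0 (Fs θ f) y =
    rs (-kap E) θ ‖y‖ * ext (Uc θ f) y + rc (-kap E) θ ‖y‖ * ext (Us θ f) y := by
  rw [ext_of_ne _ hy, ext_of_ne _ hy]
  conv_lhs => rw [← smul_nrm hy]
  exact NP_Fs_smul θ f (norm_pos_iff.2 hy) (coe_ne_zero _)

theorem rc_rc_neg (k θ : ℝ) {r : ℝ} (hr : 0 < r) :
    rc k θ r * rc (-k) θ r + rs k θ r * rs (-k) θ r = 1 := by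
  rw [rc_mul_rc_add _ _ _ hr, add_neg_cancel, Real.rpow_zero]

theorem ext_Uc_eq (θ : ℝ) (f : X E) {y : E} (hy : y ≠ 0) : ext (Uc θ f) y =
    rc (kap E) θ ‖y‖ * NP 0 (Fc θ f) y + rs (kap E) θ ‖y‖ * NP 0 (Fs θ f) y := by
  rw [NP_Fc_eq θ f hy, NP_Fs_eq θ f hy]
  have h1 := rc_rc_neg (kap E) θ (norm_pos_iff.2 hy)
  have h2 := rs_mul_rc (kap E) (-kap E) θ ‖y‖
  linear_combination (-ext (Uc θ f) y) * h1 - ext (Us θ f) y * h2

theorem ext_Us_eq (θ : ℝ) (f : X E) {y : E} (hy : y ≠ 0) : ext (Us θ f) y =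
    rc (kap E) θ ‖y‖ * NP 0 (Fs θ f) y - rs (kap E) θ ‖y‖ * NP 0 (Fc θ f) y := by
  rw [NP_Fc_eq θ f hy, NP_Fs_eq θ f hy]
  have h1 := rc_rc_neg (kap E) θ (norm_pos_iff.2 hy)
  have h2 := rs_mul_rc (kap E) (-kap E) θ ‖y‖
  linear_combination (-ext (Us θ f) y) * h1 + ext (Uc θ f) y * h2

theorem contDiffOn_Uc (θ : ℝ) (f : X E) : ContDiffOn ℝ 1 (ext (Uc θ f)) {0}ᶜ :=
  (((contDiffOn_rc _ θ).mul (contDiffOn_NP0 (den_Fc θ f))).add
    ((contDiffOn_rs _ θ).mul (contDiffOn_NP0 (den_Fs θ f)))).congr fun _ hy => ext_Uc_eq θ f hy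

theorem contDiffOn_Us (θ : ℝ) (f : X E) : ContDiffOn ℝ 1 (ext (Us θ f)) {0}ᶜ :=
  (((contDiffOn_rc _ θ).mul (contDiffOn_NP0 (den_Fs θ f))).sub
    ((contDiffOn_rs _ θ).mul (contDiffOn_NP0 (den_Fc θ f)))).congr fun _ hy => ext_Us_eq θ f hy

theorem Uc_apply (θ : ℝ) (f : X E) (x : sphere (0 : E) 1) : Uc θ f x = NP 0 (Fc θ f) x := rfl

theorem Uc_add (θ : ℝ) (f g : X E) : Uc θ (f + g) = Uc θ f + Uc θ g := by
  ext x
  have h := NP_comb (den_Fc θ f) (den_Fc θ g) 1 1 (coe_ne_zero x)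
  have e : Fc θ (f + g) = fun z => 1 * Fc θ f z + 1 * Fc θ g z := by
    funext z; simp only [Fc, ext_add]; ring
  rw [ContinuousMap.add_apply, Uc_apply, Uc_apply, Uc_apply, e, h]; ring

theorem Uc_smul (θ c : ℝ) (f : X E) : Uc θ (c • f) = c • Uc θ f := by
  ext x
  have h := NP_comb (den_Fc θ f) (den_Fc θ f) c 0 (coe_ne_zero x)
  have e : Fc θ (c • f) = fun z => c * Fc θ f z + 0 * Fc θ f z := by
    funext z; simp only [Fc, ext_smul]; ring
  rw [ContinuousMap.smul_apply, Uc_apply, Uc_apply, e, h]; simp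

theorem Uc_rot (θ : ℝ) (R : E ≃ₗᵢ[ℝ] E) (f : X E) : Uc θ (rot R f) = rot R (Uc θ f) := by
  ext x
  change NP 0 (Fc θ (rot R f)) x = NP 0 (Fc θ f) (R x)
  unfold NP
  rw [← R.measurePreserving.integral_comp R.toHomeomorph.measurableEmbedding
    (fun z => nk 0 (R x - z) * Fc θ f z)]
  congr 1; funext z
  simp only [Fc, ext_rot, nk, ← map_sub, R.norm_map]

theorem eventually_ne_zero {y : E} (hy : y ≠ 0) : ∀ᶠ z in 𝓝 y, z ≠ 0 := eventually_ne_nhds hy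

theorem exists_Uc_le (θ : ℝ) : ∃ C : ℝ, 0 ≤ C ∧ ∀ f : X E, ‖Uc θ f‖ ≤ C * ‖f‖ ∧
    ∀ y, ‖y‖ * ‖gradient (ext (Uc θ f)) y‖ ≤ C * ‖f‖ := by
  obtain ⟨C, hC, h⟩ := exists_NP_le (E := E)
  have hk := kap_pos (E := E)
  have hq : 1 ≤ 1 + kap E + |θ| := by have := abs_nonneg θ; linarith
  refine ⟨C * (1 + kap E + |θ|), by positivity, fun f => ⟨?_, fun y => ?_⟩⟩
  · refine (ContinuousMap.norm_le _ (by positivity)).2 fun x => ?_
    have := (h _ _ (den_Fc θ f) x (norm_eq_of_mem_sphere x).ge).1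
    refine this.trans ?_
    have h0 : 0 ≤ C * ‖f‖ := by positivity
    nlinarith
  by_cases hy : y = 0
  · rw [hy, norm_zero, zero_mul]; positivity
  set x : E := (nrm y hy : sphere (0 : E) 1).1 with hx
  have hx0 : x ≠ 0 := coe_ne_zero _
  have hx1 : ‖x‖ = 1 := norm_eq_of_mem_sphere _
  have hyp := norm_pos_iff.2 hy
  have e1 : ‖y‖ * ‖gradient (ext (Uc θ f)) y‖ = ‖gradient (ext (Uc θ f)) x‖ := by
    conv_lhs => rw [← smul_nrm hy, (ext_hom0 _).gradient_smul hyp]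
    rw [smul_nrm hy, norm_smul, norm_inv, norm_norm, ← mul_assoc, mul_inv_cancel₀ hyp.ne', one_mul]
  have hxp : 0 < ‖x‖ := norm_pos_iff.2 hx0
  have g1 := hasGradientAt_add
    (hasGradientAt_mul (hasGradientAt_radial hx0 (hasDerivAt_rc (kap E) θ hxp))
      (hasGradientAt_NP0 (den_Fc θ f) hx0))
    (hasGradientAt_mul (hasGradientAt_radial hx0 (hasDerivAt_rs (kap E) θ hxp))
      (hasGradientAt_NP0 (den_Fs θ f) hx0))
  have g2 := g1.congr_of_eventuallyEq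
    ((eventually_ne_zero hx0).mono fun z hz => ext_Uc_eq θ f hz)
  rw [e1, g2.gradient]
  simp only [hx1, rc_one, rs_one]
  obtain ⟨a1, a2⟩ := h _ _ (den_Fc θ f) x hx1.ge
  obtain ⟨b1, -⟩ := h _ _ (den_Fs θ f) x hx1.ge
  simp only [one_smul, zero_smul, mul_one, mul_zero, sub_zero, div_one, zero_add]
  refine (norm_add_le _ _).trans ?_
  refine (add_le_add (norm_add_le _ _) le_rfl).trans ?_
  simp only [norm_smul, hx1, mul_one, Real.norm_eq_abs, abs_of_pos hk]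
  have := mul_le_mul_of_nonneg_right a1 hk.le
  have := mul_le_mul_of_nonneg_right b1 (abs_nonneg θ)
  nlinarith

end Crest.Agent.R246.A
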