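import Crest.Agent.R246.A.Res2
import Crest.Agent.R246.A.New5
import Crest.Agent.R246.A.IBP
import Crest.Agent.R246.A.Polar
import Crest.Agent.R246.A.Desc

/-! Row 246, block A: the resolvent exists. -/

set_option autoImplicit false
set_option linter.unusedSectionVars false

open MeasureTheory Metric Filter Topology Set Module
open scoped RealInnerProductSpace ENNReal NNReal ContDiff Real

noncomputable section

namespace Crest.Agent.R246.A

variable {E : Type} [NormedAddCommGroup E] [InnerProductSpace ℝ E] [FiniteDimensional ℝ E]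
  [MeasurableSpace E] [BorelSpace E] [hn : Fact (3 ≤ finrank ℝ E)]

theorem res_algebra {gU gW gφ y : E} {U W φ a a' p q α β k θ : ℝ} (hy : y ≠ 0)
    (hU : ⟪gU, y⟫ = 0) (hW : ⟪gW, y⟫ = 0) (hφ : ⟪gφ, y⟫ = 0)
    (h1 : α * p + β * q = 1) (h2 : β * p = α * q) :
    ⟪(p • gU + U • (((-k * p - θ * q) / ‖y‖) / ‖y‖) • y) -
        (q • gW + W • (((-k * q + θ * p) / ‖y‖) / ‖y‖) • y),
      a • (α • gφ + φ • (((k * α - θ * β) / ‖y‖) / ‖y‖) • y) + (α * φ) • (a' / ‖y‖) • y⟫ +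
    ⟪(q • gU + U • (((-k * q + θ * p) / ‖y‖) / ‖y‖) • y) +
        (p • gW + W • (((-k * p - θ * q) / ‖y‖) / ‖y‖) • y),
      a • (β • gφ + φ • (((k * β + θ * α) / ‖y‖) / ‖y‖) • y) + (β * φ) • (a' / ‖y‖) • y⟫ =
    a / ‖y‖ ^ 2 * (‖y‖ ^ 2 * ⟪gU, gφ⟫) + (θ ^ 2 - k ^ 2) * (a / ‖y‖ ^ 2 * (U * φ)) -
      k * (a' / ‖y‖ * (U * φ)) - θ * (a' / ‖y‖ * (W * φ)) - 2 * k * θ * (a / ‖y‖ ^ 2 * (W * φ)) := by
  have hφ' : ⟪y, gφ⟫ = 0 := by rw [real_inner_comm]; exact hφ
  have h0 : ‖y‖ ≠ 0 := norm_ne_zero_iff.2 hy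
  simp only [inner_add_left, inner_add_right, inner_sub_left, real_inner_smul_left,
    real_inner_smul_right, hU, hW, hφ', real_inner_self_eq_norm_sq]
  field_simp
  linear_combination (a * ‖y‖ ^ 2 * ⟪gU, gφ⟫ + (θ ^ 2 - k ^ 2) * a * U * φ - k * a' * ‖y‖ * U * φ -
      θ * a' * ‖y‖ * W * φ - 2 * k * θ * a * W * φ) * h1 +
    (a * ‖y‖ ^ 2 * ⟪gW, gφ⟫ + (θ ^ 2 - k ^ 2) * a * W * φ - k * a' * ‖y‖ * W * φ +
      θ * a' * ‖y‖ * U * φ + 2 * k * θ * a * U * φ) * h2

theorem integrable_cut {b : ℝ → ℝ} (hm : Measurable b) (hc : ContinuousOn b (Icc (1 / 2) 2))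
    (h0 : ∀ r, r ∉ Icc (1 / 2 : ℝ) 2 → b r = 0) {h : E → ℝ} (hh : Measurable h) {C : ℝ}
    (hC : ∀ y, |h y| ≤ C) : Integrable fun y : E => b ‖y‖ * h y := by
  obtain ⟨B, hB⟩ := isCompact_Icc.exists_bound_of_continuousOn hc
  have hi : Integrable ((closedBall (0 : E) 2).indicator fun _ => B * C) :=
    (integrable_indicator_iff measurableSet_closedBall).2
      (integrableOn_const measure_closedBall_lt_top.ne)
  refine hi.mono' ((hm.comp measurable_norm).mul hh).aestronglyMeasurable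
    (Eventually.of_forall fun y => ?_)
  have hB0 : 0 ≤ B := (norm_nonneg _).trans (hB 1 ⟨by norm_num, by norm_num⟩)
  have hC0 : 0 ≤ C := (abs_nonneg _).trans (hC 0)
  by_cases hy : ‖y‖ ∈ Icc (1 / 2 : ℝ) 2
  · rw [indicator_of_mem (mem_closedBall_zero_iff.2 hy.2), norm_mul]
    exact mul_le_mul (hB _ hy) (hC y) (abs_nonneg _) hB0
  · rw [h0 _ hy, zero_mul, norm_zero]
    exact indicator_nonneg (fun _ _ => by positivity) y

theorem integral_five {f1 f2 f3 f4 f5 : E → ℝ} (i1 : Integrable f1) (i2 : Integrable f2)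
    (i3 : Integrable f3) (i4 : Integrable f4) (i5 : Integrable f5) (c2 c3 c4 c5 : ℝ) :
    ∫ y, (f1 y + c2 * f2 y - c3 * f3 y - c4 * f4 y - c5 * f5 y) =
      (∫ y, f1 y) + c2 * (∫ y, f2 y) - c3 * (∫ y, f3 y) - c4 * (∫ y, f4 y) - c5 * ∫ y, f5 y := by
  have j2 : Integrable fun y => f1 y + c2 * f2 y := i1.add (i2.const_mul _)
  have j3 : Integrable fun y => f1 y + c2 * f2 y - c3 * f3 y := j2.sub (i3.const_mul _)
  have j4 : Integrable fun y => f1 y + c2 * f2 y - c3 * f3 y - c4 * f4 y := j3.sub (i4.const_mul _)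
  rw [integral_sub j4 (i5.const_mul _), integral_sub j3 (i4.const_mul _),
    integral_sub j2 (i3.const_mul _), integral_add i1 (i2.const_mul _)]
  simp only [integral_const_mul]

theorem hom0_ext_mul (u v : X E) : Hom0 fun y => ext u y * ext v y := fun t ht y => by
  simp only [ext_hom0 u t ht y, ext_hom0 v t ht y]

theorem hom0_inner_grad (u v : X E) :
    Hom0 fun y => ‖y‖ ^ 2 * ⟪gradient (ext u) y, gradient (ext v) y⟫ := fun t ht y => by
  simp only [(ext_hom0 u).gradient_smul ht, (ext_hom0 v).gradient_smul ht, norm_smul,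
    real_inner_smul_left, real_inner_smul_right, Real.norm_of_nonneg ht.le]
  field_simp

theorem hasGradientAt_of_contDiffOn {h : E → ℝ} (hh : ContDiffOn ℝ 1 h {0}ᶜ) {y : E} (hy : y ≠ 0) :
    HasGradientAt h (gradient h y) y :=
  ((hh.contDiffAt (isOpen_compl_singleton.mem_nhds hy)).differentiableAt one_ne_zero).hasGradientAt

theorem weak_Uc (θ : ℝ) (f : X E) {φ : X E} (hφ : Lip φ) :
    (∫ y, ‖y‖ ^ 2 * ⟪gradient (ext (Uc θ f)) y, gradient (ext φ) y⟫ ∂mu E) +
      (kap E ^ 2 + θ ^ 2) * ∫ y, ext (Uc θ f) y * ext φ y ∂mu E =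
      cN E * ∫ y, ext f y * ext φ y ∂mu E := by
  obtain ⟨a, a', ha, ha', h0, hT, hg, hJ, hJ'⟩ := exists_chi (E := E)
  have tc : Tst fun y : E => a ‖y‖ * (rc (kap E) θ ‖y‖ * ext φ y) := by
    have := (hT.mul (locallyLipschitzOn_of_contDiffOn (contDiffOn_rc (kap E) θ))).mul
      hφ.locallyLipschitzOn
    simpa only [mul_assoc] using this
  have ts : Tst fun y : E => a ‖y‖ * (rs (kap E) θ ‖y‖ * ext φ y) := by
    have := (hT.mul (locallyLipschitzOn_of_contDiffOn (contDiffOn_rs (kap E) θ))).mul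
      hφ.locallyLipschitzOn
    simpa only [mul_assoc] using this
  have wc := newton_weak (den_Fc θ f) tc
  have ws := newton_weak (den_Fs θ f) ts
  have ic := tc.integrable_inner (continuousOn_NG0 (den_Fc θ f))
  have is := ts.integrable_inner (continuousOn_NG0 (den_Fs θ f))
  -- integrability of the five pieces
  have mb : Measurable fun r => a r / r ^ 2 := ha.measurable.div (measurable_id.pow_const 2)
  have mb' : Measurable fun r => a' r / r := ha'.measurable.div measurable_id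
  have cb : ContinuousOn (fun r => a r / r ^ 2) (Icc (1 / 2) 2) :=
    ha.continuousOn.div (continuousOn_id.pow 2) fun r hr => pow_ne_zero 2 (by linarith [hr.1])
  have cb' : ContinuousOn (fun r => a' r / r) (Icc (1 / 2) 2) :=
    ha'.continuousOn.div continuousOn_id fun r hr => by
      have : 0 < r := by linarith [hr.1]
      exact this.ne'
  have zb : ∀ r, r ∉ Icc (1 / 2 : ℝ) 2 → a r / r ^ 2 = 0 := fun r hr => by simp [(h0 r hr).1]
  have zb' : ∀ r, r ∉ Icc (1 / 2 : ℝ) 2 → a' r / r = 0 := fun r hr => by simp [(h0 r hr).2]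
  have bm : ∀ u v : X E, ∀ y, |ext u y * ext v y| ≤ ‖u‖ * ‖v‖ := fun u v y => by
    rw [abs_mul]; exact mul_le_mul (abs_ext_le u y) (abs_ext_le v y) (abs_nonneg _) (norm_nonneg _)
  have mm : ∀ u v : X E, Measurable fun y => ext u y * ext v y := fun u v =>
    (measurable_ext u).mul (measurable_ext v)
  obtain ⟨C, hC, hCU⟩ := exists_Uc_le (E := E) θ
  obtain ⟨L, hL⟩ := hφ.exists_grad
  have i1 : Integrable fun y : E => a ‖y‖ / ‖y‖ ^ 2 *
      (‖y‖ ^ 2 * ⟪gradient (ext (Uc θ f)) y, gradient (ext φ) y⟫) := by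
    refine integrable_cut mb cb zb ((measurable_norm.pow_const 2).mul
      ((measurable_gradient _).inner (measurable_gradient _))) (C := C * ‖f‖ * L) fun y => ?_
    rw [abs_mul, abs_of_nonneg (sq_nonneg _)]
    calc _ ≤ ‖y‖ ^ 2 * (‖gradient (ext (Uc θ f)) y‖ * ‖gradient (ext φ) y‖) :=
          mul_le_mul_of_nonneg_left (abs_real_inner_le_norm _ _) (sq_nonneg _)
      _ = (‖y‖ * ‖gradient (ext (Uc θ f)) y‖) * (‖y‖ * ‖gradient (ext φ) y‖) := by ring
      _ ≤ _ := mul_le_mul ((hCU f).2 y) (hL y) (by positivity) (by positivity)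
  have i2 := integrable_cut mb cb zb (mm (Uc θ f) φ) (bm _ _)
  have i3 := integrable_cut mb' cb' zb' (mm (Uc θ f) φ) (bm _ _)
  have i4 := integrable_cut mb' cb' zb' (mm (Us θ f) φ) (bm _ _)
  have i5 := integrable_cut mb cb zb (mm (Us θ f) φ) (bm _ _)
  have r1 := radial_transfer (hom0_inner_grad (Uc θ f) φ) fun r => a r / r ^ 2
  have r2 := radial_transfer (hom0_ext_mul (Uc θ f) φ) fun r => a r / r ^ 2
  have r3 := radial_transfer (hom0_ext_mul (Uc θ f) φ) fun r => a' r / r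
  have r4 := radial_transfer (hom0_ext_mul (Us θ f) φ) fun r => a' r / r
  have r5 := radial_transfer (hom0_ext_mul (Us θ f) φ) fun r => a r / r ^ 2
  have r6 := radial_transfer (hom0_ext_mul f φ) fun r => a r / r ^ 2
  have hne : ∀ᵐ y : E, y ≠ 0 := ac_mu ae_ne_zero_mu
  -- left side
  have hl : (∫ y, ⟪NG 0 (Fc θ f) y,
        gradient (fun y : E => a ‖y‖ * (rc (kap E) θ ‖y‖ * ext φ y)) y⟫) +
      (∫ y, ⟪NG 0 (Fs θ f) y, gradient (fun y : E => a ‖y‖ * (rs (kap E) θ ‖y‖ * ext φ y)) y⟫) =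
      (∫ y : E, a ‖y‖ / ‖y‖ ^ 2 * (‖y‖ ^ 2 * ⟪gradient (ext (Uc θ f)) y, gradient (ext φ) y⟫)) +
      (θ ^ 2 - kap E ^ 2) * (∫ y : E, a ‖y‖ / ‖y‖ ^ 2 * (ext (Uc θ f) y * ext φ y)) -
      kap E * (∫ y : E, a' ‖y‖ / ‖y‖ * (ext (Uc θ f) y * ext φ y)) -
      θ * (∫ y : E, a' ‖y‖ / ‖y‖ * (ext (Us θ f) y * ext φ y)) -
      2 * kap E * θ * (∫ y : E, a ‖y‖ / ‖y‖ ^ 2 * (ext (Us θ f) y * ext φ y)) := by
    rw [← integral_add ic is, ← integral_five i1 i2 i3 i4 i5]
    refine integral_congr_ae ?_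
    filter_upwards [hne, hφ.ae_diff] with y hy hd
    have hp := norm_pos_iff.2 hy
    have gU := hasGradientAt_of_contDiffOn (contDiffOn_Uc θ f) hy
    have gW := hasGradientAt_of_contDiffOn (contDiffOn_Us θ f) hy
    have gp := hasGradientAt_radial hy (hasDerivAt_rc (-kap E) θ hp)
    have gq := hasGradientAt_radial hy (hasDerivAt_rs (-kap E) θ hp)
    have gα := hasGradientAt_radial hy (hasDerivAt_rc (kap E) θ hp)
    have gβ := hasGradientAt_radial hy (hasDerivAt_rs (kap E) θ hp)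
    have e1 := (hasGradientAt_NP0 (den_Fc θ f) hy).unique
      ((hasGradientAt_sub (hasGradientAt_mul gp gU) (hasGradientAt_mul gq gW)).congr_of_eventuallyEq
        ((eventually_ne_zero hy).mono fun z hz => NP_Fc_eq θ f hz))
    have e2 := (hasGradientAt_NP0 (den_Fs θ f) hy).unique
      ((hasGradientAt_add (hasGradientAt_mul gq gU) (hasGradientAt_mul gp gW)).congr_of_eventuallyEq
        ((eventually_ne_zero hy).mono fun z hz => NP_Fs_eq θ f hz))
    have e3 := (hasGradientAt_mul (hg y hy) (hasGradientAt_mul gα hd.hasGradientAt)).gradient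
    have e4 := (hasGradientAt_mul (hg y hy) (hasGradientAt_mul gβ hd.hasGradientAt)).gradient
    rw [e1, e2, e3, e4]
    exact res_algebra hy ((ext_hom0 _).inner_gradient_self y) ((ext_hom0 _).inner_gradient_self y)
      ((ext_hom0 _).inner_gradient_self y) (rc_rc_neg _ _ hp) (rs_mul_rc _ _ _ _)
  -- right side
  have hr : (∫ y, Fc θ f y * (a ‖y‖ * (rc (kap E) θ ‖y‖ * ext φ y))) +
      (∫ y, Fs θ f y * (a ‖y‖ * (rs (kap E) θ ‖y‖ * ext φ y))) =
      ∫ y : E, a ‖y‖ / ‖y‖ ^ 2 * (ext f y * ext φ y) := by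
    have c1 : ContinuousOn (Fc θ f) {0}ᶜ :=
      (contDiffOn_rc _ θ).continuousOn.mul (continuousOn_ext f)
    have c2 : ContinuousOn (Fs θ f) {0}ᶜ :=
      (contDiffOn_rs _ θ).continuousOn.mul (continuousOn_ext f)
    rw [← integral_add (tc.integrable_mul c1) (ts.integrable_mul c2)]
    refine integral_congr_ae ?_
    filter_upwards [hne] with y hy
    have hp := norm_pos_iff.2 hy
    have h1 := rc_mul_rc_add (-(kap E + 2)) (kap E) θ hp
    have h2 : ‖y‖ ^ (-(kap E + 2) + kap E) = (‖y‖ ^ 2)⁻¹ := by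
      rw [show -(kap E + 2) + kap E = -((2 : ℕ) : ℝ) by push_cast; ring, Real.rpow_neg hp.le,
        Real.rpow_natCast]
    rw [h2] at h1
    simp only [Fc, Fs, div_eq_mul_inv]
    linear_combination (a ‖y‖ * ext f y * ext φ y) * h1
  refine mul_left_cancel₀ hJ.ne' ?_
  rw [hJ'] at r3 r4
  linear_combination (-(mu E).real univ) * hl + (mu E).real univ * wc + (mu E).real univ * ws +
    (mu E).real univ * cN E * hr - r1 - (θ ^ 2 - kap E ^ 2) * r2 + kap E * r3 + θ * r4 +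
    2 * kap E * θ * r5 + cN E * r6

/-- the potential as a continuous linear map -/
theorem exists_UL (θ : ℝ) : ∃ U : X E →L[ℝ] X E, ∀ f, U f = Uc θ f := by
  obtain ⟨C, -, hC⟩ := exists_Uc_le (E := E) θ
  exact ⟨LinearMap.mkContinuous ⟨⟨Uc θ, Uc_add θ⟩, Uc_smul θ⟩ C fun f => (hC f).1, fun _ => rfl⟩

theorem gradient_const_mul' (c : ℝ) {h : E → ℝ} {y : E} (hd : DifferentiableAt ℝ h y) :
    gradient (fun y => c * h y) y = c • gradient h y := by
  have := hasGradientAt_mul (hasGradientAt_const y c) hd.hasGradientAt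
  rw [this.gradient]; simp

theorem exists_res : ∃ ε₀ : ℝ, 0 < ε₀ ∧ ∀ ε ∈ Ioo 0 ε₀, ∃ K : X E →L[ℝ] X E, Res ε K := by
  have hk := kap_pos (E := E)
  refine ⟨1 / kap E, by positivity, fun ε hε => ?_⟩
  have hε0 := hε.1
  have h1 : ε * kap E < 1 := (lt_div_iff₀ hk).1 hε.2
  have h2 : 0 ≤ 2 / ε ^ 2 - kap E ^ 2 := by
    rw [sub_nonneg, le_div_iff₀ (by positivity)]
    have : 0 < ε * kap E := by positivity
    nlinarith
  set θ := √(2 / ε ^ 2 - kap E ^ 2) with hθ
  have h3 : kap E ^ 2 + θ ^ 2 = 2 / ε ^ 2 := by rw [hθ, Real.sq_sqrt h2]; ring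
  obtain ⟨U, hU⟩ := exists_UL (E := E) θ
  obtain ⟨C, hC0, hC⟩ := exists_Uc_le (E := E) θ
  have hc := cN_pos (E := E)
  set c : ℝ := (ε ^ 2 * cN E)⁻¹ with hcdef
  have hc0 : 0 < c := by positivity
  have e : ∀ f, ext ((c • U) f) = fun y => c * ext (Uc θ f) y := fun f => by
    rw [smul_apply, hU, ext_smul]
  have eg : ∀ f y, y ≠ 0 → gradient (ext ((c • U) f)) y = c • gradient (ext (Uc θ f)) y :=
    fun f y hy => by
      rw [e]
      exact gradient_const_mul' c
        (hasGradientAt_of_contDiffOn (contDiffOn_Uc θ f) hy).differentiableAt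
  refine ⟨c • U, fun f => ?_, ⟨c * C, fun f y => ?_⟩, fun f φ hφ => ?_, fun R f => ?_⟩
  · rw [e]; exact contDiffOn_const.mul (contDiffOn_Uc θ f)
  · by_cases hy : y = 0
    · rw [hy, norm_zero, zero_mul]; positivity
    rw [eg f y hy, norm_smul, Real.norm_of_nonneg hc0.le, mul_left_comm, mul_assoc]
    exact mul_le_mul_of_nonneg_left ((hC f).2 y) hc0.le
  · have hl : Lip (Uc θ f) := by
      have hd : DifferentiableOn ℝ (ext (Uc θ f)) {0}ᶜ :=
        (contDiffOn_Uc θ f).differentiableOn one_ne_zero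
      refine ⟨⟨2 * (C * ‖f‖) + 2 * ‖Uc θ f‖, by positivity⟩, LipschitzWith.of_dist_le_mul ?_⟩
      exact abs_sub_le_of_grad hd (hC f).2
    have hw := weak_Uc θ f hφ
    have e2 : Hb ε ((c • U) f) φ =
        ε ^ 2 * c * (∫ y, ‖y‖ ^ 2 * ⟪gradient (ext (Uc θ f)) y, gradient (ext φ) y⟫ ∂mu E) +
        2 * c * ∫ y, ext (Uc θ f) y * ext φ y ∂mu E := by
      rw [← integral_const_mul, ← integral_const_mul, ← integral_add
        ((hl.integrable_inner hφ).const_mul _) ((integrable_ext_mul _ _).const_mul _)]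
      refine integral_congr_ae ?_
      filter_upwards [ae_ne_zero_mu] with y hy
      rw [eg f y hy, e, real_inner_smul_left]; ring
    rw [e2, h3] at *
    have h4 : ε ^ 2 * c * cN E = 1 := by rw [hcdef]; field_simp
    have h5 : ε ^ 2 * c * (2 / ε ^ 2) = 2 * c := by field_simp
    linear_combination (ε ^ 2 * c) * hw + (∫ y, ext f y * ext φ y ∂mu E) * h4 -
      (∫ y, ext (Uc θ f) y * ext φ y ∂mu E) * h5
  · rw [smul_apply, smul_apply, hU, hU, Uc_rot]
    rfl

end Crest.Agent.R246.A
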