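import Crest.Agent.R246.A.IBP

/-! Row 246, block A: integration by parts on the sphere, du Bois-Reymond. -/

set_option autoImplicit false
set_option linter.unusedSectionVars false

open MeasureTheory Metric Filter Topology Set Module
open scoped RealInnerProductSpace ENNReal NNReal ContDiff Real

noncomputable section

namespace Crest.Agent.R246.A

variable {E : Type} [NormedAddCommGroup E] [InnerProductSpace ℝ E] [FiniteDimensional ℝ E]
  [MeasurableSpace E] [BorelSpace E] [hn : Fact (3 ≤ finrank ℝ E)]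

/-- `ibp` with `Y = gradient u`, `Φ = a‖y‖ · ext φ y` (`exists_chi`, `Tst.mul`); a.e.
`∇Φ = a ∇φ + φ (a'/‖y‖) y` and `⟪∇u, y⟫ = 0`; then `radial_transfer` with the profile `a r / r²`
for the `Hom0` functions `‖y‖²⟪∇u,∇φ⟫` and `‖y‖² lap u · φ`; cancel `∫ a/‖y‖² > 0`. -/
theorem sph_ibp {u : E → ℝ} (h0 : Hom0 u) (hu : ContDiffOn ℝ 2 u {0}ᶜ) {φ : X E} (hφ : Lip φ) :
    ∫ y, ‖y‖ ^ 2 * ⟪gradient u y, gradient (ext φ) y⟫ ∂mu E =
      -∫ y, ‖y‖ ^ 2 * lap u y * ext φ y ∂mu E := by
  obtain ⟨a, a', -, -, -, hT, hg, hpos, -⟩ := exists_chi (E := E)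
  have hY : ContDiffOn ℝ 1 (gradient u) {0}ᶜ :=
    (InnerProductSpace.toDual ℝ E).symm.contDiff.comp_contDiffOn
      (hu.fderiv_of_isOpen isOpen_compl_singleton le_rfl)
  have key := ibp hY (hT.mul hφ.locallyLipschitzOn)
  have r1 := radial_transfer (h := fun y => ‖y‖ ^ 2 * ⟪gradient u y, gradient (ext φ) y⟫)
    (fun t ht y => by
      simp only [h0.gradient_smul ht, (ext_hom0 φ).gradient_smul ht, real_inner_smul_left,
        real_inner_smul_right, norm_smul, Real.norm_of_nonneg ht.le]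
      field_simp) fun r => a r / r ^ 2
  have r2 := radial_transfer (h := fun y => ‖y‖ ^ 2 * lap u y * ext φ y)
    (fun t ht y => by
      have := h0.sq_mul_lap t ht y
      simp only at this ⊢
      rw [this, ext_hom0 φ t ht]) fun r => a r / r ^ 2
  have := nontrivial_E (E := E)
  have hne : ∀ᵐ y : E, y ≠ 0 := compl_mem_ae_iff.2 (measure_singleton 0)
  have e1 : ∫ y : E, a ‖y‖ / ‖y‖ ^ 2 * (‖y‖ ^ 2 * ⟪gradient u y, gradient (ext φ) y⟫) =
      ∫ y, ⟪gradient u y, gradient (fun y => a ‖y‖ * ext φ y) y⟫ := by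
    refine integral_congr_ae ?_
    filter_upwards [hne, hφ.ae_diff] with y hy hd
    have h1 := ((hg y hy).hasFDerivAt.mul hd.hasFDerivAt).fderiv
    have h2 : fderiv ℝ (fun y => a ‖y‖ * ext φ y) y = _ := h1
    have h3 : ‖y‖ ≠ 0 := norm_ne_zero_iff.2 hy
    rw [real_inner_comm, real_inner_comm (gradient (fun y => a ‖y‖ * ext φ y) y), inner_gradient_eq,
      inner_gradient_eq, h2]
    simp only [_root_.add_apply, _root_.smul_apply, InnerProductSpace.toDual_apply_apply,
      real_inner_smul_left, real_inner_comm (gradient u y) y, h0.inner_gradient_self, smul_eq_mul]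
    field_simp
    ring
  have e2 : ∫ y : E, a ‖y‖ / ‖y‖ ^ 2 * (‖y‖ ^ 2 * lap u y * ext φ y) =
      ∫ y, trc (fderiv ℝ (gradient u) y) * (a ‖y‖ * ext φ y) := by
    refine integral_congr_ae ?_
    filter_upwards [hne] with y hy
    have h3 : ‖y‖ ≠ 0 := norm_ne_zero_iff.2 hy
    rw [lap, hess]
    field_simp
  rw [e1, key, ← e2, mul_neg, r2, ← mul_neg] at r1
  exact (mul_left_cancel₀ hpos.ne' r1).symm

/-- Lipschitz functions are dense in `X E`: `φ x = ⨅ x', (R x' + L dist x x')` with `L` large, or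
Stone–Weierstrass (the Lipschitz functions form a point-separating subalgebra,
`ContinuousMap.subalgebra_topologicalClosure_eq_top_of_separatesPoints`). -/
theorem exists_lip_near (R : X E) {η : ℝ} (hη : 0 < η) : ∃ φ : X E, Lip φ ∧ ‖φ - R‖ ≤ η := by
  let A : Subalgebra ℝ (X E) :=
    { carrier := {f | ∃ g : E → ℝ, ContDiff ℝ 1 g ∧ ∀ x, f x = g x}
      mul_mem' := fun ⟨g, hg, h⟩ ⟨g', hg', h'⟩ => ⟨_, hg.mul hg', fun x => by simp [h, h']⟩
      add_mem' := fun ⟨g, hg, h⟩ ⟨g', hg', h'⟩ => ⟨_, hg.add hg', fun x => by simp [h, h']⟩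
      algebraMap_mem' := fun r => ⟨fun _ => r, contDiff_const, fun x => by simp⟩ }
  obtain ⟨⟨φ, g, hg, h⟩, hφ⟩ := ContinuousMap.exists_mem_subalgebra_near_continuousMap_of_separatesPoints
    A (fun x y hxy => ⟨_, ⟨⟨fun z => ‖(z : E) - x‖ ^ 2, by fun_prop⟩, ⟨fun z => ‖z - x‖ ^ 2,
      (contDiff_id.sub contDiff_const).norm_sq ℝ, fun _ => rfl⟩, rfl⟩, fun h => hxy (by
        simpa [sub_eq_zero, eq_comm, Subtype.ext_iff] using h.symm)⟩) R η hη
  obtain ⟨K, hK⟩ := (hg.locallyLipschitz.locallyLipschitzOn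
    (s := sphere (0 : E) 1)).exists_lipschitzOnWith_of_compact (isCompact_sphere 0 1)
  exact ⟨φ, ⟨K, fun x y => by rw [h, h]; exact hK x.2 y.2⟩, hφ.le⟩

/-- `∫ R² = ∫ R (R - φ) ≤ m0 ‖R‖ η`; `eq_zero_of_integral_sq`. -/
theorem dbr {R : X E} (h : ∀ φ : X E, Lip φ → ∫ y, ext R y * ext φ y ∂mu E = 0) : R = 0 := by
  refine eq_zero_of_integral_sq (le_antisymm (le_of_forall_pos_le_add fun η hη => ?_)
    (integral_nonneg fun y => mul_self_nonneg _))
  have hp : 0 < ‖R‖ * (mu E).real univ + 1 := by positivity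
  obtain ⟨φ, hφ, h1⟩ := exists_lip_near R (div_pos hη hp)
  have i : ∀ v : X E, Integrable (fun y => ext R y * ext v y) (mu E) := fun v =>
    (integrable_ext v).bdd_mul (measurable_ext R).aestronglyMeasurable
      (Eventually.of_forall fun y => abs_ext_le R y)
  have h2 := norm_integral_le_of_norm_le_const (μ := mu E)
    (f := fun y => ext R y * ext (φ - R) y) (C := ‖R‖ * (η / (‖R‖ * (mu E).real univ + 1)))
    (Eventually.of_forall fun y => (norm_mul _ _).trans_le
      (mul_le_mul (abs_ext_le R y) ((abs_ext_le _ y).trans h1) (norm_nonneg _) (norm_nonneg _)))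
  simp only [ext_sub, mul_sub] at h2
  rw [integral_sub (i φ) (i R), h φ hφ, zero_sub, norm_neg] at h2
  refine (le_abs_self _).trans (h2.trans ?_)
  rw [mul_right_comm, ← mul_div_assoc, div_le_iff₀ hp]
  nlinarith

/-- second derivative test: for every `v`, `t ↦ u (y + t v)` has a local maximum at `0`, so
`⟪v, hess u y v⟫ ≤ 0`; sum over an orthonormal basis (`LinearMap.trace_eq_sum_inner`). -/
theorem lap_nonpos_of_isLocalMax {u : E → ℝ} {y : E} (hu : ContDiffAt ℝ 2 u y)
    (hm : IsLocalMax u y) : lap u y ≤ 0 := by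
  rw [lap, trc, LinearMap.trace_eq_sum_inner _ (stdOrthonormalBasis ℝ E)]
  refine Finset.sum_nonpos fun i _ => ?_
  set v : E := stdOrthonormalBasis ℝ E i
  by_contra hpos
  push Not at hpos
  have hl : ∀ t : ℝ, HasDerivAt (fun t : ℝ => y + t • v) v t := fun t => by
    simpa using ((hasDerivAt_id t).smul_const v).const_add y
  have hc : Tendsto (fun t : ℝ => y + t • v) (𝓝 0) (𝓝 y) := by
    simpa using (hl 0).continuousAt.tendsto
  have h1 : deriv (fun t : ℝ => u (y + t • v)) =ᶠ[𝓝 0] fun t => ⟪v, gradient u (y + t • v)⟫ := by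
    filter_upwards [hc.eventually (hu.eventually (by simp))] with t ht
    rw [real_inner_comm, inner_gradient_eq]
    exact ((ht.differentiableAt two_ne_zero).hasFDerivAt.comp_hasDerivAt t (hl t)).deriv
  have hg : DifferentiableAt ℝ (gradient u) (y + (0 : ℝ) • v) := by
    rw [zero_smul, add_zero]
    exact ((InnerProductSpace.toDual ℝ E).symm.contDiff.contDiffAt.comp y
      (hu.fderiv_right (m := 1) le_rfl)).differentiableAt one_ne_zero
  have h2 : deriv (deriv fun t : ℝ => u (y + t • v)) 0 = ⟪v, hess u y v⟫ := by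
    rw [h1.deriv_eq]
    have := ((innerSL ℝ v).hasFDerivAt.comp_hasDerivAt (0 : ℝ)
      (hg.hasFDerivAt.comp_hasDerivAt (0 : ℝ) (hl 0))).deriv
    rw [zero_smul, add_zero] at this
    exact this
  have hmax : IsLocalMax (fun t : ℝ => u (y + t • v)) 0 := by
    have h' : IsLocalMax u (y + (0 : ℝ) • v) := by simpa using hm
    exact h'.comp_continuous (g := fun t : ℝ => y + t • v) (hl 0).continuousAt
  have hmin := isLocalMin_of_deriv_deriv_pos (by rw [h2]; exact hpos) hmax.deriv_eq_zero (by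
    have h' : ContinuousAt u (y + (0 : ℝ) • v) := by simpa using hu.continuousAt
    exact h'.comp (f := fun t : ℝ => y + t • v) (hl 0).continuousAt)
  have h3 : (fun t : ℝ => u (y + t • v)) =ᶠ[𝓝 0] fun _ => u (y + (0 : ℝ) • v) := by
    filter_upwards [hmax, hmin] with t h1 h2 using le_antisymm h1 h2
  have h4 := h3.deriv.deriv_eq
  rw [h2] at h4
  simp only [deriv_const', deriv_const] at h4
  exact hpos.ne' h4

theorem lap_nonneg_of_isLocalMin {u : E → ℝ} {y : E} (hu : ContDiffAt ℝ 2 u y)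
    (hm : IsLocalMin u y) : 0 ≤ lap u y := by
  have h := lap_nonpos_of_isLocalMax hu.neg hm.neg
  have e : gradient (fun x => -u x) = fun x => -gradient u x := by
    funext x
    simp [gradient]
  rw [lap, hess, e, fderiv_fun_neg] at h
  simpa [trc, lap, hess] using h

theorem continuousOn_lap {u : E → ℝ} (hu : ContDiffOn ℝ 2 u {0}ᶜ) : ContinuousOn (lap u) {0}ᶜ := by
  have hY : ContDiffOn ℝ 1 (gradient u) {0}ᶜ :=
    (InnerProductSpace.toDual ℝ E).symm.contDiff.comp_contDiffOn
      (hu.fderiv_of_isOpen isOpen_compl_singleton le_rfl)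
  exact ((LinearMap.trace ℝ E).comp
    (ContinuousLinearMap.coeLM ℝ)).continuous_of_finiteDimensional.comp_continuousOn
      (hY.continuousOn_fderiv_of_isOpen isOpen_compl_singleton le_rfl)

end Crest.Agent.R246.A
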